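import Vale.Agent.P100.Repr

/-! A priori decay of solutions. -/

set_option linter.unusedSectionVars false

namespace Vale.Agent.P100

open MeasureTheory Set Filter Topology Metric Module
open scoped ENNReal RealInnerProductSpace

variable {E : Type*} [NormedAddCommGroup E] [InnerProductSpace ℝ E]
  [MeasurableSpace E] [BorelSpace E] [FiniteDimensional ℝ E]

/-- Positive solutions of the system in dimension at least three. -/
structure Sys (m : ℕ) (p q A B : ℝ) (u v : E → ℝ) : Prop where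
  hm : finrank ℝ E = m + 2
  h0 : 0 < m
  hp : 0 < p
  hq : 0 < q
  su : Sup u (rho A p v)
  sv : Sup v (rho B q u)

variable {m : ℕ} {p q A B R V : ℝ} {u v : E → ℝ}

lemma Sys.swap (h : Sys m p q A B u v) : Sys m q p B A v u := ⟨h.hm, h.h0, h.hq, h.hp, h.sv, h.su⟩

variable (E) in
/-- Constant in the annulus estimate. -/
noncomputable def kap (m : ℕ) (A : ℝ) : ℝ := (2 ^ m)⁻¹ * min ((1 / 2) ^ A) 1 * ((4 ^ (m + 2))⁻¹ * om E)

lemma kap_pos : 0 < kap E m A := by
  have := om_pos (E := E)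
  unfold kap; positivity

lemma ann (hm : finrank ℝ E = m + 2) (hp : 0 < p) (hR : 0 < R) {x : E} (hx : ‖x‖ ≤ R) (hV : 0 ≤ V)
    (hv : ∀ y, ‖y‖ ≤ R → V ≤ v y) :
    ENNReal.ofReal (kap E m A * R ^ (2 + A) * V ^ p) ≤
      ∫⁻ y in closedBall (0 : E) R, Ke m (x - y) * ENNReal.ofReal (rho A p v y) := by
  have : Nontrivial E := Module.nontrivial_of_finrank_pos (R := ℝ) (by omega)
  obtain ⟨e, he⟩ := exists_norm_eq E (by positivity : 0 ≤ 3 / 4 * R)
  have hb : ∀ y ∈ closedBall e (R / 4), R / 2 ≤ ‖y‖ ∧ ‖y‖ ≤ R := fun y hy => by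
    rw [mem_closedBall, dist_eq_norm] at hy
    have := abs_le.mp (abs_norm_sub_norm_le y e)
    constructor <;> linarith [this.1, this.2]
  set D := ((2 * R) ^ m)⁻¹ * (min ((1 / 2) ^ A) 1 * R ^ A * V ^ p) with hD
  have D0 : 0 ≤ D := by positivity
  calc _ = ∫⁻ _ in closedBall e (R / 4), ENNReal.ofReal D := by
        rw [setLIntegral_const, vol_cb e (by positivity), ← ENNReal.ofReal_mul D0, hm, hD, kap,
          Real.rpow_add hR, Real.rpow_two, mul_pow, div_pow]
        congr 1; field_simp; ring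
    _ ≤ ∫⁻ y in closedBall e (R / 4), Ke m (x - y) * ENNReal.ofReal (rho A p v y) := by
        refine setLIntegral_mono' measurableSet_closedBall fun y hy => ?_
        obtain ⟨h1, h2⟩ := hb y hy
        rw [hD, ENNReal.ofReal_mul (by positivity)]
        refine mul_le_mul' ?_ (ENNReal.ofReal_le_ofReal (mul_le_mul ?_
          (Real.rpow_le_rpow hV (hv y h2) hp.le) (by positivity) (by positivity)))
        · rw [← cancel_k (inv_pos.mpr (by positivity : 0 < (2 * R) ^ m)) (Ke m _), inv_inv]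
          exact le_mul_of_one_le_right' (one_le_Ke (by positivity)
            ((norm_sub_le _ _).trans (by linarith)))
        · rcases le_total 0 A with hA | hA
          · refine (mul_le_mul_of_nonneg_right (min_le_left _ _) (by positivity)).trans ?_
            rw [← Real.mul_rpow (by positivity) hR.le]
            exact Real.rpow_le_rpow (by positivity) (by linarith) hA
          · refine (mul_le_mul_of_nonneg_right (min_le_right _ _) (by positivity)).trans ?_
            rw [one_mul]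
            exact Real.rpow_le_rpow_of_nonpos (by linarith) h2 hA
    _ ≤ _ := lintegral_mono_set fun y hy => by simpa using (hb y hy).2

lemma ex_min (hu : Continuous u) (hR : 0 ≤ R) : ∃ x : E, ‖x‖ ≤ R ∧ ∀ y, ‖y‖ ≤ R → u x ≤ u y := by
  obtain ⟨x, hx, h⟩ := (isCompact_closedBall (0 : E) R).exists_isMinOn
    ⟨0, mem_closedBall_self hR⟩ hu.continuousOn
  exact ⟨x, by simpa using hx, fun y hy => h (by simpa using hy)⟩

theorem Sys.gt (h : Sys m p q A B u v) : 0 < 2 + A := by
  by_contra hA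
  obtain ⟨z, -, hz⟩ := ex_min h.sv.cu zero_le_one
  have T0 : Tendsto (fun j : ℕ => ((j : ℝ) + 1)⁻¹) atTop (𝓝 0) :=
    (tendsto_atTop_add_const_right _ _ tendsto_natCast_atTop_atTop).inv_tendsto_atTop
  have T : Tendsto (volume ∘ fun j : ℕ => closedBall (0 : E) ((j : ℝ) + 1)⁻¹) atTop (𝓝 0) := by
    have := ENNReal.tendsto_ofReal ((T0.pow (m + 2)).mul_const (om E))
    simp only [ne_eq, Nat.add_eq_zero_iff, OfNat.ofNat_ne_zero, and_false, not_false_eq_true,
      zero_pow, zero_mul, ENNReal.ofReal_zero] at this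
    refine this.congr fun j => ?_
    rw [Function.comp, vol_cb _ (by positivity), h.hm]
  have T2 := tendsto_setLIntegral_zero ((h.su.le h.hm h.h0 0).trans_lt ENNReal.ofReal_lt_top).ne T
  have := h.sv.pu z
  have := kap_pos (E := E) (m := m) (A := A)
  refine absurd (ge_of_tendsto' (b := ENNReal.ofReal (kap E m A * 1 * v z ^ p)) T2 fun j => ?_)
    (not_le.mpr (ENNReal.ofReal_pos.mpr (by positivity)))
  have h1 : ((j : ℝ) + 1)⁻¹ ≤ 1 := inv_le_one_of_one_le₀ (by simp)
  refine le_trans (ENNReal.ofReal_le_ofReal ?_) (ann (V := v z) h.hm h.hp (by positivity)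
    (by simp; positivity) (by positivity) fun y hy => hz y (hy.trans h1))
  gcongr
  exact Real.one_le_rpow_of_pos_of_le_one_of_nonpos (by positivity) h1 (not_lt.mp hA)

lemma Sys.log_le (h : Sys m p q A B u v) (hR : 0 < R) {x z : E} (hx : ‖x‖ ≤ R)
    (hz : ∀ y, ‖y‖ ≤ R → v z ≤ v y) :
    Real.log (kap E m A / cc E) + (2 + A) * Real.log R + p * Real.log (v z) ≤ Real.log (u x) := by
  have h1 := cc_pos h.hm h.h0
  have h2 := kap_pos (E := E) (m := m) (A := A)
  have h3 := h.su.pu x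
  have h4 := h.sv.pu z
  have := ((ann (A := A) h.hm h.hp hR hx h4.le hz).trans (setLIntegral_le_lintegral _ _)).trans
    (h.su.le h.hm h.h0 x)
  rw [ENNReal.ofReal_le_ofReal_iff (by positivity)] at this
  have := Real.log_le_log (by positivity) this
  rw [Real.log_mul (by positivity) (by positivity), Real.log_mul (by positivity) (by positivity),
    Real.log_mul (by positivity) (by positivity), Real.log_rpow hR, Real.log_rpow h4] at this
  rw [Real.log_div h2.ne' h1.ne']
  linarith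

lemma Sys.log_le2 (h : Sys m p q A B u v) : ∃ D, ∀ R, 0 < R → ∃ x : E, ‖x‖ ≤ R ∧ u x ≤ u 0 ∧
    (2 + A + p * (2 + B)) * Real.log R + (p * q - 1) * Real.log (u x) ≤ D := by
  refine ⟨-(Real.log (kap E m A / cc E) + p * Real.log (kap E m B / cc E)), fun R hR => ?_⟩
  obtain ⟨x, hx, hx'⟩ := ex_min h.su.cu hR.le
  obtain ⟨z, hz, hz'⟩ := ex_min h.sv.cu hR.le
  refine ⟨x, hx, hx' 0 (by simpa using hR.le), ?_⟩
  have h1 := h.log_le hR hx hz'
  have h2 := mul_le_mul_of_nonneg_left (h.swap.log_le hR hz hx') h.hp.le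
  linarith

lemma Sys.s_pos (h : Sys m p q A B u v) : 0 < 2 + A + p * (2 + B) :=
  add_pos h.gt (mul_pos h.hp h.swap.gt)

theorem Sys.pq (h : Sys m p q A B u v) : 0 < p * q - 1 := by
  by_contra hc
  obtain ⟨D, hD⟩ := h.log_le2
  have hs := h.s_pos
  obtain ⟨x, -, h1, h2⟩ := hD (Real.exp ((D - (p * q - 1) * Real.log (u 0) + 1) /
    (2 + A + p * (2 + B)))) (Real.exp_pos _)
  rw [Real.log_exp, mul_div_cancel₀ _ hs.ne'] at h2
  have := mul_le_mul_of_nonpos_left (Real.log_le_log (h.su.pu x) h1) (not_lt.mp hc)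
  linarith

/-- Scaling exponent. -/
noncomputable def al (p q A B : ℝ) : ℝ := (2 + A + p * (2 + B)) / (p * q - 1)

lemma Sys.al_pos (h : Sys m p q A B u v) : 0 < al p q A B := div_pos h.s_pos h.pq

lemma Sys.al_eq (h : Sys m p q A B u v) : al p q A B + 2 + A = p * al q p B A := by
  have := h.pq.ne'
  unfold al; rw [mul_comm q p]; field_simp; ring

theorem Sys.decay (h : Sys m p q A B u v) : ∃ M, 0 < M ∧ ∀ R, 0 < R → ∃ x : E, ‖x‖ ≤ R ∧
    R ^ al p q A B * u x ≤ M := by
  obtain ⟨D, hD⟩ := h.log_le2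
  refine ⟨Real.exp (D / (p * q - 1)), Real.exp_pos _, fun R hR => ?_⟩
  obtain ⟨x, hx, -, h2⟩ := hD R hR
  have := h.su.pu x
  refine ⟨x, hx, (Real.log_le_iff_le_exp (by positivity)).mp ?_⟩
  rw [Real.log_mul (by positivity) this.ne', Real.log_rpow hR, le_div_iff₀ h.pq, add_mul, al,
    mul_right_comm, div_mul_cancel₀ _ h.pq.ne']
  linarith

lemma Sys.inf (h : Sys m p q A B u v) (δ : ℝ) (hδ : 0 < δ) : ∃ z, u z ≤ δ := by
  obtain ⟨M, hM, h1⟩ := h.decay
  obtain ⟨R, h2, h3⟩ := (((tendsto_rpow_atTop h.al_pos).eventually_ge_atTop (M / δ)).and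
    (eventually_gt_atTop 0)).exists
  obtain ⟨x, -, hx⟩ := h1 R h3
  refine ⟨x, le_of_mul_le_mul_left (hx.trans ?_) (Real.rpow_pos_of_pos h3 _)⟩
  rwa [div_le_iff₀ hδ] at h2

theorem Sys.sol (h : Sys m p q A B u v) : Sol m (cc E) p q A B u v :=
  ⟨⟨cc_pos h.hm h.h0, h.hp, h.hq, h.su.cu, h.sv.cu, h.su.pu, h.sv.pu, h.su.mr, h.sv.mr, h.su.nr,
    h.sv.nr, h.su.eq h.hm h.h0 h.inf, h.sv.eq h.hm h.h0 h.swap.inf⟩,
    h.su.du.of_le (by norm_num), h.sv.du.of_le (by norm_num), h.hm⟩

end Vale.Agent.P100
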