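import Mathlib

/-! Components of super-level sets along lines. -/

namespace Vale.Agent.P100

open MeasureTheory Set Filter Topology
open scoped ENNReal

variable {E : Type*} [NormedAddCommGroup E] [InnerProductSpace ℝ E]

/-- Truncated exit time of the super-level set in direction `w`. -/
noncomputable def ex (f : E → ℝ) (w : E) (T : ℝ) (o : E × ℝ) : ℝ :=
  sInf {t : ℝ | 0 ≤ t ∧ (f (o.1 + t • w) ≤ o.2 ∨ T ≤ t)}

section ex
variable {f : E → ℝ} {w : E} {T : ℝ}

lemma ex_mem (hf : Continuous f) (hT : 0 ≤ T) (o : E × ℝ) :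
    0 ≤ ex f w T o ∧ (f (o.1 + ex f w T o • w) ≤ o.2 ∨ T ≤ ex f w T o) := by
  have hc : IsClosed {t : ℝ | 0 ≤ t ∧ (f (o.1 + t • w) ≤ o.2 ∨ T ≤ t)} := by
    refine IsClosed.inter (isClosed_le continuous_const continuous_id) (IsClosed.union ?_ ?_)
    · exact isClosed_le (by fun_prop : Continuous fun t : ℝ => f (o.1 + t • w)) continuous_const
    · exact isClosed_le continuous_const continuous_id
  exact hc.csInf_mem ⟨T, hT, Or.inr le_rfl⟩ ⟨0, fun t ht => ht.1⟩

lemma ex_le_of (o : E × ℝ) {t : ℝ} (h0 : 0 ≤ t) (h : f (o.1 + t • w) ≤ o.2 ∨ T ≤ t) :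
    ex f w T o ≤ t :=
  csInf_le ⟨0, fun _ ht => ht.1⟩ ⟨h0, h⟩

lemma ex_le (hT : 0 ≤ T) (o : E × ℝ) : ex f w T o ≤ T := ex_le_of o hT (Or.inr le_rfl)

lemma lt_of_lt_ex (o : E × ℝ) {t : ℝ} (h0 : 0 ≤ t) (h : t < ex f w T o) :
    o.2 < f (o.1 + t • w) := by
  by_contra hc
  exact absurd (ex_le_of (f := f) (w := w) (T := T) o h0 (Or.inl (not_lt.mp hc))) (not_le.mpr h)

lemma ex_eq (hf : Continuous f) (hT : 0 ≤ T) (o : E × ℝ) {b : ℝ} (h0 : 0 ≤ b) (hb : b ≤ T)
    (h1 : ∀ t, 0 ≤ t → t < b → o.2 < f (o.1 + t • w)) (h2 : f (o.1 + b • w) ≤ o.2) :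
    ex f w T o = b := by
  refine le_antisymm (ex_le_of o h0 (Or.inl h2)) ?_
  by_contra hc
  have hc := not_le.mp hc
  obtain ⟨h3, h4 | h4⟩ := ex_mem (w := w) hf hT o
  · exact absurd (h1 _ h3 hc) (not_lt.mpr h4)
  · linarith

lemma ex_pos (hf : Continuous f) (hT : 0 < T) (o : E × ℝ) (h : o.2 < f o.1) :
    0 < ex f w T o := by
  obtain ⟨h3, h4 | h4⟩ := ex_mem (w := w) hf hT.le o
  · rcases h3.lt_or_eq with h5 | h5
    · exact h5
    · rw [← h5] at h4; simp at h4; linarith
  · linarith

lemma f_ex_eq (hf : Continuous f) (hT : 0 < T) (o : E × ℝ) (h : o.2 < f o.1)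
    (h2 : ex f w T o < T) : f (o.1 + ex f w T o • w) = o.2 := by
  obtain ⟨-, h4 | h4⟩ := ex_mem (w := w) hf hT.le o
  · refine le_antisymm h4 ?_
    have hp := ex_pos (w := w) hf hT o h
    have hc : ContinuousWithinAt (fun t : ℝ => f (o.1 + t • w)) (Iio (ex f w T o)) (ex f w T o) :=
      (by fun_prop : Continuous fun t : ℝ => f (o.1 + t • w)).continuousWithinAt
    refine ge_of_tendsto hc ?_
    filter_upwards [Ioo_mem_nhdsLT hp] with t ht
    exact (lt_of_lt_ex o ht.1.le ht.2).le
  · linarith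

lemma measurable_ex [MeasurableSpace E] [BorelSpace E] [SecondCountableTopology E]
    (hf : Continuous f) (hT : 0 ≤ T) : Measurable (ex f w T) := by
  refine measurable_of_Ioi fun s => ?_
  by_cases hs : s < 0
  · have : ex f w T ⁻¹' Ioi s = univ := by
      ext o; simp only [mem_preimage, mem_Ioi, mem_univ, iff_true]
      exact hs.trans_le (ex_mem hf hT o).1
    rw [this]; exact MeasurableSet.univ
  by_cases hs2 : T ≤ s
  · have : ex f w T ⁻¹' Ioi s = ∅ := by
      ext o; simp only [mem_preimage, mem_Ioi, mem_empty_iff_false, iff_false, not_lt]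
      exact (ex_le hT o).trans hs2
    rw [this]; exact MeasurableSet.empty
  have hs := not_lt.mp hs
  have hs2 := not_le.mp hs2
  have : ex f w T ⁻¹' Ioi s = {o : E × ℝ | ∀ t ∈ Icc 0 s, o.2 < f (o.1 + t • w)} := by
    ext o; simp only [mem_preimage, mem_Ioi, mem_ofPred_eq]
    constructor
    · intro h t ht; exact lt_of_lt_ex o ht.1 (ht.2.trans_lt h)
    · intro h
      by_contra hc
      have hc := not_lt.mp hc
      obtain ⟨h3, h4 | h4⟩ := ex_mem (w := w) hf hT o
      · exact absurd (h _ ⟨h3, hc⟩) (not_lt.mpr h4)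
      · linarith
  rw [this]
  refine IsOpen.measurableSet (isOpen_iff_mem_nhds.mpr fun o ho => ?_)
  refine isCompact_Icc.eventually_forall_of_forall_eventually fun t ht => ?_
  have hc1 : Continuous fun z : (E × ℝ) × ℝ => z.1.2 := by fun_prop
  have hc2 : Continuous fun z : (E × ℝ) × ℝ => f (z.1.1 + z.2 • w) := by fun_prop
  exact hc1.continuousAt.eventually_lt hc2.continuousAt (ho t ht)

end ex

/-- Left end point of the component. -/
noncomputable def lo (f : E → ℝ) (w : E) (T : ℝ) (o : E × ℝ) : E := o.1 - ex f (-w) T o • w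

/-- Length (in the parameter) of the component. -/
noncomputable def len (f : E → ℝ) (w : E) (T : ℝ) (o : E × ℝ) : ℝ := ex f (-w) T o + ex f w T o

/-- Points lying on short components whose left end point is in `Λ`. -/
def SS (f : E → ℝ) (w : E) (T : ℝ) (Λ : Set E) : Set (E × ℝ) :=
  {o | 0 < o.2 ∧ o.2 < f o.1 ∧ len f w T o < T ∧ lo f w T o ∈ Λ}

section SS
variable {f : E → ℝ} {w : E} {T : ℝ} {Λ : Set E}

lemma len_pos (hf : Continuous f) (hT : 0 < T) {o : E × ℝ} (h : o.2 < f o.1) :
    0 < len f w T o := add_pos (ex_pos hf hT o h) (ex_pos hf hT o h)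

lemma f_lo (hf : Continuous f) (hT : 0 < T) {o : E × ℝ} (ho : o ∈ SS f w T Λ) :
    f (lo f w T o) = o.2 := by
  have h1 := ex_pos (w := w) hf hT o ho.2.1
  have h2 : ex f (-w) T o < T := by have := ho.2.2.1; unfold len at this; linarith
  have := f_ex_eq (w := -w) hf hT o ho.2.1 h2
  rw [← this]; unfold lo; congr 1; simp [sub_eq_add_neg]

lemma f_hi (hf : Continuous f) (hT : 0 < T) {o : E × ℝ} (ho : o ∈ SS f w T Λ) :
    f (lo f w T o + len f w T o • w) = o.2 := by
  have h1 := ex_pos (w := -w) hf hT o ho.2.1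
  have h2 : ex f w T o < T := by have := ho.2.2.1; unfold len at this; linarith
  have := f_ex_eq (w := w) hf hT o ho.2.1 h2
  rw [← this]; unfold lo len; congr 1; rw [add_smul]; abel

lemma shift_ex (hf : Continuous f) (hT : 0 < T) {o : E × ℝ} (h1 : o.2 < f o.1)
    (h2 : ex f (-w) T o + ex f w T o < T) {t : ℝ} (ht1 : -ex f (-w) T o < t)
    (ht2 : t < ex f w T o) :
    o.2 < f (o.1 + t • w) ∧ ex f w T (o.1 + t • w, o.2) = ex f w T o - t := by
  have hin : ∀ s, -ex f (-w) T o < s → s < ex f w T o → o.2 < f (o.1 + s • w) := by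
    intro s hs1 hs2
    rcases le_total 0 s with h | h
    · exact lt_of_lt_ex o h hs2
    · have := lt_of_lt_ex (f := f) (w := -w) (T := T) o (t := -s) (by linarith) (by linarith)
      simpa using this
  have ha := ex_pos (w := -w) hf hT o h1
  have hb := ex_pos (w := w) hf hT o h1
  refine ⟨hin t ht1 ht2, ex_eq hf hT.le _ (by linarith) (by linarith) ?_ ?_⟩
  · intro s hs0 hs
    have := hin (t + s) (by linarith) (by linarith)
    simpa [add_smul, add_assoc] using this
  · have := f_ex_eq (w := w) hf hT o h1 (by linarith)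
    simp only
    rw [← this]; apply le_of_eq; congr 1; rw [sub_smul]; abel

lemma shift_all (hf : Continuous f) (hT : 0 < T) {o : E × ℝ} (ho : o ∈ SS f w T Λ)
    {t : ℝ} (ht1 : -ex f (-w) T o < t) (ht2 : t < ex f w T o) :
    (o.1 + t • w, o.2) ∈ SS f w T Λ ∧ ex f w T (o.1 + t • w, o.2) = ex f w T o - t ∧
      ex f (-w) T (o.1 + t • w, o.2) = ex f (-w) T o + t ∧
      lo f w T (o.1 + t • w, o.2) = lo f w T o ∧ len f w T (o.1 + t • w, o.2) = len f w T o := by
  obtain ⟨h0, h1, h2, h3⟩ := ho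
  obtain ⟨e1, e2⟩ := shift_ex hf hT h1 h2 ht1 ht2
  have e3 : ex f (-w) T (o.1 + t • w, o.2) = ex f (-w) T o + t := by
    have := (shift_ex (w := -w) hf hT h1 (t := -t) (by unfold len at h2; simp; linarith)
      (by simp; linarith) (by linarith)).2
    simpa using this
  have e4 : lo f w T (o.1 + t • w, o.2) = lo f w T o := by
    unfold lo; rw [e3, add_smul]; simp only; abel
  have e5 : len f w T (o.1 + t • w, o.2) = len f w T o := by
    unfold len; rw [e2, e3]; ring
  exact ⟨⟨h0, e1, by rw [e5]; exact h2, by rw [e4]; exact h3⟩, e2, e3, e4, e5⟩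

/-- The point at relative position `τ` of the component. -/
noncomputable def pt (f : E → ℝ) (w : E) (T : ℝ) (o : E × ℝ) (τ : ℝ) : E × ℝ :=
  (lo f w T o + (τ * len f w T o) • w, o.2)

lemma pt_eq (o : E × ℝ) (τ : ℝ) :
    pt f w T o τ = (o.1 + (τ * len f w T o - ex f (-w) T o) • w, o.2) := by
  unfold pt lo; rw [sub_smul]; congr 1; abel

lemma pt_all (hf : Continuous f) (hT : 0 < T) {o : E × ℝ} (ho : o ∈ SS f w T Λ)
    {τ : ℝ} (hτ : τ ∈ Ioo (0 : ℝ) 1) :
    pt f w T o τ ∈ SS f w T Λ ∧ lo f w T (pt f w T o τ) = lo f w T o ∧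
      len f w T (pt f w T o τ) = len f w T o := by
  have hl := len_pos (w := w) hf hT ho.2.1
  have h1 : 0 < τ * len f w T o := mul_pos hτ.1 hl
  have h2 : τ * len f w T o < len f w T o := by nlinarith [hτ.2]
  have := shift_all hf hT ho (t := τ * len f w T o - ex f (-w) T o) (by linarith)
    (by unfold len at h2 ⊢; linarith)
  rw [pt_eq]
  exact ⟨this.1, this.2.2.2.1, this.2.2.2.2⟩

lemma norm_sub_lo_le (hf : Continuous f) (hT : 0 < T) (o : E × ℝ) :
    ‖o.1 - lo f w T o‖ ≤ T * ‖w‖ := by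
  unfold lo
  rw [sub_sub_cancel, norm_smul, Real.norm_eq_abs, abs_of_nonneg (ex_mem hf hT.le o).1]
  exact mul_le_mul_of_nonneg_right (ex_le hT.le o) (norm_nonneg _)

lemma long_of_notMem {o : E × ℝ} (h0 : 0 < o.2) (h1 : o.2 < f o.1) (hT : 0 < T)
    (hΛ : lo f w T o ∈ Λ) (ho : o ∉ SS f w T Λ) :
    o.2 < f (o.1 + (T / 4) • w) ∨ o.2 < f (o.1 + (-(T / 4)) • w) := by
  have h2 : T ≤ len f w T o := by
    by_contra hc
    exact ho ⟨h0, h1, not_le.mp hc, hΛ⟩
  unfold len at h2
  by_cases h3 : T / 4 < ex f w T o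
  · exact Or.inl (lt_of_lt_ex o (by linarith) h3)
  · have h4 : T / 4 < ex f (-w) T o := by linarith
    have := lt_of_lt_ex o (by linarith) h4
    right; simpa using this

variable [MeasurableSpace E] [BorelSpace E] [FiniteDimensional ℝ E]

lemma measurable_lo (hf : Continuous f) (hT : 0 ≤ T) : Measurable (lo f w T) := by
  have := measurable_ex (w := -w) hf hT
  unfold lo; fun_prop

lemma measurable_len (hf : Continuous f) (hT : 0 ≤ T) : Measurable (len f w T) :=
  (measurable_ex hf hT).add (measurable_ex hf hT)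

lemma measurableSet_SS (hf : Continuous f) (hT : 0 ≤ T) (hΛ : MeasurableSet Λ) :
    MeasurableSet (SS f w T Λ) := by
  have h1 := measurable_lo (w := w) hf hT
  have h2 := measurable_len (w := w) hf hT
  refine (measurableSet_lt measurable_const measurable_snd).inter
    ((measurableSet_lt measurable_snd (hf.measurable.comp measurable_fst)).inter
      ((measurableSet_lt h2 measurable_const).inter (h1 hΛ)))

lemma measurable_pt (hf : Continuous f) (hT : 0 ≤ T) :
    Measurable fun z : (E × ℝ) × ℝ => pt f w T z.1 z.2 := by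
  have h1 := measurable_lo (w := w) hf hT
  have h2 := measurable_len (w := w) hf hT
  unfold pt; fun_prop

lemma lint_scale {G : ℝ → ℝ≥0∞} (hG : Measurable G) {a L : ℝ} (hL : 0 < L) :
    ∫⁻ τ in Ioo (0 : ℝ) 1, G (τ * L - a) =
      (ENNReal.ofReal L)⁻¹ * ∫⁻ t, (Ioo (-a) (L - a)).indicator G t := by
  have h1 : ∫⁻ t, (Ioo (-a) (L - a)).indicator G t =
      ∫⁻ t, (Ioo (-a) (L - a)).indicator G (t - a) :=
    (lintegral_sub_right_eq_self _ a).symm
  have hm : Measurable fun t => (Ioo (-a) (L - a)).indicator G (t - a) :=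
    (hG.indicator measurableSet_Ioo).comp (measurable_id.sub_const a)
  have h2 := Real.map_volume_mul_right hL.ne'
  have h3 : ∫⁻ τ, (Ioo (-a) (L - a)).indicator G (τ * L - a) =
      ENNReal.ofReal |L⁻¹| * ∫⁻ t, (Ioo (-a) (L - a)).indicator G (t - a) := by
    have := lintegral_map (μ := volume) hm (measurable_mul_const L)
    rw [h2, lintegral_smul_measure] at this
    exact this.symm
  rw [h1, abs_of_pos (inv_pos.mpr hL), ENNReal.ofReal_inv_of_pos hL] at *
  rw [← h3, ← lintegral_indicator measurableSet_Ioo]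
  refine lintegral_congr fun τ => ?_
  by_cases hτ : τ ∈ Ioo (0 : ℝ) 1
  · have : τ * L - a ∈ Ioo (-a) (L - a) := ⟨by nlinarith [hτ.1], by nlinarith [hτ.2]⟩
    simp [hτ, this]
  · have : τ * L - a ∉ Ioo (-a) (L - a) := by
      intro h; apply hτ
      constructor
      · by_contra hc; nlinarith [h.1, not_lt.mp hc]
      · by_contra hc; nlinarith [h.2, not_lt.mp hc]
    simp [hτ, this]

/-- Averaging along components preserves the integral. -/
lemma lint_avg (hf : Continuous f) (hT : 0 < T) (hΛ : MeasurableSet Λ) {H : E × ℝ → ℝ≥0∞}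
    (hH : Measurable H) :
    ∫⁻ o in SS f w T Λ, ∫⁻ τ in Ioo (0 : ℝ) 1, H (pt f w T o τ) = ∫⁻ o in SS f w T Λ, H o := by
  have hS := measurableSet_SS (w := w) hf hT.le hΛ
  have ma := measurable_ex (w := -w) hf hT.le
  have mb := measurable_ex (w := w) hf hT.le
  have ml := measurable_len (w := w) hf hT.le
  set D : Set ((E × ℝ) × ℝ) :=
    {z | z.1 ∈ SS f w T Λ ∧ -ex f (-w) T z.1 < z.2 ∧ z.2 < ex f w T z.1} with hD
  have mD : MeasurableSet D :=
    (measurable_fst hS).inter ((measurableSet_lt (ma.comp measurable_fst).neg measurable_snd).inter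
      (measurableSet_lt measurable_snd (mb.comp measurable_fst)))
  set Q : (E × ℝ) × ℝ → ℝ≥0∞ := D.indicator fun z =>
    (ENNReal.ofReal (len f w T z.1))⁻¹ * H (z.1.1 + z.2 • w, z.1.2) with hQ
  set Q' : (E × ℝ) × ℝ → ℝ≥0∞ := fun z => D.indicator (fun z =>
    (ENNReal.ofReal (len f w T z.1))⁻¹) (z.1, -z.2) * H z.1 with hQ'
  have mQ : Measurable Q := by
    refine Measurable.indicator ?_ mD
    exact ((ml.comp measurable_fst).ennreal_ofReal.inv).mul (hH.comp (by fun_prop))
  have mQ' : Measurable Q' := by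
    refine Measurable.mul ?_ (hH.comp measurable_fst)
    exact (Measurable.indicator ((ml.comp measurable_fst).ennreal_ofReal.inv) mD).comp
      (by fun_prop : Measurable fun z : (E × ℝ) × ℝ => (z.1, -z.2))
  have e1 : ∫⁻ o in SS f w T Λ, ∫⁻ τ in Ioo (0 : ℝ) 1, H (pt f w T o τ) =
      ∫⁻ o, ∫⁻ t, Q (o, t) := by
    rw [← lintegral_indicator hS]
    refine lintegral_congr fun o => ?_
    by_cases ho : o ∈ SS f w T Λ
    · rw [indicator_of_mem ho]
      have hl := len_pos (w := w) hf hT ho.2.1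
      have hG : Measurable fun t : ℝ => H (o.1 + t • w, o.2) := hH.comp (by fun_prop)
      have := lint_scale hG (a := ex f (-w) T o) hl
      simp only [pt_eq]
      rw [this, ← lintegral_const_mul _ (hG.indicator measurableSet_Ioo)]
      refine lintegral_congr fun t => ?_
      have e : len f w T o - ex f (-w) T o = ex f w T o := by unfold len; ring
      rw [e]
      by_cases ht : t ∈ Ioo (-ex f (-w) T o) (ex f w T o)
      · have : (o, t) ∈ D := ⟨ho, ht.1, ht.2⟩
        simp only [hQ, indicator_of_mem this, indicator_of_mem ht]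
      · have : (o, t) ∉ D := fun h => ht ⟨h.2.1, h.2.2⟩
        simp only [hQ, indicator_of_notMem this, indicator_of_notMem ht, mul_zero]
    · rw [indicator_of_notMem ho]
      have : ∀ t, Q (o, t) = 0 := fun t => by
        have : (o, t) ∉ D := fun h => ho h.1
        simp only [hQ, indicator_of_notMem this]
      simp [this]
  have e2 : ∀ t : ℝ, ∫⁻ o, Q (o, t) = ∫⁻ o, Q' (o, t) := by
    intro t
    have : (volume : Measure (E × ℝ)).IsAddRightInvariant := by
      rw [Measure.volume_eq_prod]; infer_instance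
    rw [← lintegral_add_right_eq_self (fun o => Q' (o, t)) ((t • w, 0) : E × ℝ)]
    refine lintegral_congr fun o => ?_
    have eo : o + ((t • w, 0) : E × ℝ) = (o.1 + t • w, o.2) := by ext <;> simp
    rw [eo]
    by_cases h : (o, t) ∈ D
    · obtain ⟨s1, s2, s3, -, s5⟩ := shift_all hf hT h.1 h.2.1 h.2.2
      have h' : ((o.1 + t • w, o.2), -t) ∈ D := by
        have ha := ex_pos (w := -w) hf hT o h.1.2.1
        have hb := ex_pos (w := w) hf hT o h.1.2.1
        refine ⟨s1, ?_, ?_⟩
        · simp only at s3 ⊢; rw [s3]; linarith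
        · simp only at s2 ⊢; rw [s2]; linarith
      simp only [hQ, hQ', indicator_of_mem h, indicator_of_mem h']
      simp only at s5; rw [s5]
    · have h' : ((o.1 + t • w, o.2), -t) ∉ D := by
        intro h'
        obtain ⟨s1, s2, s3, -, -⟩ := shift_all hf hT h'.1 h'.2.1 h'.2.2
        have ha := ex_pos (w := -w) hf hT _ h'.1.2.1
        have hb := ex_pos (w := w) hf hT _ h'.1.2.1
        have eo' : ((o.1 + t • w + -t • w, o.2) : E × ℝ) = o := by ext <;> simp
        simp only [eo'] at s1 s2 s3 ha hb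
        exact h ⟨s1, by simp only; rw [s3]; linarith, by simp only; rw [s2]; linarith⟩
      simp only [hQ, hQ', indicator_of_notMem h, indicator_of_notMem h', zero_mul]
  rw [e1, lintegral_lintegral_swap (f := fun o t => Q (o, t)) mQ.aemeasurable]
  simp only [e2]
  rw [← lintegral_lintegral_swap (f := fun o t => Q' (o, t)) mQ'.aemeasurable,
    ← lintegral_indicator hS]
  refine lintegral_congr fun o => ?_
  by_cases ho : o ∈ SS f w T Λ
  · rw [indicator_of_mem ho]
    have hl := len_pos (w := w) hf hT ho.2.1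
    have : ∀ t, Q' (o, t) = (Ioo (-ex f w T o) (ex f (-w) T o)).indicator
        (fun _ => (ENNReal.ofReal (len f w T o))⁻¹ * H o) t := by
      intro t
      by_cases ht : t ∈ Ioo (-ex f w T o) (ex f (-w) T o)
      · have : (o, -t) ∈ D := ⟨ho, by simp only; linarith [ht.2], by simp only; linarith [ht.1]⟩
        simp only [hQ', indicator_of_mem this, indicator_of_mem ht]
      · have : (o, -t) ∉ D := fun h =>
          ht ⟨by have := h.2.2; simp only at this; linarith,
            by have := h.2.1; simp only at this; linarith⟩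
        simp only [hQ', indicator_of_notMem this, indicator_of_notMem ht, zero_mul]
    simp only [this]
    rw [lintegral_indicator measurableSet_Ioo, setLIntegral_const, Real.volume_Ioo]
    have e : ex f (-w) T o - -ex f w T o = len f w T o := by unfold len; ring
    rw [e, mul_right_comm, ENNReal.inv_mul_cancel (by simpa using hl) ENNReal.ofReal_ne_top,
      one_mul]
  · rw [indicator_of_notMem ho]
    have : ∀ t, Q' (o, t) = 0 := fun t => by
      have : (o, -t) ∉ D := fun h => ho h.1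
      simp only [hQ', indicator_of_notMem this, zero_mul]
    simp [this]

end SS

/-- Averaging in both variables. -/
lemma lint_avg2 [MeasurableSpace E] [BorelSpace E] [FiniteDimensional ℝ E]
    {f g : E → ℝ} {w : E} {T : ℝ} {Λ : Set E}
    (hf : Continuous f) (hg : Continuous g) (hT : 0 < T) (hΛ : MeasurableSet Λ)
    {H : (E × ℝ) × (E × ℝ) → ℝ≥0∞} (hH : Measurable H) :
    ∫⁻ o in SS f w T Λ, ∫⁻ o' in SS g w T Λ, H (o, o') =
      ∫⁻ o in SS f w T Λ, ∫⁻ o' in SS g w T Λ, ∫⁻ τ in Ioo (0 : ℝ) 1, ∫⁻ τ' in Ioo (0 : ℝ) 1,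
        H (pt f w T o τ, pt g w T o' τ') := by
  have m1 := measurable_pt (w := w) hf hT.le
  have m2 := measurable_pt (w := w) hg hT.le
  have h1 : Measurable fun o => ∫⁻ o' in SS g w T Λ, H (o, o') := hH.lintegral_prod_right'
  rw [← lint_avg hf hT hΛ h1]
  refine lintegral_congr fun o => ?_
  have h2 : ∀ τ, ∫⁻ o' in SS g w T Λ, H (pt f w T o τ, o') =
      ∫⁻ o' in SS g w T Λ, ∫⁻ τ' in Ioo (0 : ℝ) 1, H (pt f w T o τ, pt g w T o' τ') := fun τ =>
    (lint_avg hg hT hΛ (H := fun o' => H (pt f w T o τ, o')) (hH.comp (by fun_prop))).symm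
  simp only [h2]
  refine lintegral_lintegral_swap ?_
  have m3 : Measurable fun z : (ℝ × (E × ℝ)) × ℝ =>
      H (pt f w T o z.1.1, pt g w T z.1.2 z.2) := by
    refine hH.comp (Measurable.prodMk ?_ ?_)
    · exact m1.comp (by fun_prop : Measurable fun z : (ℝ × (E × ℝ)) × ℝ => (o, z.1.1))
    · exact m2.comp (by fun_prop : Measurable fun z : (ℝ × (E × ℝ)) × ℝ => (z.1.2, z.2))
  exact m3.lintegral_prod_right'.aemeasurable

end Vale.Agent.P100
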