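import Vale.Agent.P100.Apri

/-! Scaling, iteration and conclusion. -/

set_option linter.unusedSectionVars false

namespace Vale.Agent.P100

open MeasureTheory Set Filter Topology Metric Module
open scoped ENNReal RealInnerProductSpace

theorem iterate_false {F : ℝ → ℝ} (hF : Monotone F) (h1 : 0 < F 1) {σ s K C η : ℝ} {N : ℕ}
    (hσ : 0 < σ) (hs : 0 < s) (hK : 0 ≤ K) (_hC : 0 ≤ C) (hη : 0 < η) (hN : N ≠ 0)
    (h : ∀ R τ, 1 ≤ R → 0 < τ → τ ≤ η →
      s * (R ^ σ * F R) ≤ K * (R ^ σ * F (R * (1 + 9 * τ)) - R ^ σ * F R) + C / τ ^ N) : False := by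
  set δ := s / (2 * (K + 1)) with hδ
  have δ0 : 0 < δ := by positivity
  set θ := (1 + δ)⁻¹ ^ ((N : ℝ)⁻¹) with hθ
  have θ0 : 0 < θ := by positivity
  have θ1 : θ < 1 := Real.rpow_lt_one (by positivity) (inv_lt_one_of_one_lt₀ (by linarith))
    (inv_pos.mpr (Nat.cast_pos.mpr (Nat.pos_of_ne_zero hN)))
  have θN : θ ^ N = (1 + δ)⁻¹ := Real.rpow_inv_natCast_pow (by positivity) hN
  obtain ⟨r0, h2, h3⟩ := (((tendsto_rpow_atTop hσ).eventually_ge_atTop
    (2 * C / (η ^ N * F 1 * s))).and (eventually_ge_atTop 1)).exists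
  let r : ℕ → ℝ := fun j => Nat.rec r0 (fun i x => x * (1 + 9 * (η * θ ^ i))) j
  have hr : ∀ j, r (j + 1) = r j * (1 + 9 * (η * θ ^ j)) := fun j => rfl
  have t1 : 0 < 1 - θ := by linarith
  have key : ∀ j, r0 ≤ r j ∧ r j * Real.exp (9 * (η * θ ^ j) / (1 - θ)) ≤
      r0 * Real.exp (9 * η / (1 - θ)) ∧ (1 + δ) ^ j * F 1 ≤ F (r j) := by
    intro j
    induction j with
    | zero => exact ⟨le_rfl, by simp [r], by simpa [r] using hF h3⟩
    | succ j ih =>
      obtain ⟨a1, a2, a3⟩ := ih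
      have r1 : 1 ≤ r j := h3.trans a1
      have r2 : 0 < r j := by linarith
      have τ0 : 0 < η * θ ^ j := by positivity
      have a4 : r j ≤ r (j + 1) := by rw [hr]; exact le_mul_of_one_le_right r2.le (by linarith)
      refine ⟨a1.trans a4, le_trans ?_ a2, ?_⟩
      · rw [hr, mul_assoc]
        refine mul_le_mul_of_nonneg_left ((mul_le_mul_of_nonneg_right
          ((add_comm _ _).trans_le (Real.add_one_le_exp _)) (Real.exp_pos _).le).trans
          (le_of_eq ?_)) r2.le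
        rw [← Real.exp_add]; congr 1; field_simp; ring
      · have b1 := h (r j) _ r1 τ0 (mul_le_of_le_one_right hη.le (pow_le_one₀ θ0.le θ1.le))
        rw [← hr] at b1
        have b2 : 0 < r j ^ σ := by positivity
        have b3 : C / (η * θ ^ j) ^ N ≤ s / 2 * (r j ^ σ * F (r j)) := by
          have c1 : 2 * C / (η ^ N * F 1 * s) ≤ r j ^ σ :=
            h2.trans (Real.rpow_le_rpow (by linarith) a1 hσ.le)
          calc _ = s / 2 * (2 * C / (η ^ N * F 1 * s) * ((1 + δ) ^ j * F 1)) := by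
                rw [mul_pow, ← pow_mul, mul_comm j, pow_mul, θN, inv_pow]; field_simp
            _ ≤ _ := by gcongr
        have b4 := hF a4
        have b5 : s / 2 * F (r j) ≤ (K + 1) * (F (r (j + 1)) - F (r j)) := by
          refine le_of_mul_le_mul_left ?_ b2
          have := mul_nonneg b2.le (sub_nonneg.mpr b4)
          linarith
        have b6 : δ * F (r j) ≤ F (r (j + 1)) - F (r j) := by
          rw [hδ, div_mul_eq_mul_div, div_le_iff₀ (by positivity)]; linarith
        have := mul_le_mul_of_nonneg_left a3 (by positivity : 0 ≤ 1 + δ)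
        rw [pow_succ]; linarith
  obtain ⟨j, hj⟩ := (((tendsto_pow_atTop_atTop_of_one_lt (by linarith : 1 < 1 + δ)).atTop_mul_const
    h1).eventually_gt_atTop (F (r0 * Real.exp (9 * η / (1 - θ))))).exists
  obtain ⟨a1, a2, a3⟩ := key j
  refine absurd (a3.trans (hF (le_trans ?_ a2))) (not_le.mpr hj)
  exact le_mul_of_one_le_right (by linarith) (Real.one_le_exp (by positivity))

lemma exists_lip (A : ℝ) : ∃ L, 0 ≤ L ∧ ∀ r : ℝ, 1 ≤ r → r ≤ 2 → |r ^ A - 1| ≤ L * (r - 1) := by
  have h : ContDiffOn ℝ 1 (fun r : ℝ => r ^ A) (Icc 1 2) :=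
    contDiffOn_id.rpow_const_of_ne fun r hr => (zero_lt_one.trans_le hr.1).ne'
  obtain ⟨K, hK⟩ := h.exists_lipschitzOnWith one_ne_zero (convex_Icc _ _) isCompact_Icc
  refine ⟨K, K.2, fun r h1 h2 => ?_⟩
  have := hK.dist_le_mul r ⟨h1, h2⟩ 1 ⟨le_rfl, one_le_two⟩
  rwa [Real.dist_eq, Real.dist_eq, Real.one_rpow, abs_of_nonneg (sub_nonneg.mpr h1)] at this

variable {E : Type*} [NormedAddCommGroup E] [InnerProductSpace ℝ E]
  [MeasurableSpace E] [BorelSpace E] [FiniteDimensional ℝ E]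

variable {m : ℕ} {c p q A B R α β : ℝ} {u v : E → ℝ}

/-- Rescaled function. -/
noncomputable def sc (R α : ℝ) (u : E → ℝ) : E → ℝ := fun x => R ^ α * u (R • x)

lemma rho_sc (hR : 0 < R) (hv : ∀ x, 0 < v x) (e : α + 2 + A = p * β) (x : E) :
    rho A p (sc R β v) x = R ^ (α + 2) * rho A p v (R • x) := by
  unfold rho sc
  rw [Real.mul_rpow (by positivity) (hv _).le, norm_smul, Real.norm_of_nonneg hR.le,
    Real.mul_rpow hR.le (norm_nonneg _), ← Real.rpow_mul hR.le, mul_comm β, ← e,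
    Real.rpow_add hR (α + 2)]
  ring

lemma Ke_smul (hR : 0 < R) (z : E) : Ke m z = ENNReal.ofReal (R ^ m) * Ke m (R • z) := by
  refine le_antisymm (Ke_le_mul hR (by rw [norm_smul, Real.norm_of_nonneg hR.le])) ?_
  rw [← cancel_k (pow_pos hR m) (Ke m z), ← inv_pow]
  refine mul_le_mul_right (Ke_le_mul (inv_pos.mpr hR) (le_of_eq ?_)) _
  rw [norm_smul, Real.norm_of_nonneg hR.le]; field_simp

lemma pot_sc (hm : finrank ℝ E = m + 2) (hR : 0 < R) (hv : ∀ x, 0 < v x) (e : α + 2 + A = p * β)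
    (mr : Measurable (rho A p v))
    (ru : ∀ x, ENNReal.ofReal (c * u x) = ∫⁻ y, Ke m (x - y) * ENNReal.ofReal (rho A p v y))
    (x : E) : ENNReal.ofReal (c * sc R α u x) =
      ∫⁻ y, Ke m (x - y) * ENNReal.ofReal (rho A p (sc R β v) y) := by
  have := measurable_Ke (E := E) m
  have e1 : ∀ y, Ke m (x - y) * ENNReal.ofReal (rho A p (sc R β v) y) =
      ENNReal.ofReal (R ^ m * R ^ (α + 2)) *
        (Ke m (R • x - R • y) * ENNReal.ofReal (rho A p v (R • y))) := fun y => by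
    rw [rho_sc hR hv e, Ke_smul hR, smul_sub, ENNReal.ofReal_mul (by positivity),
      ENNReal.ofReal_mul (by positivity)]
    ring
  simp only [e1]
  rw [lintegral_const_mul' _ _ ENNReal.ofReal_ne_top, lint_smul
    (g := fun y => Ke m (R • x - y) * ENNReal.ofReal (rho A p v y)) (by fun_prop) hR.ne', ← ru,
    ← ENNReal.ofReal_mul (abs_nonneg _), ← ENNReal.ofReal_mul (by positivity), sc,
    abs_of_pos (by positivity), hm, Real.rpow_add hR, Real.rpow_two]
  congr 1; field_simp; ring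

lemma meas_rho (hv : Continuous v) : Measurable (rho A p v) := by
  have := hv.measurable
  unfold rho; fun_prop

lemma rho_nonneg (hv : ∀ x, 0 < v x) (x : E) : 0 ≤ rho A p v x := by
  have := hv x
  unfold rho; positivity

lemma cd_sc (hR : 0 < R) (h : ContDiffOn ℝ 1 u {0}ᶜ) : ContDiffOn ℝ 1 (sc R α u) {0}ᶜ :=
  contDiffOn_const.mul (h.comp (contDiff_id.const_smul R).contDiffOn fun _ hx =>
    smul_ne_zero hR.ne' hx)

lemma Sol.sc (h : Sol m c p q A B u v) (hR : 0 < R) (e1 : α + 2 + A = p * β)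
    (e2 : β + 2 + B = q * α) : Sol m c p q A B (sc R α u) (sc R β v) := by
  have cu : Continuous (P100.sc R α u) := by have := h.pot.cu; unfold P100.sc; fun_prop
  have cv : Continuous (P100.sc R β v) := by have := h.pot.cv; unfold P100.sc; fun_prop
  have pu : ∀ x, 0 < P100.sc R α u x := fun x => mul_pos (by positivity) (h.pot.pu _)
  have pv : ∀ x, 0 < P100.sc R β v x := fun x => mul_pos (by positivity) (h.pot.pv _)
  exact ⟨⟨h.pot.hc, h.pot.hp, h.pot.hq, cu, cv, pu, pv, meas_rho cv, meas_rho cu, rho_nonneg pv,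
    rho_nonneg pu, pot_sc h.dim hR h.pot.pv e1 h.pot.m1 h.pot.ru,
    pot_sc h.dim hR h.pot.pu e2 h.pot.m2 h.pot.rv⟩, cd_sc hR h.du, cd_sc hR h.dv, h.dim⟩

lemma setLint_smul {g : E → ℝ≥0∞} (hg : Measurable g) (hR : 0 < R) (r : ℝ) :
    ∫⁻ x in closedBall (0 : E) r, g (R • x) =
      ENNReal.ofReal (R ^ finrank ℝ E)⁻¹ * ∫⁻ x in closedBall (0 : E) (R * r), g x := by
  rw [← lintegral_indicator measurableSet_closedBall,
    ← lintegral_indicator measurableSet_closedBall, ← abs_of_pos (a := (R ^ _)⁻¹) (by positivity),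
    ← lint_smul (hg.indicator measurableSet_closedBall) hR.ne']
  refine lintegral_congr fun x => ?_
  simp only [indicator, mem_closedBall, dist_zero_right, norm_smul, Real.norm_of_nonneg hR.le,
    mul_le_mul_iff_right₀ hR]

lemma Sol.pi_sc (h : Sol m c p q A B u v) (hR : 0 < R) (e1 : α + 2 + A = p * β)
    (e2 : β + 2 + B = q * α) (r : ℝ) :
    (piM m (rho A p (P100.sc R β v)) (rho B q (P100.sc R α u))).real {z | ‖z.1‖ ≤ r} =
      R ^ (α + β - m) * (piM m (rho A p v) (rho B q u)).real {z | ‖z.1‖ ≤ R * r} := by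
  have e : ∀ r : ℝ, {z : E × E | ‖z.1‖ ≤ r} = {z | z.1 ∈ closedBall (0 : E) r} := fun r => by
    ext z; simp
  have := h.pot.m1; have := h.pot.cv.measurable
  have e3 : ∀ x, ENNReal.ofReal (rho A p (P100.sc R β v) x) * ENNReal.ofReal (c * P100.sc R β v x) =
      ENNReal.ofReal (R ^ (α + 2) * R ^ β) *
        (ENNReal.ofReal (rho A p v (R • x)) * ENNReal.ofReal (c * v (R • x))) := fun x => by
    rw [rho_sc hR h.pot.pv e1, P100.sc, mul_left_comm c, ENNReal.ofReal_mul (by positivity),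
      ENNReal.ofReal_mul (p := R ^ β) (by positivity), ENNReal.ofReal_mul (p := R ^ (α + 2))
      (by positivity)]
    ring
  rw [Measure.real, Measure.real, e, e, (h.sc hR e1 e2).pot.pi_fst measurableSet_closedBall,
    h.pot.pi_fst measurableSet_closedBall]
  simp only [e3]
  rw [lintegral_const_mul' _ _ ENNReal.ofReal_ne_top, setLint_smul
    (g := fun x => ENNReal.ofReal (rho A p v x) * ENNReal.ofReal (c * v x)) (by fun_prop) hR,
    ← mul_assoc, ← ENNReal.ofReal_mul (by positivity), ENNReal.toReal_mul,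
    ENNReal.toReal_ofReal (by positivity), h.dim, Real.rpow_sub hR, Real.rpow_add hR,
    Real.rpow_add hR, Real.rpow_two, Real.rpow_natCast]
  congr 1; field_simp; ring

lemma Sys.bd1 (h : Sys m p q A B u v) : ∃ M, 0 < M ∧ ∀ R, 0 < R →
    (∃ x : E, ‖x‖ ≤ 2 ∧ sc R (al p q A B) u x ≤ M) ∧
    ∫⁻ x in closedBall (0 : E) 2, ENNReal.ofReal (sc R (al p q A B) u x) ≤ ENNReal.ofReal M := by
  obtain ⟨M, hM, h1⟩ := h.decay
  have c := CH_nonneg (E := E)
  refine ⟨M + CH E * 3 ^ finrank ℝ E * M, by positivity, fun R hR => ?_⟩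
  obtain ⟨x, hx, h2⟩ := h1 R hR
  refine ⟨⟨R⁻¹ • x, ?_, ?_⟩, ?_⟩
  · rw [norm_smul, Real.norm_of_nonneg (inv_pos.mpr hR).le, inv_mul_le_iff₀ hR]; linarith
  · rw [sc, smul_inv_smul₀ hR.ne']
    exact h2.trans (le_add_of_nonneg_right (by positivity))
  · have := h.su.cu.measurable
    have := h.su.pu x
    simp only [sc, ENNReal.ofReal_mul (Real.rpow_pos_of_pos hR _).le]
    rw [lintegral_const_mul' _ _ ENNReal.ofReal_ne_top, setLint_smul
      (g := fun x => ENNReal.ofReal (u x)) (by fun_prop) hR]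
    refine (mul_le_mul_right (mul_le_mul_right ((lintegral_mono_set (t := closedBall x (3 * R))
      (closedBall_subset_closedBall' (by simp; linarith))).trans (h.su.harn x (by positivity))) _)
      _).trans ?_
    rw [← ENNReal.ofReal_mul (by positivity), ← ENNReal.ofReal_mul (by positivity)]
    refine ENNReal.ofReal_le_ofReal (le_trans (le_of_eq ?_) ((mul_le_mul_of_nonneg_left h2
      (by positivity : 0 ≤ CH E * 3 ^ finrank ℝ E)).trans (le_add_of_nonneg_left hM.le)))
    rw [mul_pow]; field_simp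

lemma Sys.bd (h : Sys m p q A B u v) : ∃ M, 0 < M ∧ ∀ R, 0 < R →
    Bd M (sc R (al p q A B) u) (sc R (al q p B A) v) := by
  obtain ⟨M1, a1, a2⟩ := h.bd1
  obtain ⟨M2, b1, b2⟩ := h.swap.bd1
  refine ⟨M1 + M2, by positivity, fun R hR => ?_⟩
  obtain ⟨⟨x, a3, a4⟩, a5⟩ := a2 R hR
  obtain ⟨⟨y, b3, b4⟩, b5⟩ := b2 R hR
  exact ⟨by positivity, ⟨x, a3, by linarith⟩, ⟨y, b3, by linarith⟩,
    a5.trans (ENNReal.ofReal_le_ofReal (by linarith)),
    b5.trans (ENNReal.ofReal_le_ofReal (by linarith))⟩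

theorem Sys.false (h : Sys m p q A B u v)
    (hs : (m : ℝ) < (m + 2 + A) / (p + 1) + (m + 2 + B) / (q + 1)) : False := by
  have : Nontrivial E := Module.nontrivial_of_finrank_pos (R := ℝ) (by rw [h.hm]; omega)
  have hp := h.hp; have hq := h.hq; have hA := h.gt; have hB := h.swap.gt
  have S := h.sol
  have e1 := h.al_eq; have e2 := h.swap.al_eq
  obtain ⟨M, hM, hb⟩ := h.bd
  obtain ⟨L1, l1, l2⟩ := exists_lip A
  obtain ⟨L2, l3, l4⟩ := exists_lip B
  have ha : 0 ≤ (m + 2 + A) / (p + 1) := by rw [add_assoc]; positivity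
  have hb' : 0 ≤ (m + 2 + B) / (q + 1) := by rw [add_assoc]; positivity
  obtain ⟨K, C, hK, hC, H⟩ := main_unit (E := E) m S.pot.hc hM (by positivity : 0 ≤ L1 + L2) ha hb'
  have hσ : 0 < al p q A B + al q p B A - m := by
    have e : (m + 2 + A) / (p + 1) + (m + 2 + B) / (q + 1) - m =
        (al p q A B + al q p B A - m) * ((p * q - 1) / ((p + 1) * (q + 1))) := by
      generalize al p q A B = α at *
      generalize al q p B A = β at *
      rw [show A = p * β - α - 2 by linarith, show B = q * α - β - 2 by linarith]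
      field_simp; ring
    have := h.pq
    exact (pos_iff_pos_of_mul_pos (e ▸ sub_pos.mpr hs)).mpr (by positivity)
  refine iterate_false (F := fun r => (piM m (rho A p v) (rho B q u)).real {z | ‖z.1‖ ≤ r})
    (fun r r' hr => measureReal_mono (fun z hz => le_trans hz hr) (S.pot.fin_fst _).ne) ?_
    hσ (sub_pos.mpr hs) hK hC (η := min (1 / 10) (16 * (L1 + L2) + 1)⁻¹) (by positivity)
    (N := 5 * (m + 2) + 1) (by omega) fun R τ hR t0 t1 => ?_
  · refine ENNReal.toReal_pos (fun h0 => ?_) (S.pot.fin_fst _).ne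
    have := S.pot.m1; have := S.pot.cv.measurable
    rw [show {z : E × E | ‖z.1‖ ≤ 1} = {z | z.1 ∈ closedBall (0 : E) 1} by ext z; simp,
      S.pot.pi_fst measurableSet_closedBall, lintegral_eq_zero_iff (by fun_prop)] at h0
    refine (measure_closedBall_pos volume (0 : E) one_pos).ne' ?_
    rw [← Measure.restrict_eq_zero, ← ae_eq_bot, ← eventually_false_iff_eq_bot]
    filter_upwards [h0, ae_restrict_of_ae (Measure.ae_ne volume (0 : E))] with x h1 h2
    have := norm_pos_iff.mpr h2; have := S.pot.pv x; have := S.pot.hc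
    refine mul_ne_zero (ENNReal.ofReal_pos.mpr ?_).ne' (ENNReal.ofReal_pos.mpr ?_).ne' h1
    · unfold rho; positivity
    · positivity
  · have R0 : 0 < R := by linarith
    have := H p q A B τ _ _ (S.sc R0 e1 e2) (hb R R0)
      (fun r a b => (l2 r a b).trans (mul_le_mul_of_nonneg_right (by linarith) (by linarith)))
      (fun r a b => (l4 r a b).trans (mul_le_mul_of_nonneg_right (by linarith) (by linarith)))
      rfl rfl t0 (t1.trans (min_le_left _ _)) (by
        have := (le_inv_comm₀ t0 (by positivity)).mp (t1.trans (min_le_right _ _))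
        rw [← one_div, le_div_iff₀ t0] at this
        linarith)
    simpa only [S.pi_sc R0 e1 e2, mul_one] using this

open Laplacian in
lemma sup_of (hn : 2 ≤ finrank ℝ E) (cu : Continuous u) (cv : Continuous v)
    (du : ContDiffOn ℝ 2 u {0}ᶜ) (pu : ∀ x, 0 < u x) (pv : ∀ x, 0 < v x)
    (he : ∀ x, x ≠ 0 → -Δ u x = ‖x‖ ^ A * v x ^ p) : Sup u (rho A p v) :=
  ⟨hn, cu, pu, du, (continuous_norm.continuousOn.rpow_const fun _ hx =>
    Or.inl (norm_ne_zero_iff.mpr hx)).mul (cv.continuousOn.rpow_const fun x _ => Or.inl (pv x).ne'),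
    meas_rho cv, rho_nonneg pv, fun x hx => by
      rw [← lap_eq (du.contDiffAt (isOpen_compl_singleton.mem_nhds hx)), rho, ← he x hx, neg_neg]⟩

open Laplacian in
theorem no_solution (hn : 2 ≤ finrank ℝ E) (hp : 0 < p) (hq : 0 < q)
    (hs : (finrank ℝ E : ℝ) - 2 < (finrank ℝ E + A) / (p + 1) + (finrank ℝ E + B) / (q + 1))
    (cu : Continuous u) (cv : Continuous v) (du : ContDiffOn ℝ 2 u {0}ᶜ)
    (dv : ContDiffOn ℝ 2 v {0}ᶜ) (pu : ∀ x, 0 < u x) (pv : ∀ x, 0 < v x)
    (eu : ∀ x, x ≠ 0 → -Δ u x = ‖x‖ ^ A * v x ^ p)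
    (ev : ∀ x, x ≠ 0 → -Δ v x = ‖x‖ ^ B * u x ^ q) : False := by
  have su := sup_of hn cu cv du pu pv eu
  obtain ⟨m, hm⟩ := Nat.exists_eq_add_of_le' hn
  rcases m.eq_zero_or_pos with rfl | h0
  · refine su.two hm fun y hy => ?_
    have := norm_pos_iff.mpr hy; have := pv y
    unfold rho; positivity
  · refine Sys.false ⟨hm, h0, hp, hq, su, sup_of hn cv cu dv pv pu ev⟩ ?_
    rw [hm] at hs; push_cast at hs; linarith

end Vale.Agent.P100
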