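import Vale.Agent.P100.PohoA

/-! Green's identity with a removable point. -/

set_option linter.unusedSectionVars false

namespace Vale.Agent.P100

open MeasureTheory Set Filter Topology Metric Module Laplacian
open scoped ENNReal RealInnerProductSpace

variable {E : Type*} [NormedAddCommGroup E] [InnerProductSpace ℝ E]
  [MeasurableSpace E] [BorelSpace E] [FiniteDimensional ℝ E]

/-- Directional derivative. -/
noncomputable def DD (e : E) (f : E → ℝ) : E → ℝ := fun y => fderiv ℝ f y e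

/-- Laplacian in coordinates. -/
noncomputable def lap (f : E → ℝ) (x : E) : ℝ :=
  ∑ i, DD (stdOrthonormalBasis ℝ E i) (DD (stdOrthonormalBasis ℝ E i) f) x

lemma lap_eq {f : E → ℝ} {x : E} (hf : ContDiffAt ℝ 2 f x) : Δ f x = lap f x := by
  rw [InnerProductSpace.laplacian_eq_iteratedFDeriv_stdOrthonormalBasis]
  refine Finset.sum_congr rfl fun i _ => ?_
  have h1 : DifferentiableAt ℝ (fderiv ℝ f) x :=
    (hf.fderiv_right (m := 1) (by norm_num)).differentiableAt one_ne_zero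
  rw [iteratedFDeriv_two_apply]
  unfold DD
  rw [fderiv_clm_apply h1 (differentiableAt_const _)]
  simp

lemma DD_contDiffOn {f : E → ℝ} {U : Set E} (hU : IsOpen U) (hf : ContDiffOn ℝ 2 f U) (e : E) :
    ContDiffOn ℝ 1 (DD e f) U :=
  (hf.fderiv_of_isOpen hU (by norm_num)).clm_apply contDiffOn_const

lemma DD_contDiff {f : E → ℝ} (hf : ContDiff ℝ 2 f) (e : E) : ContDiff ℝ 1 (DD e f) :=
  contDiffOn_univ.mp (DD_contDiffOn isOpen_univ hf.contDiffOn e)

lemma DD_continuous {f : E → ℝ} (hf : ContDiff ℝ 1 f) (e : E) : Continuous (DD e f) :=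
  (hf.continuous_fderiv one_ne_zero).clm_apply continuous_const

lemma tsupport_DD (f : E → ℝ) (e : E) : tsupport (DD e f) ⊆ tsupport f :=
  tsupport_fderiv_apply_subset ℝ e

lemma csupport_DD {f : E → ℝ} (hf : HasCompactSupport f) (e : E) : HasCompactSupport (DD e f) :=
  hf.fderiv_apply ℝ e

lemma DD_mul {f g : E → ℝ} {x : E} (hf : DifferentiableAt ℝ f x) (hg : DifferentiableAt ℝ g x)
    (e : E) : DD e (fun y => f y * g y) x = f x * DD e g x + g x * DD e f x := by
  unfold DD; rw [fderiv_fun_mul hf hg]; simp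

lemma DD_sub {f g : E → ℝ} {x : E} (hf : DifferentiableAt ℝ f x) (hg : DifferentiableAt ℝ g x)
    (e : E) : DD e (fun y => f y - g y) x = DD e f x - DD e g x := by
  unfold DD; rw [fderiv_fun_sub hf hg]; simp

lemma DD_add {f g : E → ℝ} {x : E} (hf : DifferentiableAt ℝ f x) (hg : DifferentiableAt ℝ g x)
    (e : E) : DD e (fun y => f y + g y) x = DD e f x + DD e g x := by
  unfold DD; rw [fderiv_fun_add hf hg]; simp

lemma lap_zero_of {f : E → ℝ} {x : E} (hx : x ∉ tsupport f) : lap f x = 0 :=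
  Finset.sum_eq_zero fun _ _ => image_eq_zero_of_notMem_tsupport fun h =>
    hx (tsupport_DD _ _ (tsupport_DD _ _ h))

lemma continuous_lap {f : E → ℝ} (hf : ContDiff ℝ 2 f) : Continuous (lap f) :=
  continuous_finsetSum _ fun _ _ => DD_continuous (DD_contDiff hf _) _

lemma csupport_lap {f : E → ℝ} (hf : HasCompactSupport f) : HasCompactSupport (lap f) :=
  HasCompactSupport.intro hf fun _ hx => lap_zero_of hx

lemma green0 {Γ u : E → ℝ} {U : Set E} (hU : IsOpen U) (hΓ : ContDiff ℝ 2 Γ)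
    (hs : HasCompactSupport Γ) (ht : tsupport Γ ⊆ U) (hu : ContDiffOn ℝ 2 u U) :
    ∫ x, (u x * lap Γ x - Γ x * lap u x) = 0 := by
  set b := stdOrthonormalBasis ℝ E
  have hΓ1 : ContDiff ℝ 1 Γ := hΓ.of_le (by norm_num)
  have hu1 : ContDiffOn ℝ 1 u U := hu.of_le (by norm_num)
  have c1 : ∀ i, ContDiff ℝ 1 fun x => DD (b i) Γ x * u x := fun i =>
    contDiff_mul_of_tsupport (k := 1) hU (DD_contDiff hΓ _) hu1 ((tsupport_DD _ _).trans ht)
  have c2 : ∀ i, ContDiff ℝ 1 fun x => Γ x * DD (b i) u x := fun i =>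
    contDiff_mul_of_tsupport (k := 1) hU hΓ1 (DD_contDiffOn hU hu _) ht
  have s1 : ∀ i, HasCompactSupport fun x => DD (b i) Γ x * u x - Γ x * DD (b i) u x := fun i =>
    HasCompactSupport.intro hs fun x hx => by
      rw [image_eq_zero_of_notMem_tsupport hx,
        image_eq_zero_of_notMem_tsupport fun h => hx (tsupport_DD _ _ h)]; simp
  have e : ∀ x, u x * lap Γ x - Γ x * lap u x =
      ∑ i, DD (b i) (fun x => DD (b i) Γ x * u x - Γ x * DD (b i) u x) x := by
    intro x
    by_cases hx : x ∈ tsupport Γ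
    · have hx' := hU.mem_nhds (ht hx)
      unfold lap
      rw [Finset.mul_sum, Finset.mul_sum, ← Finset.sum_sub_distrib]
      refine Finset.sum_congr rfl fun i _ => ?_
      rw [DD_sub ((c1 i).differentiable one_ne_zero x) ((c2 i).differentiable one_ne_zero x),
        DD_mul ((DD_contDiff hΓ _).differentiable one_ne_zero x)
          ((hu1.contDiffAt hx').differentiableAt one_ne_zero),
        DD_mul (hΓ1.differentiable one_ne_zero x)
          (((DD_contDiffOn hU hu _).contDiffAt hx').differentiableAt one_ne_zero)]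
      ring
    · rw [lap_zero_of hx, image_eq_zero_of_notMem_tsupport hx, mul_zero, zero_mul, sub_zero]
      refine (Finset.sum_eq_zero fun i _ => image_eq_zero_of_notMem_tsupport fun h => hx ?_).symm
      refine closure_minimal (fun y hy => ?_) (isClosed_tsupport Γ) (tsupport_DD _ _ h)
      by_contra hc
      refine hy ?_
      simp only
      rw [image_eq_zero_of_notMem_tsupport hc,
        image_eq_zero_of_notMem_tsupport fun h => hc (tsupport_DD _ _ h)]; simp
  simp only [e]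
  rw [integral_finsetSum _ fun i _ => (DD_continuous ((c1 i).sub (c2 i)) _).integrable_of_hasCompactSupport
    (csupport_DD (s1 i) _)]
  exact Finset.sum_eq_zero fun i _ => int_fderiv_zero ((c1 i).sub (c2 i)) (s1 i) _

lemma lap_const (a : ℝ) (x : E) : lap (fun _ => a) x = 0 := by
  have : ∀ e : E, DD e (fun _ : E => a) = fun _ => 0 := fun e => by ext; simp [DD]
  simp [lap, this, DD]

lemma int_lap_zero {Γ : E → ℝ} (hΓ : ContDiff ℝ 2 Γ) (hs : HasCompactSupport Γ) :
    ∫ x, lap Γ x = 0 := by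
  simpa [lap_const] using green0 (u := fun _ => 1) isOpen_univ hΓ hs (subset_univ _) contDiffOn_const

lemma lap_sub {f g : E → ℝ} (hf : ContDiff ℝ 2 f) (hg : ContDiff ℝ 2 g) (x : E) :
    lap (fun y => f y - g y) x = lap f x - lap g x := by
  unfold lap
  rw [← Finset.sum_sub_distrib]
  refine Finset.sum_congr rfl fun i _ => ?_
  have : ∀ e, DD e (fun y => f y - g y) = fun y => DD e f y - DD e g y := fun e => funext fun y =>
    DD_sub (hf.differentiable two_ne_zero y) (hg.differentiable two_ne_zero y) e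
  rw [this, DD_sub ((DD_contDiff hf _).differentiable one_ne_zero x)
    ((DD_contDiff hg _).differentiable one_ne_zero x)]

lemma DD_DD_mul {f g : E → ℝ} (hf : ContDiff ℝ 2 f) (hg : ContDiff ℝ 2 g) (e x : E) :
    DD e (DD e fun y => f y * g y) x =
      f x * DD e (DD e g) x + 2 * (DD e f x * DD e g x) + g x * DD e (DD e f) x := by
  have f1 := hf.differentiable two_ne_zero
  have g1 := hg.differentiable two_ne_zero
  have f2 := (DD_contDiff hf e).differentiable one_ne_zero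
  have g2 := (DD_contDiff hg e).differentiable one_ne_zero
  have : DD e (fun y => f y * g y) = fun y => f y * DD e g y + g y * DD e f y :=
    funext fun y => DD_mul (f1 y) (g1 y) e
  rw [this, DD_add ((f1 x).fun_mul (g2 x)) ((g1 x).fun_mul (f2 x)), DD_mul (f1 x) (g2 x),
    DD_mul (g1 x) (f2 x)]
  ring

lemma DD_smul {f : E → ℝ} (hf : Differentiable ℝ f) (a t : ℝ) (e : E) :
    DD e (fun y => a * f (t • y)) = fun y => a * t * DD e f (t • y) := by
  ext y
  have a1 : HasFDerivAt (fun y : E => t • y) (t • ContinuousLinearMap.id ℝ E) y :=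
    (hasFDerivAt_id y).const_smul t
  have a2 := ((hf (t • y)).hasFDerivAt.comp y a1).const_mul a
  unfold DD
  rw [show (fun y => a * f (t • y)) = fun y => a * (f ∘ fun y => t • y) y from rfl, a2.fderiv]
  simp [mul_assoc]

lemma bdd3 {f : E → ℝ} (hf : ContDiff ℝ 2 f) (hs : HasCompactSupport f) :
    ∃ C, 0 ≤ C ∧ ∀ i x, |f x| ≤ C ∧ |DD (stdOrthonormalBasis ℝ E i) f x| ≤ C ∧
      |DD (stdOrthonormalBasis ℝ E i) (DD (stdOrthonormalBasis ℝ E i) f) x| ≤ C := by
  set b := stdOrthonormalBasis ℝ E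
  have h1 := fun i => DD_continuous (hf.of_le (by norm_num)) (b i)
  have h2 := fun i => DD_continuous (DD_contDiff hf (b i)) (b i)
  have hc : Continuous fun x => |f x| + ∑ i, (|DD (b i) f x| + |DD (b i) (DD (b i) f) x|) :=
    hf.continuous.abs.add (continuous_finsetSum _ fun i _ => (h1 i).abs.add (h2 i).abs)
  obtain ⟨C, hC⟩ := hc.bounded_above_of_compact_support (HasCompactSupport.intro hs fun x hx => by
    have a1 : ∀ i, DD (b i) f x = 0 := fun i =>
      image_eq_zero_of_notMem_tsupport fun h => hx (tsupport_DD _ _ h)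
    have a2 : ∀ i, DD (b i) (DD (b i) f) x = 0 := fun i =>
      image_eq_zero_of_notMem_tsupport fun h => hx (tsupport_DD _ _ (tsupport_DD _ _ h))
    simp [a1, a2, image_eq_zero_of_notMem_tsupport hx])
  refine ⟨C, (norm_nonneg _).trans (hC 0), fun i x => ?_⟩
  have a1 := (le_abs_self _).trans (hC x)
  have a2 := Finset.single_le_sum (f := fun i => |DD (b i) f x| + |DD (b i) (DD (b i) f) x|)
    (fun i _ => by positivity) (Finset.mem_univ i)
  have := abs_nonneg (f x); have := abs_nonneg (DD (b i) f x)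
  have := abs_nonneg (DD (b i) (DD (b i) f) x)
  exact ⟨by linarith, by linarith, by linarith⟩

lemma cut_small (hn : 2 ≤ finrank ℝ E) {Γ u φ : E → ℝ} (hΓ : ContDiff ℝ 2 Γ)
    (hs : HasCompactSupport Γ) (hu : Continuous u) (hφ : ContDiff ℝ 2 φ)
    (hφ0 : ∀ x, 2 < ‖x‖ → φ x = 0) :
    Tendsto (fun j : ℕ => ∫ x, u x * lap (fun y => Γ y * φ (((j : ℝ) + 1) • y)) x) atTop (𝓝 0) := by
  obtain ⟨C1, C10, hC1⟩ := bdd3 hΓ hs
  obtain ⟨C2, C20, hC2⟩ := bdd3 hφ (HasCompactSupport.intro (isCompact_closedBall (0 : E) 2)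
    fun x hx => hφ0 x (by simpa using hx))
  set ω := (volume (ball (0 : E) 1)).toReal with hω
  have ω0 : 0 ≤ ω := ENNReal.toReal_nonneg
  set K := finrank ℝ E * (4 * (C1 * C2)) * (2 ^ finrank ℝ E * ω) with hK
  have K0 : 0 ≤ K := by positivity
  rw [Metric.tendsto_atTop]
  intro ε hε
  obtain ⟨δ, hδ, hδ'⟩ := Metric.continuous_iff.mp hu 0 (ε / (K + 1)) (by positivity)
  obtain ⟨N, hN⟩ := exists_nat_gt (2 / δ)
  refine ⟨N, fun j hj => ?_⟩
  set t : ℝ := (j : ℝ) + 1 with ht
  have t1 : 1 ≤ t := by have := Nat.cast_nonneg (α := ℝ) j; linarith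
  have t0 : 0 < t := by linarith
  have t2 : 2 / t < δ := by
    have : (N : ℝ) ≤ j := Nat.cast_le.mpr hj
    rw [div_lt_iff₀ hδ] at hN
    rw [div_lt_iff₀ t0]; nlinarith
  have c1 : ContDiff ℝ 2 fun y => φ (t • y) := hφ.comp (contDiff_id.const_smul t)
  have c2 : ContDiff ℝ 2 fun y => Γ y * φ (t • y) := hΓ.mul c1
  have s2 : HasCompactSupport fun y => Γ y * φ (t • y) := hs.mul_right
  have i1 := (continuous_lap c2).integrable_of_hasCompactSupport (μ := volume) (csupport_lap s2)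
  have i2 : Integrable fun x => u x * lap (fun y => Γ y * φ (t • y)) x :=
    (hu.mul (continuous_lap c2)).integrable_of_hasCompactSupport (csupport_lap s2).mul_left
  have e : ∫ x, u x * lap (fun y => Γ y * φ (t • y)) x =
      ∫ x, (u x - u 0) * lap (fun y => Γ y * φ (t • y)) x := by
    simp only [sub_mul]
    rw [integral_sub i2 (i1.const_mul _), integral_const_mul, int_lap_zero c2 s2]; simp
  have b1 : ∀ x, |lap (fun y => Γ y * φ (t • y)) x| ≤ finrank ℝ E * (4 * (C1 * C2)) * t ^ 2 := by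
    intro x
    refine (Finset.abs_sum_le_sum_abs _ _).trans ((Finset.sum_le_card_nsmul _ _
      (4 * (C1 * C2) * t ^ 2) fun i _ => ?_).trans (le_of_eq (by simp; ring)))
    have d1 := DD_smul (hφ.differentiable two_ne_zero) 1 t (stdOrthonormalBasis ℝ E i)
    simp only [one_mul] at d1
    rw [DD_DD_mul hΓ c1, d1,
      DD_smul ((DD_contDiff hφ _).differentiable one_ne_zero) t t (stdOrthonormalBasis ℝ E i)]
    obtain ⟨a1, a2, a3⟩ := hC1 i x
    obtain ⟨a4, a5, a6⟩ := hC2 i (t • x)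
    refine (abs_add_le _ _).trans ((add_le_add (abs_add_le _ _) le_rfl).trans ?_)
    simp only [abs_mul, abs_of_pos t0, abs_two]
    calc _ ≤ C1 * (t * t * C2) + 2 * (C1 * (t * C2)) + C2 * C1 := by gcongr
      _ ≤ _ := by
        have : 0 ≤ C1 * C2 := by positivity
        have h1 : t ≤ t ^ 2 := by nlinarith
        have h2 := mul_le_mul_of_nonneg_left h1 this
        have h3 := mul_le_mul_of_nonneg_left (t1.trans h1) this
        nlinarith
  have b2 : ∀ x, x ∉ closedBall (0 : E) (2 / t) → lap (fun y => Γ y * φ (t • y)) x = 0 := by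
    intro x hx
    refine lap_zero_of fun h => hx (closure_minimal (fun y hy => ?_) isClosed_closedBall h)
    by_contra hc
    refine hy ?_
    simp only [mem_closedBall, dist_zero_right, not_le] at hc
    simp only
    rw [hφ0, mul_zero]
    rw [norm_smul, Real.norm_eq_abs, abs_of_pos t0]
    rwa [div_lt_iff₀' t0] at hc
  rw [dist_zero_right, e, ← setIntegral_eq_integral_of_forall_compl_eq_zero
    (s := closedBall (0 : E) (2 / t)) fun x hx => by rw [b2 x hx, mul_zero]]
  refine (norm_setIntegral_le_of_norm_le_const measure_closedBall_lt_top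
    (C := ε / (K + 1) * (finrank ℝ E * (4 * (C1 * C2)) * t ^ 2)) fun x hx => ?_).trans_lt ?_
  · rw [norm_mul]
    refine mul_le_mul ?_ (b1 x) (norm_nonneg _) (by positivity)
    rw [← dist_eq_norm]
    exact (hδ' x ((mem_closedBall.mp hx).trans_lt t2)).le
  · rw [Measure.real, Measure.addHaar_closedBall _ _ (by positivity), ENNReal.toReal_mul,
      ENNReal.toReal_ofReal (by positivity), ← hω]
    have h1 : t ^ 2 * (2 / t) ^ finrank ℝ E ≤ 2 ^ finrank ℝ E := by
      rw [div_pow, ← mul_div_assoc, div_le_iff₀ (by positivity), mul_comm]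
      exact mul_le_mul_of_nonneg_left (pow_le_pow_right₀ t1 hn) (by positivity)
    calc _ = ε / (K + 1) * (finrank ℝ E * (4 * (C1 * C2)) * (t ^ 2 * (2 / t) ^ finrank ℝ E * ω)) := by
          ring
      _ ≤ ε / (K + 1) * K := by rw [hK]; gcongr
      _ < ε := by rw [div_mul_eq_mul_div, div_lt_iff₀ (by positivity)]; nlinarith

theorem green1 (hn : 2 ≤ finrank ℝ E) {Γ u ρ : E → ℝ} (hΓ : ContDiff ℝ 2 Γ)
    (hs : HasCompactSupport Γ) (hΓ0 : ∀ x, 0 ≤ Γ x) (hu : Continuous u)
    (hu2 : ContDiffOn ℝ 2 u {0}ᶜ) (hρ : ContinuousOn ρ {0}ᶜ) (hρm : Measurable ρ)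
    (hρ0 : ∀ x, 0 ≤ ρ x) (he : ∀ x, x ≠ 0 → lap u x = -ρ x) :
    0 ≤ ∫ x, u x * -lap Γ x ∧
      ∫⁻ x, ENNReal.ofReal (Γ x * ρ x) = ENNReal.ofReal (∫ x, u x * -lap Γ x) := by
  have : Nontrivial E := Module.nontrivial_of_finrank_pos (R := ℝ) (by omega)
  let φ : ContDiffBump (0 : E) := ⟨1, 2, one_pos, one_lt_two⟩
  have t0 : ∀ j : ℕ, 0 < (j : ℝ) + 1 := fun j => by positivity
  have hφ0 : ∀ x, 2 < ‖x‖ → φ x = 0 := fun x hx => φ.zero_of_le_dist (by simpa using hx.le)
  have c1 : ∀ j : ℕ, ContDiff ℝ 2 fun y => Γ y * φ (((j : ℝ) + 1) • y) := fun j =>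
    hΓ.mul (φ.contDiff.comp (contDiff_id.const_smul _))
  have ts : ∀ j : ℕ, tsupport (fun y => Γ y - Γ y * φ (((j : ℝ) + 1) • y)) ⊆ {0}ᶜ := fun j => by
    rintro x hx rfl
    refine notMem_tsupport_iff_eventuallyEq.mpr ?_ hx
    filter_upwards [closedBall_mem_nhds (0 : E) (inv_pos.mpr (t0 j))] with y hy
    rw [φ.one_of_mem_closedBall]
    · simp
    · rw [mem_closedBall, dist_zero_right] at hy ⊢
      rw [norm_smul, Real.norm_eq_abs, abs_of_pos (t0 j)]
      exact (mul_le_mul_of_nonneg_left hy (t0 j).le).trans (mul_inv_cancel₀ (t0 j).ne').le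
  have cs : ∀ j : ℕ, HasCompactSupport (fun y => Γ y - Γ y * φ (((j : ℝ) + 1) • y)) := fun j =>
    HasCompactSupport.intro hs fun x hx => by simp [image_eq_zero_of_notMem_tsupport hx]
  have n1 : ∀ (j : ℕ) y, 0 ≤ (Γ y - Γ y * φ (((j : ℝ) + 1) • y)) * ρ y := fun j y =>
    mul_nonneg (sub_nonneg.mpr (mul_le_of_le_one_right (hΓ0 y) φ.le_one)) (hρ0 y)
  have n2 : ∀ (j : ℕ) y, (Γ y - Γ y * φ (((j : ℝ) + 1) • y)) * ρ y ≤ Γ y * ρ y := fun j y =>
    mul_le_mul_of_nonneg_right (sub_le_self _ (mul_nonneg (hΓ0 y) φ.nonneg)) (hρ0 y)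
  have i1 : ∀ j : ℕ, Integrable fun y => (Γ y - Γ y * φ (((j : ℝ) + 1) • y)) * ρ y := fun j =>
    (contDiff_zero.mp (contDiff_mul_of_tsupport (k := 0) isOpen_compl_singleton
      (contDiff_zero.mpr (hΓ.sub (c1 j)).continuous) (contDiffOn_zero.mpr hρ)
      (ts j))).integrable_of_hasCompactSupport (cs j).mul_right
  have e : ∀ j : ℕ, ∫ y, (Γ y - Γ y * φ (((j : ℝ) + 1) • y)) * ρ y =
      (∫ x, u x * -lap Γ x) + ∫ x, u x * lap (fun y => Γ y * φ (((j : ℝ) + 1) • y)) x := fun j => by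
    have g := green0 isOpen_compl_singleton (hΓ.sub (c1 j)) (cs j) (ts j) hu2
    have i2 : Integrable fun x => u x * -lap Γ x :=
      (hu.mul (continuous_lap hΓ).neg).integrable_of_hasCompactSupport
        (csupport_lap hs).neg.mul_left
    have i3 : Integrable fun x => u x * lap (fun y => Γ y * φ (((j : ℝ) + 1) • y)) x :=
      (hu.mul (continuous_lap (c1 j))).integrable_of_hasCompactSupport
        (csupport_lap hs.mul_right).mul_left
    rw [← integral_add i2 i3, ← sub_eq_zero, ← integral_sub (i1 j) (i2.fun_add i3), ← g]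
    refine integral_congr_ae ?_
    filter_upwards [Measure.ae_ne volume (0 : E)] with x hx
    rw [lap_sub hΓ (c1 j), he x hx]; ring
  have T := (cut_small hn hΓ hs hu φ.contDiff hφ0).const_add (∫ x, u x * -lap Γ x)
  simp only [← e, add_zero] at T
  refine ⟨ge_of_tendsto' T fun j => integral_nonneg (n1 j), ?_⟩
  have T' := ENNReal.tendsto_ofReal T
  simp only [ofReal_integral_eq_lintegral_ofReal (i1 _) (Eventually.of_forall (n1 _))] at T'
  refine le_antisymm ?_ (le_of_tendsto' T' fun j =>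
    lintegral_mono fun y => ENNReal.ofReal_le_ofReal (n2 j y))
  rw [← T'.liminf_eq]
  refine le_trans (le_of_eq ?_) (lintegral_liminf_le fun j =>
    ((hΓ.sub (c1 j)).continuous.measurable.mul hρm).ennreal_ofReal)
  refine lintegral_congr_ae ?_
  filter_upwards [Measure.ae_ne volume (0 : E)] with x hx
  refine (Tendsto.liminf_eq (tendsto_const_nhds.congr' ?_)).symm
  have hx' : 0 < ‖x‖ := norm_pos_iff.mpr hx
  obtain ⟨N, hN⟩ := exists_nat_gt (2 / ‖x‖)
  filter_upwards [eventually_ge_atTop N] with j hj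
  rw [hφ0, mul_zero, sub_zero]
  have : (N : ℝ) ≤ j := Nat.cast_le.mpr hj
  rw [norm_smul, Real.norm_eq_abs, abs_of_pos (t0 j)]
  rw [div_lt_iff₀ hx'] at hN
  nlinarith

lemma lap_radial {γ γ1 γ2 : ℝ → ℝ} (h1 : ∀ s, HasDerivAt γ (γ1 s) s)
    (h2 : ∀ s, HasDerivAt γ1 (γ2 s) s) (x0 x : E) :
    lap (fun y => γ (‖y - x0‖ ^ 2)) x =
      4 * ‖x - x0‖ ^ 2 * γ2 (‖x - x0‖ ^ 2) + 2 * finrank ℝ E * γ1 (‖x - x0‖ ^ 2) := by
  set b := stdOrthonormalBasis ℝ E
  have hN : ∀ y : E, HasFDerivAt (fun y => ‖y - x0‖ ^ 2)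
      (2 • (innerSL ℝ (y - x0)).comp (ContinuousLinearMap.id ℝ E)) y := fun y =>
    ((hasFDerivAt_id y).sub_const x0).norm_sq
  have d : ∀ {g g' : ℝ → ℝ}, (∀ s, HasDerivAt g (g' s) s) → ∀ e y : E,
      DifferentiableAt ℝ (fun y => g (‖y - x0‖ ^ 2)) y ∧
      DD e (fun y => g (‖y - x0‖ ^ 2)) y = g' (‖y - x0‖ ^ 2) * (2 * ⟪e, y - x0⟫) := by
    intro g g' hg e y
    have := (hg _).comp_hasFDerivAt y (hN y)
    refine ⟨this.differentiableAt, ?_⟩
    unfold DD
    rw [show (fun y => g (‖y - x0‖ ^ 2)) = g ∘ fun y => ‖y - x0‖ ^ 2 from rfl, this.fderiv]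
    simp [inner_sub_right, real_inner_comm]
  have e : ∀ i, DD (b i) (DD (b i) fun y => γ (‖y - x0‖ ^ 2)) x =
      4 * γ2 (‖x - x0‖ ^ 2) * ⟪b i, x - x0⟫ ^ 2 + 2 * γ1 (‖x - x0‖ ^ 2) := fun i => by
    have a1 : HasFDerivAt (fun y => 2 * ⟪b i, y - x0⟫) ((2 : ℝ) • ((innerSL ℝ (b i)).comp
        (ContinuousLinearMap.id ℝ E))) x :=
      ((innerSL ℝ (b i)).hasFDerivAt.comp x ((hasFDerivAt_id x).sub_const x0)).const_mul 2
    rw [show DD (b i) (fun y => γ (‖y - x0‖ ^ 2)) = fun y => γ1 (‖y - x0‖ ^ 2) * (2 * ⟪b i, y - x0⟫)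
      from funext fun y => (d h1 _ y).2, DD_mul (d h2 0 x).1 a1.differentiableAt, (d h2 _ x).2]
    unfold DD
    rw [a1.fderiv]
    simp [b.orthonormal.1 i]
    ring
  refine (Finset.sum_congr rfl fun i _ => e i).trans ?_
  simp only [Finset.sum_add_distrib, ← Finset.mul_sum]
  rw [b.sum_sq_inner_right]
  simp; ring

end Vale.Agent.P100
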