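import Mathlib

/-! The pair inequality for two segments on parallel lines. -/

namespace Vale.Agent.P100

open MeasureTheory Set Filter Topology
open scoped ENNReal RealInnerProductSpace

lemma pair_real {k k' : ℝ → ℝ} (hk : ∀ t, HasDerivAt k (k' t) t) (hk' : Continuous k') {c0 : ℝ}
    (hm : ∀ s t, (s - c0) ^ 2 ≤ (t - c0) ^ 2 → k t ≤ k s) {L L' : ℝ} (hL : 0 < L) (hL' : 0 < L') :
    ∫ τ in (0 : ℝ)..1, ∫ τ' in (0 : ℝ)..1, (4 * k (τ * L - τ' * L') - (k (-(τ' * L')) +
      k (L - τ' * L') + k (τ * L) + k (τ * L - L') +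
      2 * (-(τ * L - τ' * L' - c0) * k' (τ * L - τ' * L')))) ≤ 0 := by
  have kc : Continuous k := continuous_iff_continuousAt.mpr fun t => (hk t).continuousAt
  set κ : ℝ → ℝ := fun t => ∫ s in (0 : ℝ)..t, k s with hκ
  have hκd : ∀ t, HasDerivAt κ (k t) t := fun t => (kc.integral_hasStrictDerivAt 0 t).hasDerivAt
  have κc : Continuous κ := continuous_iff_continuousAt.mpr fun t => (hκd t).continuousAt
  have d1 : ∀ (t s : ℝ), HasDerivAt (fun σ : ℝ => t - σ * L') (-L') s := fun t s => by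
    simpa using ((hasDerivAt_id s).mul_const L').const_sub t
  have inner : ∀ τ : ℝ, ∫ τ' in (0 : ℝ)..1, (4 * k (τ * L - τ' * L') - (k (-(τ' * L')) +
      k (L - τ' * L') + k (τ * L) + k (τ * L - L') +
      2 * (-(τ * L - τ' * L' - c0) * k' (τ * L - τ' * L')))) =
      L'⁻¹ * (2 * κ (τ * L) + 2 * (τ * L - c0) * k (τ * L) - 2 * κ (τ * L - L')
        - 2 * (τ * L - L' - c0) * k (τ * L - L') + κ (-L') - κ 0 + κ (L - L') - κ L)
        - k (τ * L) - k (τ * L - L') := by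
    intro τ
    have hP : ∀ s ∈ uIcc (0 : ℝ) 1, HasDerivAt (fun σ : ℝ => L'⁻¹ * (-2 * κ (τ * L - σ * L') +
        κ (0 - σ * L') + κ (L - σ * L') - 2 * ((τ * L - σ * L' - c0) * k (τ * L - σ * L')))
        - σ * (k (τ * L) + k (τ * L - L')))
        (4 * k (τ * L - s * L') - (k (-(s * L')) +
          k (L - s * L') + k (τ * L) + k (τ * L - L') +
          2 * (-(τ * L - s * L' - c0) * k' (τ * L - s * L')))) s := by
      intro s _
      have a1 := (hκd _).comp s (d1 (τ * L) s)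
      have a2 := (hκd _).comp s (d1 0 s)
      have a3 := (hκd _).comp s (d1 L s)
      have a4 := ((d1 (τ * L) s).sub_const c0).mul ((hk _).comp s (d1 (τ * L) s))
      have a5 := ((((a1.const_mul (-2)).add a2).add a3).sub (a4.const_mul 2)).const_mul L'⁻¹
      have a6 := a5.sub ((hasDerivAt_id s).mul_const (k (τ * L) + k (τ * L - L')))
      refine HasDerivAt.congr_deriv a6 ?_
      simp only [Function.comp, zero_sub]
      field_simp
      ring
    rw [intervalIntegral.integral_eq_sub_of_hasDerivAt hP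
      (Continuous.intervalIntegrable (by fun_prop) _ _)]
    simp only [one_mul, zero_mul, sub_zero, zero_sub]
    ring
  simp only [inner]
  have d2 : ∀ (a s : ℝ), HasDerivAt (fun σ : ℝ => σ * L - a) L s := fun a s => by
    simpa using ((hasDerivAt_id s).mul_const L).sub_const a
  have hP : ∀ s ∈ uIcc (0 : ℝ) 1, HasDerivAt (fun σ : ℝ => L'⁻¹ * (L⁻¹ * (2 * ((σ * L - 0 - c0) *
        κ (σ * L - 0)) - 2 * ((σ * L - L' - c0) * κ (σ * L - L'))) +
        σ * (κ (-L') - κ 0 + κ (L - L') - κ L)) - L⁻¹ * (κ (σ * L - 0) + κ (σ * L - L')))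
        (L'⁻¹ * (2 * κ (s * L) + 2 * (s * L - c0) * k (s * L) - 2 * κ (s * L - L')
        - 2 * (s * L - L' - c0) * k (s * L - L') + κ (-L') - κ 0 + κ (L - L') - κ L)
        - k (s * L) - k (s * L - L')) s := by
    intro s _
    have a1 := (hκd _).comp s (d2 0 s)
    have a2 := (hκd _).comp s (d2 L' s)
    have a3 := ((d2 0 s).sub_const c0).mul a1
    have a4 := ((d2 L' s).sub_const c0).mul a2
    have a5 := ((((a3.const_mul 2).sub (a4.const_mul 2)).const_mul L⁻¹).add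
      ((hasDerivAt_id s).mul_const (κ (-L') - κ 0 + κ (L - L') - κ L))).const_mul L'⁻¹
    have a6 := a5.sub ((a1.add a2).const_mul L⁻¹)
    refine HasDerivAt.congr_deriv a6 ?_
    simp only [Function.comp, sub_zero]
    field_simp
    ring
  rw [intervalIntegral.integral_eq_sub_of_hasDerivAt hP
      (Continuous.intervalIntegrable (by fun_prop) _ _)]
  have key : (L - L' - 2 * c0) * (κ L - κ 0 - κ (L - L') + κ (-L')) ≤ 0 := by
    have hM : ∀ M, 0 ≤ M → M ≤ L → M ≤ L' →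
        (L - L' - 2 * c0) * (κ L - κ (L - M) - κ (M - L') + κ (-L')) ≤ 0 := by
      intro M h0 h1 h2
      have hQ : ∀ s ∈ uIcc (0 : ℝ) M, HasDerivAt
          (fun r => (L - L' - 2 * c0) * (- κ (L - r) - κ (r - L')))
          ((L - L' - 2 * c0) * (k (L - s) - k (s - L'))) s := by
        intro s _
        have a1 := (hκd _).comp s ((hasDerivAt_id s).const_sub L)
        have a2 := (hκd _).comp s ((hasDerivAt_id s).sub_const L')
        have a3 := (a1.neg.sub a2).const_mul (L - L' - 2 * c0)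
        refine HasDerivAt.congr_deriv a3 ?_
        simp
      have e := intervalIntegral.integral_eq_sub_of_hasDerivAt hQ
        (Continuous.intervalIntegrable (by fun_prop) _ _)
      have hn : 0 ≤ ∫ s in (0 : ℝ)..M, -((L - L' - 2 * c0) * (k (L - s) - k (s - L'))) := by
        refine intervalIntegral.integral_nonneg h0 fun s hs => ?_
        have h3 : 0 ≤ L + L' - 2 * s := by linarith [hs.2]
        rcases le_total 0 (L - L' - 2 * c0) with h | h
        · have := hm (s - L') (L - s) (by nlinarith)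
          nlinarith
        · have := hm (L - s) (s - L') (by nlinarith)
          nlinarith
      rw [intervalIntegral.integral_neg, e] at hn
      simp only [sub_zero, zero_sub] at hn
      linarith
    rcases le_total L L' with h | h
    · have := hM L hL.le le_rfl h
      simpa only [sub_self] using this
    · have := hM L' hL'.le h le_rfl
      simp only [sub_self] at this
      linarith
  have e : L'⁻¹ * (L⁻¹ * (2 * ((1 * L - 0 - c0) * κ (1 * L - 0)) -
        2 * ((1 * L - L' - c0) * κ (1 * L - L'))) + 1 * (κ (-L') - κ 0 + κ (L - L') - κ L)) -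
        L⁻¹ * (κ (1 * L - 0) + κ (1 * L - L')) -
      (L'⁻¹ * (L⁻¹ * (2 * ((0 * L - 0 - c0) * κ (0 * L - 0)) -
        2 * ((0 * L - L' - c0) * κ (0 * L - L'))) + 0 * (κ (-L') - κ 0 + κ (L - L') - κ L)) -
        L⁻¹ * (κ (0 * L - 0) + κ (0 * L - L'))) =
      L⁻¹ * L'⁻¹ * ((L - L' - 2 * c0) * (κ L - κ 0 - κ (L - L') + κ (-L'))) := by
    simp only [one_mul, zero_mul, sub_zero, zero_sub]
    field_simp
    ring
  rw [e]
  exact mul_nonpos_of_nonneg_of_nonpos (by positivity) key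

lemma lint2_ofReal {g : ℝ → ℝ → ℝ} (hg : Continuous fun z : ℝ × ℝ => g z.1 z.2)
    (h0 : ∀ a b, 0 ≤ g a b) :
    ∫⁻ τ in Ioo (0 : ℝ) 1, ∫⁻ τ' in Ioo (0 : ℝ) 1, ENNReal.ofReal (g τ τ') =
      ENNReal.ofReal (∫ τ in (0 : ℝ)..1, ∫ τ' in (0 : ℝ)..1, g τ τ') := by
  have one : ∀ h : ℝ → ℝ, Continuous h → (∀ a, 0 ≤ h a) →
      ∫⁻ τ in Ioo (0 : ℝ) 1, ENNReal.ofReal (h τ) = ENNReal.ofReal (∫ τ in (0 : ℝ)..1, h τ) := by
    intro h hc hn
    rw [intervalIntegral.integral_of_le zero_le_one, integral_Ioc_eq_integral_Ioo,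
      ofReal_integral_eq_lintegral_ofReal]
    · exact (hc.integrableOn_Icc (a := 0) (b := 1)).mono_set Ioo_subset_Icc_self
    · exact Eventually.of_forall hn
  have h1 : ∀ τ, ∫⁻ τ' in Ioo (0 : ℝ) 1, ENNReal.ofReal (g τ τ') =
      ENNReal.ofReal (∫ τ' in (0 : ℝ)..1, g τ τ') := fun τ =>
    one _ (hg.comp (by fun_prop : Continuous fun b : ℝ => (τ, b))) (h0 τ)
  simp only [h1]
  refine one _ ?_ fun a => intervalIntegral.integral_nonneg zero_le_one fun b _ => h0 a b
  exact intervalIntegral.continuous_parametric_intervalIntegral_of_continuous' hg 0 1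

lemma lint2_iSup_le {g : ℕ → ℝ → ℝ → ℝ≥0∞} {G : ℝ → ℝ → ℝ≥0∞} {c : ℝ≥0∞}
    (hg : ∀ j, Measurable fun z : ℝ × ℝ => g j z.1 z.2) (hm : ∀ a b, Monotone fun j => g j a b)
    (hG : ∀ a b, G a b = ⨆ j, g j a b)
    (h : ∀ j, ∫⁻ a in Ioo (0 : ℝ) 1, ∫⁻ b in Ioo (0 : ℝ) 1, g j a b ≤ c) :
    ∫⁻ a in Ioo (0 : ℝ) 1, ∫⁻ b in Ioo (0 : ℝ) 1, G a b ≤ c := by
  have i1 : ∀ a, ∫⁻ b in Ioo (0 : ℝ) 1, G a b = ⨆ j, ∫⁻ b in Ioo (0 : ℝ) 1, g j a b := fun a => by
    simp only [hG]
    exact lintegral_iSup (f := fun j b => g j a b)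
      (fun j => (hg j).comp (by fun_prop : Measurable fun b : ℝ => (a, b)))
      fun i j hij b => hm a b hij
  simp only [i1]
  rw [lintegral_iSup (fun j => (hg j).lintegral_prod_right')
    fun i j hij a => lintegral_mono fun b => hm a b hij]
  exact iSup_le h

variable {E : Type*} [NormedAddCommGroup E]

/-- The Newton kernel `|z|^(-m)` with value `∞` at the origin. -/
noncomputable def Ke (m : ℕ) (z : E) : ℝ≥0∞ := (‖z‖ₑ ^ m)⁻¹

/-- The regularised kernel. -/
noncomputable def kr (m : ℕ) (ε : ℝ) (z : E) : ℝ := (‖z‖ ^ 2 + ε) ^ (-((m : ℝ) / 2))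

lemma kr_nonneg (m : ℕ) {ε : ℝ} (hε : 0 < ε) (z : E) : 0 ≤ kr m ε z := by
  unfold kr; positivity

lemma continuous_kr (m : ℕ) {ε : ℝ} (hε : 0 < ε) : Continuous (kr m ε : E → ℝ) := by
  unfold kr
  exact Continuous.rpow_const (by fun_prop) fun z => Or.inl (by positivity)

lemma sq_rpow_half (m : ℕ) {r : ℝ} (hr : 0 ≤ r) : (r ^ 2) ^ ((m : ℝ) / 2) = r ^ m := by
  rw [← Real.rpow_natCast r 2, ← Real.rpow_mul hr, ← Real.rpow_natCast]
  congr 1; push_cast; ring

lemma ofReal_kr (m : ℕ) {ε : ℝ} (hε : 0 < ε) (z : E) :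
    ENNReal.ofReal (kr m ε z) = (ENNReal.ofReal ((‖z‖ ^ 2 + ε) ^ ((m : ℝ) / 2)))⁻¹ := by
  unfold kr
  rw [Real.rpow_neg (by positivity), ENNReal.ofReal_inv_of_pos (by positivity)]

lemma Ke_eq (m : ℕ) (z : E) : Ke m z = (ENNReal.ofReal ((‖z‖ ^ 2) ^ ((m : ℝ) / 2)))⁻¹ := by
  rw [sq_rpow_half m (norm_nonneg _), ENNReal.ofReal_pow (norm_nonneg _), ofReal_norm]
  rfl

lemma Ke_of_ne (m : ℕ) {z : E} (hz : z ≠ 0) : Ke m z = ENNReal.ofReal ((‖z‖ ^ m)⁻¹) := by
  have : 0 < ‖z‖ := norm_pos_iff.mpr hz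
  rw [Ke_eq, sq_rpow_half m (norm_nonneg _), ENNReal.ofReal_inv_of_pos (by positivity)]

lemma Ke_neg (m : ℕ) (z : E) : Ke m (-z) = Ke m z := by simp [Ke]

lemma Ke_sub_comm (m : ℕ) (x y : E) : Ke m (x - y) = Ke m (y - x) := by
  rw [← Ke_neg, neg_sub]

lemma kr_le_Ke (m : ℕ) {ε : ℝ} (hε : 0 < ε) (z : E) : ENNReal.ofReal (kr m ε z) ≤ Ke m z := by
  rw [ofReal_kr m hε, Ke_eq]
  refine ENNReal.inv_le_inv.mpr (ENNReal.ofReal_le_ofReal ?_)
  exact Real.rpow_le_rpow (by positivity) (by linarith) (by positivity)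

lemma kr_mono (m : ℕ) (z : E) :
    Monotone fun j : ℕ => ENNReal.ofReal (kr m (1 / ((j : ℝ) + 1)) z) := by
  intro i j hij
  refine ENNReal.ofReal_le_ofReal ?_
  have : (1 : ℝ) / ((j : ℝ) + 1) ≤ 1 / ((i : ℝ) + 1) := Nat.one_div_le_one_div hij
  exact Real.rpow_le_rpow_of_nonpos (by positivity) (by linarith)
    (neg_nonpos.mpr (by positivity))

lemma kr_tendsto (m : ℕ) (z : E) :
    Tendsto (fun j : ℕ => ENNReal.ofReal (kr m (1 / ((j : ℝ) + 1)) z)) atTop (𝓝 (Ke m z)) := by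
  have h1 : Tendsto (fun j : ℕ => ‖z‖ ^ 2 + 1 / ((j : ℝ) + 1)) atTop (𝓝 (‖z‖ ^ 2)) := by
    simpa using (tendsto_one_div_add_atTop_nhds_zero_nat (𝕜 := ℝ)).const_add (‖z‖ ^ 2)
  have h2 := h1.rpow_const (p := (m : ℝ) / 2) (Or.inr (by positivity))
  have h3 := (ENNReal.tendsto_ofReal h2).inv
  rw [Ke_eq]
  refine h3.congr fun j => ?_
  rw [ofReal_kr m (by positivity)]

lemma iSup_kr (m : ℕ) (z : E) :
    ⨆ j : ℕ, ENNReal.ofReal (kr m (1 / ((j : ℝ) + 1)) z) = Ke m z :=
  iSup_eq_of_tendsto (kr_mono m z) (kr_tendsto m z)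

lemma measurable_Ke [MeasurableSpace E] [OpensMeasurableSpace E] (m : ℕ) :
    Measurable (Ke m : E → ℝ≥0∞) := by
  unfold Ke; fun_prop

variable [InnerProductSpace ℝ E]

/-- `m cos²` of the angle between `w` and `z`. -/
noncomputable def cs (m : ℕ) (w z : E) : ℝ := m * ⟪w, z⟫ ^ 2 / (‖w‖ ^ 2 * ‖z‖ ^ 2)

lemma cs_nonneg (m : ℕ) (w z : E) : 0 ≤ cs m w z := by unfold cs; positivity

lemma cs_le (m : ℕ) (w z : E) : cs m w z ≤ m := by
  unfold cs
  refine div_le_of_le_mul₀ (by positivity) (by positivity) ?_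
  refine mul_le_mul_of_nonneg_left ?_ (by positivity)
  rw [← mul_pow, sq_le_sq, abs_of_nonneg (by positivity : 0 ≤ ‖w‖ * ‖z‖)]
  exact abs_real_inner_le_norm w z

lemma pair_enn (m : ℕ) {w : E} (hw : w ≠ 0) (x0 y0 : E) {L L' : ℝ} (hL : 0 < L) (hL' : 0 < L') :
    ∫⁻ τ in Ioo (0 : ℝ) 1, ∫⁻ τ' in Ioo (0 : ℝ) 1,
        4 * Ke m ((x0 + (τ * L) • w) - (y0 + (τ' * L') • w)) ≤
      ∫⁻ τ in Ioo (0 : ℝ) 1, ∫⁻ τ' in Ioo (0 : ℝ) 1,
        (Ke m (x0 - (y0 + (τ' * L') • w)) + Ke m ((x0 + L • w) - (y0 + (τ' * L') • w)) +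
          Ke m ((x0 + (τ * L) • w) - y0) + Ke m ((x0 + (τ * L) • w) - (y0 + L' • w)) +
          2 * (Ke m ((x0 + (τ * L) • w) - (y0 + (τ' * L') • w)) *
            ENNReal.ofReal (cs m w ((x0 + (τ * L) • w) - (y0 + (τ' * L') • w))))) := by
  set z0 := x0 - y0 with hz0
  have e1 : ∀ a b : ℝ, (x0 + a • w) - (y0 + b • w) = z0 + (a - b) • w := fun a b => by
    rw [hz0, sub_smul]; abel
  have e2 : ∀ b : ℝ, x0 - (y0 + b • w) = z0 + (-b) • w := fun b => by
    rw [hz0, neg_smul]; abel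
  have e3 : ∀ a : ℝ, (x0 + a • w) - y0 = z0 + a • w := fun a => by rw [hz0]; abel
  simp only [e1, e2, e3]
  have hw2 : 0 < ‖w‖ ^ 2 := pow_pos (norm_pos_iff.mpr hw) 2
  set c0 : ℝ := -⟪w, z0⟫ / ‖w‖ ^ 2 with hc0
  have hin : ∀ r : ℝ, ⟪w, z0 + r • w⟫ = ‖w‖ ^ 2 * (r - c0) := fun r => by
    rw [inner_add_right, inner_smul_right, real_inner_self_eq_norm_sq, hc0]; field_simp; ring
  have hQ : ∀ r : ℝ, ‖z0 + r • w‖ ^ 2 = ‖w‖ ^ 2 * (r - c0) ^ 2 + (‖z0‖ ^ 2 - ‖w‖ ^ 2 * c0 ^ 2) :=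
    fun r => by
      rw [norm_add_sq_real, inner_smul_right, norm_smul, mul_pow, Real.norm_eq_abs, sq_abs,
        real_inner_comm, hc0]; field_simp; ring
  have step : ∀ ε : ℝ, 0 < ε → ∫⁻ τ in Ioo (0 : ℝ) 1, ∫⁻ τ' in Ioo (0 : ℝ) 1,
        4 * ENNReal.ofReal (kr m ε (z0 + (τ * L - τ' * L') • w)) ≤
      ∫⁻ τ in Ioo (0 : ℝ) 1, ∫⁻ τ' in Ioo (0 : ℝ) 1,
        (Ke m (z0 + (-(τ' * L')) • w) + Ke m (z0 + (L - τ' * L') • w) +
          Ke m (z0 + (τ * L) • w) + Ke m (z0 + (τ * L - L') • w) +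
          2 * (Ke m (z0 + (τ * L - τ' * L') • w) *
            ENNReal.ofReal (cs m w (z0 + (τ * L - τ' * L') • w)))) := by
    intro ε hε
    set k : ℝ → ℝ := fun r => kr m ε (z0 + r • w) with hk
    set k' : ℝ → ℝ := fun r => ‖w‖ ^ 2 * (2 * (r - c0)) * (-((m : ℝ) / 2)) *
      (‖z0 + r • w‖ ^ 2 + ε) ^ (-((m : ℝ) / 2) - 1) with hk'
    have hd : ∀ r, HasDerivAt k (k' r) r := by
      intro r
      have a1 : HasDerivAt (fun r : ℝ => ‖z0 + r • w‖ ^ 2 + ε) (‖w‖ ^ 2 * (2 * (r - c0))) r := by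
        simp only [hQ]
        have := (((((hasDerivAt_id r).sub_const c0).pow 2).const_mul (‖w‖ ^ 2)).add_const
          (‖z0‖ ^ 2 - ‖w‖ ^ 2 * c0 ^ 2)).add_const ε
        refine HasDerivAt.congr_deriv this ?_
        simp
      exact a1.rpow_const (Or.inl (by positivity))
    have hc' : Continuous k' := by
      refine Continuous.mul (by fun_prop) ?_
      exact Continuous.rpow_const (by fun_prop) fun z => Or.inl (by positivity)
    have kc : Continuous k := continuous_iff_continuousAt.mpr fun t => (hd t).continuousAt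
    have hm : ∀ s t, (s - c0) ^ 2 ≤ (t - c0) ^ 2 → k t ≤ k s := by
      intro s t hst
      refine Real.rpow_le_rpow_of_nonpos (by positivity) ?_ (neg_nonpos.mpr (by positivity))
      rw [hQ, hQ]; nlinarith
    have hW0 : ∀ r, 0 ≤ -(r - c0) * k' r := fun r => by
      have : -(r - c0) * k' r = ‖w‖ ^ 2 * (r - c0) ^ 2 * m *
        (‖z0 + r • w‖ ^ 2 + ε) ^ (-((m : ℝ) / 2) - 1) := by simp only [hk']; ring
      rw [this]; positivity
    have hW : ∀ r, ENNReal.ofReal (-(r - c0) * k' r) ≤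
        Ke m (z0 + r • w) * ENNReal.ofReal (cs m w (z0 + r • w)) := fun r => by
      refine le_trans ?_ (mul_le_mul_left (kr_le_Ke m hε _) _)
      rw [← ENNReal.ofReal_mul (kr_nonneg m hε _)]
      refine ENNReal.ofReal_le_ofReal ?_
      have e : -(r - c0) * k' r = kr m ε (z0 + r • w) *
          (m * (‖w‖ ^ 2 * (r - c0) ^ 2) / (‖z0 + r • w‖ ^ 2 + ε)) := by
        simp only [hk', kr]
        rw [Real.rpow_sub_one (by positivity)]; ring
      rw [e]
      refine mul_le_mul_of_nonneg_left ?_ (kr_nonneg m hε _)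
      unfold cs
      by_cases hz : z0 + r • w = 0
      · have := hin r
        rw [hz, inner_zero_right] at this
        have h2 : r - c0 = 0 := by
          rcases mul_eq_zero.mp this.symm with h | h
          · exact absurd h hw2.ne'
          · exact h
        simp [h2, hz]
      · have hz2 : 0 < ‖z0 + r • w‖ ^ 2 := pow_pos (norm_pos_iff.mpr hz) 2
        rw [hin, div_le_div_iff₀ (by positivity) (by positivity)]
        have : 0 ≤ (m : ℝ) * (‖w‖ ^ 2 * (r - c0)) ^ 2 * ε := by positivity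
        nlinarith
    have k0 : ∀ r, 0 ≤ k r := fun r => kr_nonneg m hε _
    have main := pair_real hd hc' hm hL hL'
    have c1 : Continuous fun z : ℝ × ℝ => 4 * k (z.1 * L - z.2 * L') := by fun_prop
    have c2 : Continuous fun z : ℝ × ℝ => k (-(z.2 * L')) +
      k (L - z.2 * L') + k (z.1 * L) + k (z.1 * L - L') +
      2 * (-(z.1 * L - z.2 * L' - c0) * k' (z.1 * L - z.2 * L')) := by fun_prop
    have s1 : ∀ τ : ℝ, ∫ τ' in (0 : ℝ)..1, (4 * k (τ * L - τ' * L') - (k (-(τ' * L')) +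
      k (L - τ' * L') + k (τ * L) + k (τ * L - L') +
      2 * (-(τ * L - τ' * L' - c0) * k' (τ * L - τ' * L')))) =
      (∫ τ' in (0 : ℝ)..1, 4 * k (τ * L - τ' * L')) - ∫ τ' in (0 : ℝ)..1, (k (-(τ' * L')) +
      k (L - τ' * L') + k (τ * L) + k (τ * L - L') +
      2 * (-(τ * L - τ' * L' - c0) * k' (τ * L - τ' * L'))) := fun τ =>
      intervalIntegral.integral_sub (Continuous.intervalIntegrable (by fun_prop) _ _)
        (Continuous.intervalIntegrable (by fun_prop) _ _)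
    simp only [s1] at main
    rw [intervalIntegral.integral_sub
      ((intervalIntegral.continuous_parametric_intervalIntegral_of_continuous'
        (f := fun a b => 4 * k (a * L - b * L')) c1 0 1).intervalIntegrable _ _)
      ((intervalIntegral.continuous_parametric_intervalIntegral_of_continuous'
        (f := fun a b => k (-(b * L')) + k (L - b * L') + k (a * L) + k (a * L - L') +
      2 * (-(a * L - b * L' - c0) * k' (a * L - b * L'))) c2 0 1).intervalIntegrable _ _)] at main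
    have l1 := lint2_ofReal (g := fun a b => 4 * k (a * L - b * L')) c1
      fun a b => by have := k0 (a * L - b * L'); positivity
    have l2 := lint2_ofReal (g := fun a b => k (-(b * L')) + k (L - b * L') + k (a * L) +
      k (a * L - L') + 2 * (-(a * L - b * L' - c0) * k' (a * L - b * L'))) c2
      fun a b => by
        have := k0 (-(b * L')); have := k0 (L - b * L'); have := k0 (a * L)
        have := k0 (a * L - L'); have := hW0 (a * L - b * L'); positivity
    calc _ = ∫⁻ τ in Ioo (0 : ℝ) 1, ∫⁻ τ' in Ioo (0 : ℝ) 1,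
          ENNReal.ofReal (4 * k (τ * L - τ' * L')) := by
          refine lintegral_congr fun τ => lintegral_congr fun τ' => ?_
          rw [ENNReal.ofReal_mul (by norm_num)]; simp [hk]
      _ ≤ _ := by
          rw [l1]
          refine le_trans (ENNReal.ofReal_le_ofReal (sub_nonpos.mp main)) ?_
          rw [← l2]
          refine lintegral_mono fun τ => lintegral_mono fun τ' => ?_
          refine le_trans ENNReal.ofReal_add_le (add_le_add (le_trans ENNReal.ofReal_add_le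
            (add_le_add (le_trans ENNReal.ofReal_add_le (add_le_add (le_trans
              ENNReal.ofReal_add_le (add_le_add (kr_le_Ke m hε _) (kr_le_Ke m hε _)))
              (kr_le_Ke m hε _))) (kr_le_Ke m hε _))) ?_)
          rw [ENNReal.ofReal_mul (by norm_num), ENNReal.ofReal_ofNat]
          exact mul_le_mul_right (hW _) _
  refine lint2_iSup_le (g := fun j a b =>
    4 * ENNReal.ofReal (kr m (1 / ((j : ℝ) + 1)) (z0 + (a * L - b * L') • w))) (fun j => ?_)
    (fun a b i j hij => mul_le_mul_right (kr_mono m _ hij) _) (fun a b => ?_)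
    fun j => step _ (by positivity)
  · have : Continuous fun z : ℝ × ℝ => kr m (1 / ((j : ℝ) + 1)) (z0 + (z.1 * L - z.2 * L') • w) :=
      (continuous_kr m (by positivity)).comp (by fun_prop)
    exact this.measurable.ennreal_ofReal.const_mul _
  · simp only [← ENNReal.mul_iSup, iSup_kr]

end Vale.Agent.P100
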