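import Vale.Agent.P100.Exit
import Vale.Agent.P100.Pair

/-! Pair inequality integrated over components, and level-set bookkeeping. -/

set_option linter.unusedSectionVars false

namespace Vale.Agent.P100

open MeasureTheory Set Filter Topology Metric
open scoped ENNReal RealInnerProductSpace

variable {E : Type*} [NormedAddCommGroup E] [InnerProductSpace ℝ E]
  [MeasurableSpace E] [BorelSpace E] [FiniteDimensional ℝ E]

lemma measurable_cs (m : ℕ) (w : E) : Measurable (cs m w : E → ℝ) := by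
  unfold cs; fun_prop

/-- Right end point of the component. -/
noncomputable def hi (f : E → ℝ) (w : E) (T : ℝ) (o : E × ℝ) : E :=
  lo f w T o + len f w T o • w

lemma measurable_hi {f : E → ℝ} {w : E} {T : ℝ} (hf : Continuous f) (hT : 0 ≤ T) :
    Measurable (hi f w T) := by
  have h1 := measurable_lo (w := w) hf hT
  have h2 := measurable_len (w := w) hf hT
  unfold hi; fun_prop

lemma pair_global (m : ℕ) {f g : E → ℝ} {w : E} {T : ℝ} {Λ : Set E} (hw : w ≠ 0)
    (hf : Continuous f) (hg : Continuous g) (hT : 0 < T) (hΛ : MeasurableSet Λ)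
    {Θ : E × E → ℝ≥0∞} (hΘ : Measurable Θ) (hΘ' : ∀ z, Θ z ≠ ⊤) :
    ∫⁻ o in SS f w T Λ, ∫⁻ o' in SS g w T Λ,
        Θ (lo f w T o, lo g w T o') * (4 * Ke m (o.1 - o'.1)) ≤
      ∫⁻ o in SS f w T Λ, ∫⁻ o' in SS g w T Λ, Θ (lo f w T o, lo g w T o') *
        (Ke m (lo f w T o - o'.1) + Ke m (hi f w T o - o'.1) + Ke m (o.1 - lo g w T o') +
          Ke m (o.1 - hi g w T o') +
          2 * (Ke m (o.1 - o'.1) * ENNReal.ofReal (cs m w (o.1 - o'.1)))) := by
  have l1 := measurable_lo (w := w) hf hT.le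
  have l2 := measurable_lo (w := w) hg hT.le
  have h1 := measurable_hi (w := w) hf hT.le
  have h2 := measurable_hi (w := w) hg hT.le
  have mK := measurable_Ke (E := E) m
  have mc := measurable_cs m w
  rw [lint_avg2 hf hg hT hΛ (H := fun z => Θ (lo f w T z.1, lo g w T z.2) *
      (4 * Ke m (z.1.1 - z.2.1))) (by fun_prop),
    lint_avg2 hf hg hT hΛ (H := fun z => Θ (lo f w T z.1, lo g w T z.2) *
        (Ke m (lo f w T z.1 - z.2.1) + Ke m (hi f w T z.1 - z.2.1) + Ke m (z.1.1 - lo g w T z.2) +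
          Ke m (z.1.1 - hi g w T z.2) +
          2 * (Ke m (z.1.1 - z.2.1) * ENNReal.ofReal (cs m w (z.1.1 - z.2.1))))) (by fun_prop)]
  refine setLIntegral_mono' (measurableSet_SS hf hT.le hΛ) fun o ho => ?_
  refine setLIntegral_mono' (measurableSet_SS hg hT.le hΛ) fun o' ho' => ?_
  have key := mul_le_mul_right (pair_enn m hw (lo f w T o) (lo g w T o')
    (len_pos (w := w) hf hT ho.2.1) (len_pos (w := w) hg hT ho'.2.1)) (Θ (lo f w T o, lo g w T o'))
  simp only [← lintegral_const_mul' _ _ (hΘ' _)] at key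
  refine le_trans (le_of_eq ?_) (le_trans key (le_of_eq ?_))
  · refine setLIntegral_congr_fun measurableSet_Ioo fun τ hτ => ?_
    refine setLIntegral_congr_fun measurableSet_Ioo fun τ' hτ' => ?_
    simp only [(pt_all hf hT ho hτ).2.1, (pt_all hg hT ho' hτ').2.1]
    rfl
  · refine setLIntegral_congr_fun measurableSet_Ioo fun τ hτ => ?_
    refine setLIntegral_congr_fun measurableSet_Ioo fun τ' hτ' => ?_
    simp only [hi, (pt_all hf hT ho hτ).2.1, (pt_all hg hT ho' hτ').2.1,
      (pt_all hf hT ho hτ).2.2, (pt_all hg hT ho' hτ').2.2]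
    rfl

/-- Measure of the set of levels of `S` above `x`. -/
noncomputable def nn (S : Set (E × ℝ)) (x : E) : ℝ≥0∞ := volume {t : ℝ | (x, t) ∈ S}

lemma lint_prod_S {S : Set (E × ℝ)} (hS : MeasurableSet S) {H : E × ℝ → ℝ≥0∞}
    (hH : Measurable H) : ∫⁻ o in S, H o = ∫⁻ x, ∫⁻ t in {t : ℝ | (x, t) ∈ S}, H (x, t) := by
  rw [← lintegral_indicator hS, Measure.volume_eq_prod,
    lintegral_prod _ (hH.indicator hS).aemeasurable]
  refine lintegral_congr fun x => ?_
  have : MeasurableSet {t : ℝ | (x, t) ∈ S} := measurable_prodMk_left hS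
  rw [← lintegral_indicator this]
  rfl

lemma lint_fst {S : Set (E × ℝ)} (hS : MeasurableSet S) {H : E → ℝ≥0∞} (hH : Measurable H) :
    ∫⁻ o in S, H o.1 = ∫⁻ x, H x * nn S x := by
  rw [lint_prod_S hS (H := fun o => H o.1) (hH.comp measurable_fst)]
  simp only [setLIntegral_const, nn]

lemma measurable_nn {S : Set (E × ℝ)} (hS : MeasurableSet S) : Measurable (nn S) :=
  measurable_measure_prodMk_left hS

/-- Bound for the long levels. -/
noncomputable def Lg (f : E → ℝ) (w : E) (T : ℝ) (x : E) : ℝ≥0∞ :=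
  ENNReal.ofReal (f (x + (T / 4) • w)) + ENNReal.ofReal (f (x + (-(T / 4)) • w))

omit [MeasurableSpace E] [BorelSpace E] [FiniteDimensional ℝ E] in
lemma mem_ball_of_SS {f : E → ℝ} {w : E} {T η : ℝ} (hf : Continuous f) (hT : 0 < T)
    (hη : T * ‖w‖ ≤ η) {o : E × ℝ} (ho : o ∈ SS f w T (closedBall w (2 * η))) :
    o.1 ∈ closedBall w (3 * η) := by
  have h1 := norm_sub_lo_le (w := w) hf hT o
  have h2 := ho.2.2.2
  rw [mem_closedBall, dist_eq_norm] at h2 ⊢
  have := norm_sub_le_norm_sub_add_norm_sub o.1 (lo f w T o) w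
  linarith

omit [MeasurableSpace E] [BorelSpace E] [FiniteDimensional ℝ E] in
lemma nn_le {f : E → ℝ} {w : E} {T η : ℝ} (hf : Continuous f) (hT : 0 < T) (hη : T * ‖w‖ ≤ η)
    (x : E) : nn (SS f w T (closedBall w (2 * η))) x ≤
      (closedBall w (3 * η)).indicator (fun x => ENNReal.ofReal (f x)) x := by
  by_cases hx : x ∈ closedBall w (3 * η)
  · rw [indicator_of_mem hx]
    calc _ ≤ volume (Ioo (0 : ℝ) (f x)) := measure_mono fun t ht => ⟨ht.1, ht.2.1⟩
      _ = _ := by simp
  · have : {t : ℝ | (x, t) ∈ SS f w T (closedBall w (2 * η))} = ∅ :=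
      eq_empty_of_forall_notMem fun t ht => hx (mem_ball_of_SS hf hT hη ht)
    simp [nn, this]

omit [MeasurableSpace E] [BorelSpace E] [FiniteDimensional ℝ E] in
lemma long_le {f : E → ℝ} {w : E} {T η : ℝ} (hf : Continuous f) (hT : 0 < T) (hη : T * ‖w‖ ≤ η)
    {x : E} (hx : x ∈ closedBall w η) :
    volume (Ioo (0 : ℝ) (f x) \ {t : ℝ | (x, t) ∈ SS f w T (closedBall w (2 * η))}) ≤
      Lg f w T x := by
  calc _ ≤ volume (Ioo (0 : ℝ) (f (x + (T / 4) • w)) ∪ Ioo (0 : ℝ) (f (x + (-(T / 4)) • w))) := by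
        refine measure_mono fun t ht => ?_
        have hl : lo f w T (x, t) ∈ closedBall w (2 * η) := by
          have h1 := norm_sub_lo_le (w := w) hf hT (x, t)
          rw [mem_closedBall, dist_eq_norm] at hx ⊢
          have := norm_sub_le_norm_sub_add_norm_sub (lo f w T (x, t)) x w
          rw [norm_sub_rev] at h1
          simp only at h1
          linarith
        rcases long_of_notMem (o := (x, t)) ht.1.1 ht.1.2 hT hl ht.2 with h | h
        · exact Or.inl ⟨ht.1.1, h⟩
        · exact Or.inr ⟨ht.1.1, h⟩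
    _ ≤ _ := (measure_union_le _ _).trans (by simp [Lg])

omit [MeasurableSpace E] [BorelSpace E] [FiniteDimensional ℝ E] in
lemma nn_ge {f : E → ℝ} {w : E} {T η : ℝ} (hf : Continuous f) (hT : 0 < T) (hη : T * ‖w‖ ≤ η)
    {x : E} (hx : x ∈ closedBall w η) :
    ENNReal.ofReal (f x) ≤ nn (SS f w T (closedBall w (2 * η))) x + Lg f w T x := by
  calc _ = volume (Ioo (0 : ℝ) (f x)) := by simp
    _ ≤ volume ({t : ℝ | (x, t) ∈ SS f w T (closedBall w (2 * η))} ∪
        (Ioo (0 : ℝ) (f x) \ {t : ℝ | (x, t) ∈ SS f w T (closedBall w (2 * η))})) :=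
        measure_mono fun t ht => by
          by_cases h : (x, t) ∈ SS f w T (closedBall w (2 * η))
          · exact Or.inl h
          · exact Or.inr ⟨ht, h⟩
    _ ≤ _ := (measure_union_le _ _).trans (add_le_add le_rfl (long_le hf hT hη hx))

lemma level_int {v p c : ℝ} (hv : 0 < v) (hp : 0 < p) (hc : 0 < c) :
    ∫⁻ t in Ioo (0 : ℝ) (v ^ p), ENNReal.ofReal (c * (v - t ^ p⁻¹)) =
      ENNReal.ofReal (c * (v * v ^ p / (p + 1))) := by
  have hvp : 0 < v ^ p := Real.rpow_pos_of_pos hv p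
  have hi : 0 < p⁻¹ := inv_pos.mpr hp
  have hc1 : Continuous fun t : ℝ => t ^ p⁻¹ := continuous_id.rpow_const fun _ => Or.inr hi.le
  have hcont : Continuous fun t : ℝ => c * (v - t ^ p⁻¹) :=
    continuous_const.mul (continuous_const.sub hc1)
  rw [← ofReal_integral_eq_lintegral_ofReal, ← integral_Ioc_eq_integral_Ioo,
    ← intervalIntegral.integral_of_le hvp.le, intervalIntegral.integral_const_mul,
    intervalIntegral.integral_sub (by simp) (hc1.intervalIntegrable _ _),
    integral_rpow (Or.inl (by linarith))]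
  · congr 2
    rw [Real.zero_rpow (by positivity), Real.rpow_add hvp, Real.rpow_rpow_inv hv.le hp.ne']
    simp only [intervalIntegral.integral_const, sub_zero, smul_eq_mul, Real.rpow_one]
    field_simp
    ring
  · exact (hcont.integrableOn_Icc (a := 0) (b := v ^ p)).mono_set Ioo_subset_Icc_self
  · refine (ae_restrict_iff' measurableSet_Ioo).mpr (Eventually.of_forall fun t ht => ?_)
    have : t ^ p⁻¹ ≤ v := by
      calc _ ≤ (v ^ p) ^ p⁻¹ := Real.rpow_le_rpow ht.1.le ht.2.le hi.le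
        _ = v := Real.rpow_rpow_inv hv.le hp.ne'
    exact mul_nonneg hc.le (sub_nonneg.mpr this)

/-- The tent function of radius `τ`. -/
noncomputable def tent (τ : ℝ) (z : E) : ℝ := max 0 (1 - ‖z‖ / τ)

section tent
omit [InnerProductSpace ℝ E] [MeasurableSpace E] [BorelSpace E] [FiniteDimensional ℝ E]

lemma tent_nonneg (τ : ℝ) (z : E) : 0 ≤ tent τ z := le_max_left _ _

lemma continuous_tent (τ : ℝ) : Continuous (tent τ : E → ℝ) := by unfold tent; fun_prop

lemma tent_le_one {τ : ℝ} (hτ : 0 < τ) (z : E) : tent τ z ≤ 1 :=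
  max_le zero_le_one (by have : 0 ≤ ‖z‖ / τ := by positivity
                         linarith)

lemma tent_eq_zero {τ : ℝ} (hτ : 0 < τ) {z : E} (h : τ ≤ ‖z‖) : tent τ z = 0 :=
  max_eq_left (by rw [sub_nonpos, le_div_iff₀ hτ]; linarith)

lemma tent_lip {τ : ℝ} (hτ : 0 < τ) (z z' : E) : |tent τ z - tent τ z'| ≤ ‖z - z'‖ / τ := by
  unfold tent
  rw [max_comm 0, max_comm 0]
  refine (abs_max_sub_max_le_abs _ _ _).trans ?_
  rw [show 1 - ‖z‖ / τ - (1 - ‖z'‖ / τ) = (‖z'‖ - ‖z‖) / τ by ring, abs_div, abs_of_pos hτ,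
    norm_sub_rev]
  exact div_le_div_of_nonneg_right (abs_norm_sub_norm_le _ _) hτ.le

/-- Indicator of a closed ball as a real function. -/
noncomputable def ind (w : E) (r : ℝ) (x : E) : ℝ := if ‖x - w‖ ≤ r then 1 else 0

lemma ind_nonneg (w : E) (r : ℝ) (x : E) : 0 ≤ ind w r x := by unfold ind; split_ifs <;> norm_num

lemma tent_near {τ l : ℝ} (hτ : 0 < τ) (hl : l ≤ τ) {w x x' : E} (h : ‖x - x'‖ ≤ l) :
    tent τ (x' - w) ≤ ind w (2 * τ) x ∧ tent τ (x' - w) ≤ tent τ (x - w) + l / τ * ind w (2 * τ) x ∧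
      tent τ (x - w) ≤ tent τ (x' - w) + l / τ * ind w (2 * τ) x := by
  unfold ind
  split_ifs with hx
  · have h1 := tent_lip hτ (x - w) (x' - w)
    rw [sub_sub_sub_cancel_right] at h1
    have h2 : ‖x - x'‖ / τ ≤ l / τ := div_le_div_of_nonneg_right h hτ.le
    have := abs_le.mp h1
    exact ⟨tent_le_one hτ _, by linarith [this.1], by linarith [this.2]⟩
  · have hx := not_le.mp hx
    have h1 := norm_sub_le_norm_sub_add_norm_sub x x' w
    rw [tent_eq_zero hτ (z := x' - w) (by linarith), tent_eq_zero hτ (z := x - w) (by linarith)]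
    simp

end tent

lemma measurable_ind (w : E) (r : ℝ) : Measurable (ind w r) := by
  unfold ind
  exact Measurable.ite (measurableSet_le (by fun_prop) measurable_const) measurable_const
    measurable_const

end Vale.Agent.P100
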