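import Vale.Agent.P100.KeyA

/-! One side of the local stress inequality. -/

set_option linter.unusedSectionVars false

namespace Vale.Agent.P100

open MeasureTheory Set Filter Topology Metric
open scoped ENNReal RealInnerProductSpace

variable {E : Type*} [NormedAddCommGroup E] [InnerProductSpace ℝ E]
  [MeasurableSpace E] [BorelSpace E] [FiniteDimensional ℝ E]

/-- A pair of positive functions given by Newton potentials. -/
structure Pot (m : ℕ) (c p q : ℝ) (u v ρ1 ρ2 : E → ℝ) : Prop where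
  hc : 0 < c
  hp : 0 < p
  hq : 0 < q
  cu : Continuous u
  cv : Continuous v
  pu : ∀ x, 0 < u x
  pv : ∀ x, 0 < v x
  m1 : Measurable ρ1
  m2 : Measurable ρ2
  n1 : ∀ x, 0 ≤ ρ1 x
  n2 : ∀ x, 0 ≤ ρ2 x
  ru : ∀ x, ENNReal.ofReal (c * u x) = ∫⁻ y, Ke m (x - y) * ENNReal.ofReal (ρ1 y)
  rv : ∀ x, ENNReal.ofReal (c * v x) = ∫⁻ y, Ke m (x - y) * ENNReal.ofReal (ρ2 y)

/-- Local data near a direction vector `w`. -/
structure Loc (p q : ℝ) (u v ρ1 ρ2 : E → ℝ) (w : E) (η τ l l' T κ e0 : ℝ) : Prop where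
  hw : w ≠ 0
  hT : 0 < T
  hl : T * ‖w‖ ≤ l
  hτ : 0 < τ
  hlτ : l ≤ τ
  hl' : 0 ≤ l'
  hη : 2 * τ + l' ≤ η
  k1 : 1 / 2 ≤ κ
  k2 : κ ≤ 1
  he : 0 ≤ e0
  w1 : ∀ x ∈ closedBall w (3 * η), κ * v x ^ p ≤ ρ1 x ∧ ρ1 x ≤ (κ + e0) * v x ^ p
  w2 : ∀ x ∈ closedBall w (3 * η), κ * u x ^ q ≤ ρ2 x ∧ ρ2 x ≤ (κ + e0) * u x ^ q

variable {m : ℕ} {c p q : ℝ} {u v ρ1 ρ2 : E → ℝ} {w : E} {η τ l l' T κ e0 : ℝ}

lemma Pot.swap (h : Pot m c p q u v ρ1 ρ2) : Pot m c q p v u ρ2 ρ1 :=
  ⟨h.hc, h.hq, h.hp, h.cv, h.cu, h.pv, h.pu, h.m2, h.m1, h.n2, h.n1, h.rv, h.ru⟩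

lemma Loc.swap (h : Loc p q u v ρ1 ρ2 w η τ l l' T κ e0) : Loc q p v u ρ2 ρ1 w η τ l l' T κ e0 :=
  ⟨h.hw, h.hT, h.hl, h.hτ, h.hlτ, h.hl', h.hη, h.k1, h.k2, h.he, h.w2, h.w1⟩

lemma Loc.hTη (h : Loc p q u v ρ1 ρ2 w η τ l l' T κ e0) : T * ‖w‖ ≤ η := by
  linarith [h.hl, h.hlτ, h.hl', h.hη, h.hτ]

lemma Pot.cf (h : Pot m c p q u v ρ1 ρ2) : Continuous fun x => v x ^ p :=
  h.cv.rpow_const fun _ => Or.inr h.hp.le

/-- The pair interaction measure. -/
noncomputable def piM (m : ℕ) (ρ1 ρ2 : E → ℝ) : Measure (E × E) :=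
  ((volume : Measure E).prod volume).withDensity fun z =>
    ENNReal.ofReal (ρ1 z.1) * ENNReal.ofReal (ρ2 z.2) * Ke m (z.1 - z.2)

lemma Pot.md (h : Pot m c p q u v ρ1 ρ2) : Measurable fun z : E × E =>
    ENNReal.ofReal (ρ1 z.1) * ENNReal.ofReal (ρ2 z.2) * Ke m (z.1 - z.2) := by
  have := h.m1; have := h.m2; have := measurable_Ke (E := E) m
  fun_prop

lemma Pot.lint_pi (h : Pot m c p q u v ρ1 ρ2) {H : E × E → ℝ≥0∞} (hH : Measurable H) :
    ∫⁻ z, H z ∂(piM m ρ1 ρ2) = ∫⁻ x, ∫⁻ y, H (x, y) *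
      (ENNReal.ofReal (ρ1 x) * ENNReal.ofReal (ρ2 y) * Ke m (x - y)) := by
  rw [piM, lintegral_withDensity_eq_lintegral_mul _ h.md hH,
    lintegral_prod _ (h.md.mul hH).aemeasurable]
  simp only [Pi.mul_apply, mul_comm]

lemma Pot.lint_swap (h : Pot m c p q u v ρ1 ρ2) {H : E × E → ℝ≥0∞} (hH : Measurable H) :
    ∫⁻ z, H z.swap ∂(piM m ρ2 ρ1) = ∫⁻ z, H z ∂(piM m ρ1 ρ2) := by
  rw [h.swap.lint_pi (H := fun z => H z.swap) (hH.comp measurable_swap), h.lint_pi hH,
    lintegral_lintegral_swap]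
  · refine lintegral_congr fun x => lintegral_congr fun y => ?_
    rw [Ke_sub_comm m y x, mul_comm (ENNReal.ofReal (ρ2 y))]; rfl
  · exact ((hH.comp measurable_swap).mul h.swap.md).aemeasurable

lemma Pot.lint_fst (h : Pot m c p q u v ρ1 ρ2) {H : E → ℝ≥0∞} (hH : Measurable H) :
    ∫⁻ z, H z.1 ∂(piM m ρ1 ρ2) = ∫⁻ x, H x * ENNReal.ofReal (ρ1 x) * ENNReal.ofReal (c * v x) := by
  rw [h.lint_pi (H := fun z => H z.1) (hH.comp measurable_fst)]
  refine lintegral_congr fun x => ?_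
  have := h.m2; have := measurable_Ke (E := E) m
  rw [h.rv, ← lintegral_const_mul _ (by fun_prop)]
  refine lintegral_congr fun y => ?_
  ring

lemma kn_le (h : Pot m c p q u v ρ1 ρ2) (g : Loc p q u v ρ1 ρ2 w η τ l l' T κ e0) (x : E) :
    ENNReal.ofReal κ * nn (SS (fun x => v x ^ p) w T (closedBall w (2 * η))) x ≤
      ENNReal.ofReal (ρ1 x) := by
  refine (mul_le_mul_right (nn_le h.cf g.hT g.hTη x) _).trans ?_
  by_cases hx : x ∈ closedBall w (3 * η)
  · rw [indicator_of_mem hx, ← ENNReal.ofReal_mul (by linarith [g.k1])]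
    exact ENNReal.ofReal_le_ofReal (g.w1 x hx).1
  · simp [hx]

/-- Remainder density. -/
noncomputable def Rm (f ρ : E → ℝ) (w : E) (η T e0 : ℝ) (y : E) : ℝ≥0∞ :=
  ENNReal.ofReal (2 * e0 + (1 - ind w η y)) * ENNReal.ofReal (ρ y) +
    ENNReal.ofReal (ind w η y) * Lg f w T y

lemma measurable_Lg {f : E → ℝ} (hf : Continuous f) : Measurable (Lg f w T) := by
  unfold Lg; fun_prop

lemma measurable_Rm (h : Pot m c p q u v ρ1 ρ2) :
    Measurable (Rm (fun x => v x ^ p) ρ1 w η T e0) := by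
  have := measurable_Lg (w := w) (T := T) h.cf
  have := measurable_ind w η
  have := h.m1
  unfold Rm; fun_prop

lemma e0_le (h : Pot m c p q u v ρ1 ρ2) (g : Loc p q u v ρ1 ρ2 w η τ l l' T κ e0) {x : E}
    (hx : x ∈ closedBall w (3 * η)) : ρ1 x ≤ κ * v x ^ p + 2 * e0 * ρ1 x := by
  have h1 := g.w1 x hx
  have h2 : 0 < v x ^ p := Real.rpow_pos_of_pos (h.pv x) p
  have h3 : v x ^ p ≤ 2 * ρ1 x := by nlinarith [g.k1]
  nlinarith [g.he]

lemma r_le (h : Pot m c p q u v ρ1 ρ2) (g : Loc p q u v ρ1 ρ2 w η τ l l' T κ e0) (y : E) :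
    ENNReal.ofReal (ρ1 y) ≤
      ENNReal.ofReal κ * nn (SS (fun x => v x ^ p) w T (closedBall w (2 * η))) y +
        Rm (fun x => v x ^ p) ρ1 w η T e0 y := by
  have hη : 0 ≤ η := by linarith [g.hl', g.hη, g.hτ]
  unfold Rm ind
  split_ifs with hy
  · have hy' : y ∈ closedBall w η := by rwa [mem_closedBall, dist_eq_norm]
    have h1 := e0_le h g (closedBall_subset_closedBall (by linarith) hy')
    have h2 := nn_ge h.cf g.hT g.hTη hy'
    have hκ : 0 ≤ κ := by linarith [g.k1]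
    calc _ ≤ ENNReal.ofReal (κ * v y ^ p + 2 * e0 * ρ1 y) := ENNReal.ofReal_le_ofReal h1
      _ ≤ ENNReal.ofReal κ * ENNReal.ofReal (v y ^ p) +
          ENNReal.ofReal (2 * e0) * ENNReal.ofReal (ρ1 y) := by
          refine ENNReal.ofReal_add_le.trans ?_
          rw [ENNReal.ofReal_mul hκ, ENNReal.ofReal_mul (by linarith [g.he])]
      _ ≤ ENNReal.ofReal κ * (nn (SS (fun x => v x ^ p) w T (closedBall w (2 * η))) y +
          Lg (fun x => v x ^ p) w T y) + ENNReal.ofReal (2 * e0) * ENNReal.ofReal (ρ1 y) := by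
          gcongr
      _ ≤ _ := by
          rw [mul_add, add_assoc, add_comm (ENNReal.ofReal κ * Lg _ w T y)]
          gcongr
          · simp
          · exact g.k2
  · refine le_trans ?_ le_add_self
    refine le_trans ?_ le_self_add
    calc _ = 1 * ENNReal.ofReal (ρ1 y) := (one_mul _).symm
      _ ≤ _ := by
        gcongr
        rw [← ENNReal.ofReal_one]
        exact ENNReal.ofReal_le_ofReal (by linarith [g.he])

lemma lower_pot (h : Pot m c p q u v ρ1 ρ2) (g : Loc p q u v ρ1 ρ2 w η τ l l' T κ e0) (x : E) :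
    ENNReal.ofReal κ * ∫⁻ o' in SS (fun x => u x ^ q) w T (closedBall w (2 * η)),
      Ke m (x - o'.1) ≤ ENNReal.ofReal (c * v x) := by
  have mK := measurable_Ke (E := E) m
  have hS := measurableSet_SS (w := w) h.swap.cf g.hT.le (measurableSet_closedBall (x := w)
    (ε := 2 * η))
  rw [lint_fst hS (H := fun y => Ke m (x - y)) (by fun_prop), h.rv,
    ← lintegral_const_mul' _ _ ENNReal.ofReal_ne_top]
  refine lintegral_mono fun y => ?_
  rw [mul_left_comm]
  exact mul_le_mul_right (kn_le h.swap g.swap y) _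

lemma upper_pot (h : Pot m c p q u v ρ1 ρ2) (g : Loc p q u v ρ1 ρ2 w η τ l l' T κ e0) (x : E) :
    ENNReal.ofReal (c * v x) ≤
      ENNReal.ofReal κ * (∫⁻ o' in SS (fun x => u x ^ q) w T (closedBall w (2 * η)),
      Ke m (x - o'.1)) + ∫⁻ y, Ke m (x - y) * Rm (fun x => u x ^ q) ρ2 w η T e0 y := by
  have mK := measurable_Ke (E := E) m
  have hS := measurableSet_SS (w := w) h.swap.cf g.hT.le (measurableSet_closedBall (x := w)
    (ε := 2 * η))
  have mn := measurable_nn hS
  rw [lint_fst hS (H := fun y => Ke m (x - y)) (by fun_prop), h.rv,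
    ← lintegral_const_mul' _ _ ENNReal.ofReal_ne_top, ← lintegral_add_left (by fun_prop)]
  refine lintegral_mono fun y => ?_
  rw [mul_left_comm, ← mul_add]
  exact mul_le_mul_right (r_le h.swap g.swap y) _

lemma v_end (h : Pot m c p q u v ρ1 ρ2) {x : E} {t : ℝ} (hx : v x ^ p = t) : v x = t ^ p⁻¹ := by
  rw [← hx, Real.rpow_rpow_inv (h.pv x).le h.hp.ne']

lemma lev_le (h : Pot m c p q u v ρ1 ρ2) {x : E} {t : ℝ} (h0 : 0 < t) (hx : t < v x ^ p) :
    t ^ p⁻¹ ≤ v x := by
  calc _ ≤ (v x ^ p) ^ p⁻¹ := Real.rpow_le_rpow h0.le hx.le (inv_pos.mpr h.hp).le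
    _ = v x := Real.rpow_rpow_inv (h.pv x).le h.hp.ne'

lemma ends_le (h : Pot m c p q u v ρ1 ρ2) (g : Loc p q u v ρ1 ρ2 w η τ l l' T κ e0) {o : E × ℝ}
    (ho : o ∈ SS (fun x => v x ^ p) w T (closedBall w (2 * η))) :
    ENNReal.ofReal κ * ∫⁻ o' in SS (fun x => u x ^ q) w T (closedBall w (2 * η)),
      (Ke m (lo (fun x => v x ^ p) w T o - o'.1) + Ke m (hi (fun x => v x ^ p) w T o - o'.1)) ≤
      2 * ENNReal.ofReal (c * o.2 ^ p⁻¹) := by
  have mK := measurable_Ke (E := E) m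
  rw [lintegral_add_left (by fun_prop), mul_add, two_mul (ENNReal.ofReal _)]
  refine add_le_add ((lower_pot h g _).trans ?_) ((lower_pot h g _).trans ?_)
  · rw [v_end h (f_lo h.cf g.hT ho)]
  · rw [hi, v_end h (f_hi h.cf g.hT ho)]

lemma point_ineq (h : Pot m c p q u v ρ1 ρ2) (g : Loc p q u v ρ1 ρ2 w η τ l l' T κ e0) {o : E × ℝ}
    (ho : o ∈ SS (fun x => v x ^ p) w T (closedBall w (2 * η))) :
    2 * ENNReal.ofReal (c * (v o.1 - o.2 ^ p⁻¹)) +
      ENNReal.ofReal κ * ∫⁻ o' in SS (fun x => u x ^ q) w T (closedBall w (2 * η)),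
      (Ke m (lo (fun x => v x ^ p) w T o - o'.1) + Ke m (hi (fun x => v x ^ p) w T o - o'.1)) ≤
      2 * (ENNReal.ofReal κ * (∫⁻ o' in SS (fun x => u x ^ q) w T (closedBall w (2 * η)),
      Ke m (o.1 - o'.1)) + ∫⁻ y, Ke m (o.1 - y) * Rm (fun x => u x ^ q) ρ2 w η T e0 y) := by
  refine (add_le_add le_rfl (ends_le h g ho)).trans ?_
  rw [← mul_add, ← ENNReal.ofReal_add (mul_nonneg h.hc.le (sub_nonneg.mpr (lev_le h ho.1 ho.2.1)))
    (mul_nonneg h.hc.le (Real.rpow_nonneg ho.1.le _))]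
  refine mul_le_mul_right (le_trans (le_of_eq ?_) (upper_pot h g o.1)) _
  congr 1; ring

lemma lhs_bound (h : Pot m c p q u v ρ1 ρ2) (g : Loc p q u v ρ1 ρ2 w η τ l l' T κ e0) :
    ∫⁻ z, ENNReal.ofReal (tent τ (z.1 - w) / (p + 1)) ∂(piM m ρ1 ρ2) ≤
      ENNReal.ofReal κ * (∫⁻ o in SS (fun x => v x ^ p) w T (closedBall w (2 * η)),
        ENNReal.ofReal (tent τ (lo (fun x => v x ^ p) w T o - w)) *
          ENNReal.ofReal (c * (v o.1 - o.2 ^ p⁻¹))) +
      (∫⁻ z, ENNReal.ofReal ((l / τ + 2 * e0) * ind w (2 * τ) z.1) ∂(piM m ρ1 ρ2)) +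
      ∫⁻ x, ENNReal.ofReal (ind w η x) * Lg (fun x => v x ^ p) w T x * ENNReal.ofReal (c * v x) := by
  have hS := measurableSet_SS (w := w) h.cf g.hT.le (measurableSet_closedBall (x := w)
    (ε := 2 * η))
  have ml := measurable_lo (w := w) h.cf g.hT.le
  have mt := (continuous_tent (E := E) τ).measurable
  have mv := h.cv.measurable
  have m1 := h.m1
  have mi := measurable_ind w (2 * τ)
  have mi' := measurable_ind w η
  have mL := measurable_Lg (w := w) (T := T) h.cf
  have mH : Measurable fun o : E × ℝ => ENNReal.ofReal (tent τ (lo (fun x => v x ^ p) w T o - w)) *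
      ENNReal.ofReal (c * (v o.1 - o.2 ^ p⁻¹)) := by fun_prop
  have hκ : 0 ≤ κ := by linarith [g.k1]
  have hl0 : 0 ≤ l := le_trans (mul_nonneg g.hT.le (norm_nonneg _)) g.hl
  have hlτ : 0 ≤ l / τ := div_nonneg hl0 g.hτ.le
  have mI : Measurable fun x => ∫⁻ t in
      {t : ℝ | (x, t) ∈ SS (fun x => v x ^ p) w T (closedBall w (2 * η))},
      ENNReal.ofReal (tent τ (lo (fun x => v x ^ p) w T (x, t) - w)) *
      ENNReal.ofReal (c * (v x - t ^ p⁻¹)) := by
    have := (mH.indicator hS).lintegral_prod_right' (ν := volume)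
    convert this using 2 with x
    have : MeasurableSet {t : ℝ | (x, t) ∈ SS (fun x => v x ^ p) w T (closedBall w (2 * η))} :=
      measurable_prodMk_left hS
    rw [← lintegral_indicator this]; rfl
  rw [h.lint_fst (H := fun x => ENNReal.ofReal (tent τ (x - w) / (p + 1))) (by fun_prop),
    h.lint_fst (H := fun x => ENNReal.ofReal ((l / τ + 2 * e0) * ind w (2 * τ) x)) (by fun_prop),
    lint_prod_S hS mH, ← lintegral_const_mul _ mI, ← lintegral_add_left (mI.const_mul _),
    ← lintegral_add_right _ (by fun_prop)]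
  refine lintegral_mono fun x => ?_
  by_cases hx : τ ≤ ‖x - w‖
  · simp [tent_eq_zero g.hτ hx]
  have hx := not_le.mp hx
  have i1 : ind w (2 * τ) x = 1 := if_pos (by linarith [g.hτ])
  have i2 : ind w η x = 1 := if_pos (by linarith [g.hτ, g.hη, g.hl'])
  have hxη : x ∈ closedBall w η := by
    rw [mem_closedBall, dist_eq_norm]; linarith [g.hτ, g.hη, g.hl']
  have hη : 0 ≤ η := by linarith [g.hl', g.hη, g.hτ]
  set θ := tent τ (x - w) with hθ
  have θ0 : 0 ≤ θ := tent_nonneg _ _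
  have θ1 : θ ≤ 1 := tent_le_one g.hτ _
  set Sx := {t : ℝ | (x, t) ∈ SS (fun x => v x ^ p) w T (closedBall w (2 * η))} with hSx
  have mSx : MeasurableSet Sx := measurable_prodMk_left hS
  set V := ENNReal.ofReal (c * v x) with hV
  have cv0 : 0 ≤ c * v x := (mul_pos h.hc (h.pv x)).le
  have hle : ∀ t : ℝ, 0 < t → ENNReal.ofReal (c * (v x - t ^ p⁻¹)) ≤ V := fun t ht =>
    ENNReal.ofReal_le_ofReal (mul_le_mul_of_nonneg_left
      (by have := Real.rpow_nonneg ht.le p⁻¹; linarith) h.hc.le)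
  have s1 : ∫⁻ t in Ioo (0 : ℝ) (v x ^ p), ENNReal.ofReal θ * ENNReal.ofReal (c * (v x - t ^ p⁻¹)) ≤
      ((∫⁻ t in Sx, ENNReal.ofReal (tent τ (lo (fun x => v x ^ p) w T (x, t) - w)) *
        ENNReal.ofReal (c * (v x - t ^ p⁻¹))) + ENNReal.ofReal (l / τ) * V * volume Sx) +
        V * Lg (fun x => v x ^ p) w T x := by
    calc _ ≤ ∫⁻ t in Sx ∪ (Ioo (0 : ℝ) (v x ^ p) \ Sx),
          ENNReal.ofReal θ * ENNReal.ofReal (c * (v x - t ^ p⁻¹)) :=
          lintegral_mono_set fun t ht => by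
            by_cases h' : t ∈ Sx
            · exact Or.inl h'
            · exact Or.inr ⟨ht, h'⟩
      _ ≤ _ := by
          refine (lintegral_union_le _ _ _).trans (add_le_add ?_ ?_)
          · rw [← setLIntegral_const, ← lintegral_add_right _ measurable_const]
            refine setLIntegral_mono' mSx fun t ht => ?_
            have hn := (norm_sub_lo_le (w := w) h.cf g.hT (x, t)).trans g.hl
            have := (tent_near g.hτ g.hlτ (w := w) hn).2.2
            simp only [i1, mul_one] at this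
            calc _ ≤ (ENNReal.ofReal (tent τ (lo (fun x => v x ^ p) w T (x, t) - w)) +
                  ENNReal.ofReal (l / τ)) * ENNReal.ofReal (c * (v x - t ^ p⁻¹)) :=
                  mul_le_mul_left ((ENNReal.ofReal_le_ofReal this).trans ENNReal.ofReal_add_le) _
              _ ≤ _ := by
                  rw [add_mul]
                  exact add_le_add le_rfl (mul_le_mul_right (hle t ht.1) _)
          · calc _ ≤ ∫⁻ _ in Ioo (0 : ℝ) (v x ^ p) \ Sx, V := by
                  refine setLIntegral_mono' (measurableSet_Ioo.diff mSx) fun t ht => ?_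
                  calc _ ≤ 1 * V := mul_le_mul' (ENNReal.ofReal_le_one.mpr θ1) (hle t ht.1.1)
                    _ = V := one_mul _
              _ ≤ _ := by
                  rw [setLIntegral_const]
                  exact mul_le_mul_right (long_le h.cf g.hT g.hTη hxη) _
  rw [lintegral_const_mul' _ _ ENNReal.ofReal_ne_top, level_int (h.pv x) h.hp h.hc] at s1
  have s2 : ENNReal.ofReal (θ / (p + 1)) * ENNReal.ofReal (ρ1 x) * V ≤
      ENNReal.ofReal κ * (ENNReal.ofReal θ * ENNReal.ofReal (c * (v x * v x ^ p / (p + 1)))) +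
        ENNReal.ofReal (2 * e0) * ENNReal.ofReal (ρ1 x) * V := by
    have hp1 : 0 < p + 1 := by linarith [h.hp]
    have e0' := g.he
    have r0 := h.n1 x
    have f0 : 0 < v x ^ p := Real.rpow_pos_of_pos (h.pv x) p
    have hv := h.pv x
    have hc := h.hc
    rw [hV, ← ENNReal.ofReal_mul (by positivity), ← ENNReal.ofReal_mul (by positivity),
      ← ENNReal.ofReal_mul θ0, ← ENNReal.ofReal_mul hκ, ← ENNReal.ofReal_mul (by positivity),
      ← ENNReal.ofReal_mul (by positivity), ← ENNReal.ofReal_add (by positivity) (by positivity)]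
    refine ENNReal.ofReal_le_ofReal ?_
    have h1 := e0_le h g (closedBall_subset_closedBall (by linarith) hxη)
    have h2 : θ / (p + 1) ≤ 1 := by rw [div_le_one hp1]; linarith [h.hp]
    have h3 : 0 ≤ θ / (p + 1) := by positivity
    calc θ / (p + 1) * ρ1 x * (c * v x) ≤ θ / (p + 1) * (κ * v x ^ p + 2 * e0 * ρ1 x) * (c * v x) := by
          gcongr
      _ = κ * (θ * (c * (v x * v x ^ p / (p + 1)))) + θ / (p + 1) * (2 * e0 * ρ1 x * (c * v x)) := by
          ring
      _ ≤ _ := by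
          have : 0 ≤ 2 * e0 * ρ1 x * (c * v x) := by positivity
          nlinarith
  refine s2.trans ?_
  refine (add_le_add (mul_le_mul_right s1 _) le_rfl).trans ?_
  have k3 : ENNReal.ofReal κ * volume Sx ≤ ENNReal.ofReal (ρ1 x) := kn_le h g x
  have k4 : ENNReal.ofReal κ ≤ 1 := ENNReal.ofReal_le_one.mpr g.k2
  rw [i1, i2, mul_one, ENNReal.ofReal_one, one_mul, ENNReal.ofReal_add hlτ (by linarith [g.he])]
  calc _ = ENNReal.ofReal κ * (∫⁻ t in Sx,
        ENNReal.ofReal (tent τ (lo (fun x => v x ^ p) w T (x, t) - w)) *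
        ENNReal.ofReal (c * (v x - t ^ p⁻¹))) + (ENNReal.ofReal (l / τ) *
          (ENNReal.ofReal κ * volume Sx) * V + ENNReal.ofReal (2 * e0) * ENNReal.ofReal (ρ1 x) * V) +
          ENNReal.ofReal κ * (Lg (fun x => v x ^ p) w T x * V) := by ring
    _ ≤ _ := by
        refine add_le_add (add_le_add le_rfl ?_) ?_
        · rw [add_mul, add_mul]; gcongr
        · calc _ ≤ 1 * (Lg (fun x => v x ^ p) w T x * V) := mul_le_mul_left k4 _
            _ = _ := one_mul _

/-- Indicator of far pairs. -/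
noncomputable def far (l' : ℝ) (z : E × E) : ℝ := if ‖z.1 - z.2‖ ≤ l' then 0 else 1

lemma far_nonneg (l' : ℝ) (z : E × E) : 0 ≤ far l' z := by unfold far; split_ifs <;> norm_num

lemma measurable_far (l' : ℝ) : Measurable (far l' : E × E → ℝ) := by
  unfold far
  exact Measurable.ite (measurableSet_le (by fun_prop) measurable_const) measurable_const
    measurable_const

lemma rem_bound (h : Pot m c p q u v ρ1 ρ2) (g : Loc p q u v ρ1 ρ2 w η τ l l' T κ e0) :
    ENNReal.ofReal κ * (∫⁻ o in SS (fun x => v x ^ p) w T (closedBall w (2 * η)),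
        ENNReal.ofReal (tent τ (lo (fun x => v x ^ p) w T o - w)) *
          ∫⁻ y, Ke m (o.1 - y) * Rm (fun x => u x ^ q) ρ2 w η T e0 y) ≤
      (∫⁻ z, ENNReal.ofReal ((2 * e0 + far l' z) * ind w (2 * τ) z.1) ∂(piM m ρ1 ρ2)) +
      ∫⁻ x, ENNReal.ofReal (ind w η x) * Lg (fun x => u x ^ q) w T x * ENNReal.ofReal (c * u x) := by
  have hS := measurableSet_SS (w := w) h.cf g.hT.le (measurableSet_closedBall (x := w)
    (ε := 2 * η))
  have mK := measurable_Ke (E := E) m
  have mR := measurable_Rm (w := w) (η := η) (T := T) (e0 := e0) h.swap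
  have mL := measurable_Lg (w := w) (T := T) h.swap.cf
  have mi := measurable_ind w (2 * τ)
  have mi' := measurable_ind w η
  have mf := measurable_far (E := E) l'
  have m1 := h.m1
  have m2 := h.m2
  have mI : Measurable fun x : E => ∫⁻ y, Ke m (x - y) * Rm (fun x => u x ^ q) ρ2 w η T e0 y :=
    Measurable.lintegral_prod_right'
      (f := fun z : E × E => Ke m (z.1 - z.2) * Rm (fun x => u x ^ q) ρ2 w η T e0 z.2) (by fun_prop)
  calc _ ≤ ENNReal.ofReal κ * ∫⁻ o in SS (fun x => v x ^ p) w T (closedBall w (2 * η)),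
        ENNReal.ofReal (ind w (2 * τ) o.1) *
          ∫⁻ y, Ke m (o.1 - y) * Rm (fun x => u x ^ q) ρ2 w η T e0 y := by
        refine mul_le_mul_right (lintegral_mono fun o => mul_le_mul_left ?_ _) _
        exact ENNReal.ofReal_le_ofReal (tent_near g.hτ g.hlτ
          ((norm_sub_lo_le (w := w) h.cf g.hT o).trans g.hl)).1
    _ ≤ ∫⁻ x, ENNReal.ofReal (ind w (2 * τ) x) * ENNReal.ofReal (ρ1 x) *
          ∫⁻ y, Ke m (x - y) * Rm (fun x => u x ^ q) ρ2 w η T e0 y := by
        rw [lint_fst hS (H := fun x => ENNReal.ofReal (ind w (2 * τ) x) *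
          ∫⁻ y, Ke m (x - y) * Rm (fun x => u x ^ q) ρ2 w η T e0 y) (by fun_prop),
          ← lintegral_const_mul' _ _ ENNReal.ofReal_ne_top]
        refine lintegral_mono fun x => ?_
        calc _ = ENNReal.ofReal (ind w (2 * τ) x) * (ENNReal.ofReal κ *
              nn (SS (fun x => v x ^ p) w T (closedBall w (2 * η))) x) *
              ∫⁻ y, Ke m (x - y) * Rm (fun x => u x ^ q) ρ2 w η T e0 y := by ring
          _ ≤ _ := by gcongr; exact kn_le h g x
    _ ≤ ∫⁻ x, ((∫⁻ y, ENNReal.ofReal ((2 * e0 + far l' (x, y)) * ind w (2 * τ) x) *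
          (ENNReal.ofReal (ρ1 x) * ENNReal.ofReal (ρ2 y) * Ke m (x - y))) +
          ∫⁻ y, ENNReal.ofReal (ind w η y) * Lg (fun x => u x ^ q) w T y *
            (Ke m (y - x) * ENNReal.ofReal (ρ1 x))) := by
        refine lintegral_mono fun x => ?_
        rw [← lintegral_const_mul _ (by fun_prop), ← lintegral_add_left (by fun_prop)]
        refine lintegral_mono fun y => ?_
        rw [Rm, mul_add, mul_add, Ke_sub_comm m y x]
        by_cases hx : ‖x - w‖ ≤ 2 * τ
        · have i1 : ind w (2 * τ) x = 1 := if_pos hx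
          have hf : 1 - ind w η y ≤ far l' (x, y) := by
            unfold ind far
            have := norm_sub_le_norm_sub_add_norm_sub y x w
            rw [norm_sub_rev y x] at this
            split_ifs with a b b
            · norm_num
            · norm_num
            · exfalso; simp only at b; linarith [g.hη]
            · norm_num
          rw [i1, ENNReal.ofReal_one, one_mul, mul_one]
          refine add_le_add ?_ (le_of_eq (by ring))
          calc _ = ENNReal.ofReal (2 * e0 + (1 - ind w η y)) *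
              (ENNReal.ofReal (ρ1 x) * ENNReal.ofReal (ρ2 y) * Ke m (x - y)) := by ring
            _ ≤ _ := mul_le_mul_left (ENNReal.ofReal_le_ofReal (by linarith)) _
        · have i1 : ind w (2 * τ) x = 0 := if_neg hx
          simp [i1]
    _ = _ := by
        rw [lintegral_add_left, h.lint_pi (H := fun z =>
          ENNReal.ofReal ((2 * e0 + far l' z) * ind w (2 * τ) z.1)) (by fun_prop),
          lintegral_lintegral_swap (f := fun x y => ENNReal.ofReal (ind w η y) *
            Lg (fun x => u x ^ q) w T y * (Ke m (y - x) * ENNReal.ofReal (ρ1 x)))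
            (Measurable.aemeasurable (by fun_prop))]
        · congr 1
          refine lintegral_congr fun y => ?_
          rw [lintegral_const_mul _ (by fun_prop), h.ru]
        · exact Measurable.lintegral_prod_right' (f := fun z : E × E =>
            ENNReal.ofReal ((2 * e0 + far l' (z.1, z.2)) * ind w (2 * τ) z.1) *
            (ENNReal.ofReal (ρ1 z.1) * ENNReal.ofReal (ρ2 z.2) * Ke m (z.1 - z.2))) (by fun_prop)

end Vale.Agent.P100
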