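import Vale.Agent.P100.KeyB

/-! The local stress inequality in one direction. -/

set_option linter.unusedSectionVars false

namespace Vale.Agent.P100

open MeasureTheory Set Filter Topology Metric
open scoped ENNReal RealInnerProductSpace

variable {E : Type*} [NormedAddCommGroup E] [InnerProductSpace ℝ E]
  [MeasurableSpace E] [BorelSpace E] [FiniteDimensional ℝ E]

variable {m : ℕ} {c p q : ℝ} {u v ρ1 ρ2 : E → ℝ} {w : E} {η τ l l' T κ e0 : ℝ}

/-- Error from long levels. -/
noncomputable def Er (c : ℝ) (v f : E → ℝ) (w : E) (η T : ℝ) : ℝ≥0∞ :=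
  ∫⁻ x, ENNReal.ofReal (ind w η x) * Lg f w T x * ENNReal.ofReal (c * v x)

/-- End point terms. -/
noncomputable def En (m : ℕ) (f g : E → ℝ) (w : E) (η τ T : ℝ) : ℝ≥0∞ :=
  ∫⁻ o in SS f w T (closedBall w (2 * η)), ∫⁻ o' in SS g w T (closedBall w (2 * η)),
    ENNReal.ofReal (tent τ (lo f w T o - w)) *
      (Ke m (lo f w T o - o'.1) + Ke m (hi f w T o - o'.1))

/-- Bulk terms. -/
noncomputable def KK (m : ℕ) (f g : E → ℝ) (w : E) (η τ T : ℝ) : ℝ≥0∞ :=
  ∫⁻ o in SS f w T (closedBall w (2 * η)), ∫⁻ o' in SS g w T (closedBall w (2 * η)),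
    ENNReal.ofReal (tent τ (lo f w T o - w)) * Ke m (o.1 - o'.1)

lemma side (h : Pot m c p q u v ρ1 ρ2) (g : Loc p q u v ρ1 ρ2 w η τ l l' T κ e0) :
    2 * (∫⁻ z, ENNReal.ofReal (tent τ (z.1 - w) / (p + 1)) ∂(piM m ρ1 ρ2)) +
      ENNReal.ofReal κ * (ENNReal.ofReal κ * En m (fun x => v x ^ p) (fun x => u x ^ q) w η τ T) ≤
      2 * (ENNReal.ofReal κ * (ENNReal.ofReal κ *
        KK m (fun x => v x ^ p) (fun x => u x ^ q) w η τ T) +
      (∫⁻ z, ENNReal.ofReal ((l / τ + 4 * e0 + far l' z) * ind w (2 * τ) z.1) ∂(piM m ρ1 ρ2)) +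
      Er c v (fun x => v x ^ p) w η T + Er c u (fun x => u x ^ q) w η T) := by
  have hS := measurableSet_SS (w := w) h.cf g.hT.le (measurableSet_closedBall (x := w)
    (ε := 2 * η))
  have ml := measurable_lo (w := w) h.cf g.hT.le
  have mh := measurable_hi (w := w) h.cf g.hT.le
  have mt := (continuous_tent (E := E) τ).measurable
  have mv := h.cv.measurable
  have mK := measurable_Ke (E := E) m
  have mi := measurable_ind w (2 * τ)
  have mf := measurable_far (E := E) l'
  have mI : Measurable fun o : E × ℝ => ∫⁻ o' in SS (fun x => u x ^ q) w T (closedBall w (2 * η)),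
      ENNReal.ofReal (tent τ (lo (fun x => v x ^ p) w T o - w)) * Ke m (o.1 - o'.1) :=
    Measurable.lintegral_prod_right' (f := fun z : (E × ℝ) × (E × ℝ) =>
      ENNReal.ofReal (tent τ (lo (fun x => v x ^ p) w T z.1 - w)) * Ke m (z.1.1 - z.2.1))
      (by fun_prop)
  have s1 : 2 * (∫⁻ o in SS (fun x => v x ^ p) w T (closedBall w (2 * η)),
        ENNReal.ofReal (tent τ (lo (fun x => v x ^ p) w T o - w)) *
          ENNReal.ofReal (c * (v o.1 - o.2 ^ p⁻¹))) +
      ENNReal.ofReal κ * En m (fun x => v x ^ p) (fun x => u x ^ q) w η τ T ≤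
      2 * (ENNReal.ofReal κ * KK m (fun x => v x ^ p) (fun x => u x ^ q) w η τ T +
        ∫⁻ o in SS (fun x => v x ^ p) w T (closedBall w (2 * η)),
        ENNReal.ofReal (tent τ (lo (fun x => v x ^ p) w T o - w)) *
          ∫⁻ y, Ke m (o.1 - y) * Rm (fun x => u x ^ q) ρ2 w η T e0 y) := by
    rw [En, KK, ← lintegral_const_mul' _ _ (by simp), ← lintegral_const_mul' _ _ (by simp),
      ← lintegral_const_mul' _ _ (by simp), ← lintegral_add_left (by fun_prop),
      ← lintegral_add_left (mI.const_mul _), ← lintegral_const_mul' _ _ (by simp)]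
    refine setLIntegral_mono' hS fun o ho => ?_
    have := mul_le_mul_right (point_ineq h g ho)
      (ENNReal.ofReal (tent τ (lo (fun x => v x ^ p) w T o - w)))
    rw [lintegral_const_mul' _ _ (by simp), lintegral_const_mul' _ _ (by simp)]
    refine le_trans (le_of_eq ?_) (this.trans (le_of_eq ?_)) <;> ring
  have s2 := lhs_bound h g
  have s3 := rem_bound h g
  have hl0 : 0 ≤ l := le_trans (mul_nonneg g.hT.le (norm_nonneg _)) g.hl
  have hlτ : 0 ≤ l / τ := div_nonneg hl0 g.hτ.le
  have s4 : (∫⁻ z, ENNReal.ofReal ((l / τ + 4 * e0 + far l' z) * ind w (2 * τ) z.1) ∂(piM m ρ1 ρ2)) =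
      (∫⁻ z, ENNReal.ofReal ((l / τ + 2 * e0) * ind w (2 * τ) z.1) ∂(piM m ρ1 ρ2)) +
      (∫⁻ z, ENNReal.ofReal ((2 * e0 + far l' z) * ind w (2 * τ) z.1) ∂(piM m ρ1 ρ2)) := by
    rw [← lintegral_add_left (by fun_prop)]
    refine lintegral_congr fun z => ?_
    have := g.he; have := far_nonneg l' z; have := ind_nonneg w (2 * τ) z.1
    rw [← ENNReal.ofReal_add (by positivity) (by positivity)]
    congr 1; ring
  rw [s4]
  have s5 := mul_le_mul_right s1 (ENNReal.ofReal κ)
  unfold Er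
  calc _ ≤ 2 * _ + ENNReal.ofReal κ * (ENNReal.ofReal κ *
        En m (fun x => v x ^ p) (fun x => u x ^ q) w η τ T) :=
        add_le_add (mul_le_mul_right s2 _) le_rfl
    _ = ENNReal.ofReal κ * (2 * (∫⁻ o in SS (fun x => v x ^ p) w T (closedBall w (2 * η)),
        ENNReal.ofReal (tent τ (lo (fun x => v x ^ p) w T o - w)) *
          ENNReal.ofReal (c * (v o.1 - o.2 ^ p⁻¹))) +
        ENNReal.ofReal κ * En m (fun x => v x ^ p) (fun x => u x ^ q) w η τ T) +
        2 * ((∫⁻ z, ENNReal.ofReal ((l / τ + 2 * e0) * ind w (2 * τ) z.1) ∂(piM m ρ1 ρ2)) +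
        ∫⁻ x, ENNReal.ofReal (ind w η x) * Lg (fun x => v x ^ p) w T x *
          ENNReal.ofReal (c * v x)) := by ring
    _ ≤ _ := add_le_add s5 le_rfl
    _ = 2 * (ENNReal.ofReal κ * (ENNReal.ofReal κ *
        KK m (fun x => v x ^ p) (fun x => u x ^ q) w η τ T)) +
        2 * (ENNReal.ofReal κ * ∫⁻ o in SS (fun x => v x ^ p) w T (closedBall w (2 * η)),
        ENNReal.ofReal (tent τ (lo (fun x => v x ^ p) w T o - w)) *
          ∫⁻ y, Ke m (o.1 - y) * Rm (fun x => u x ^ q) ρ2 w η T e0 y) +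
        2 * ((∫⁻ z, ENNReal.ofReal ((l / τ + 2 * e0) * ind w (2 * τ) z.1) ∂(piM m ρ1 ρ2)) +
        ∫⁻ x, ENNReal.ofReal (ind w η x) * Lg (fun x => v x ^ p) w T x *
          ENNReal.ofReal (c * v x)) := by ring
    _ ≤ _ := add_le_add (add_le_add le_rfl (mul_le_mul_right s3 _)) le_rfl
    _ = _ := by ring

lemma En_fin (h : Pot m c p q u v ρ1 ρ2) (g : Loc p q u v ρ1 ρ2 w η τ l l' T κ e0) :
    ENNReal.ofReal κ * En m (fun x => v x ^ p) (fun x => u x ^ q) w η τ T ≠ ⊤ := by
  have hS := measurableSet_SS (w := w) h.cf g.hT.le (measurableSet_closedBall (x := w)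
    (ε := 2 * η))
  have mv := h.cv.measurable
  refine ne_top_of_le_ne_top (b := ∫⁻ x in closedBall w (3 * η),
    ENNReal.ofReal (2 * (c * v x) * v x ^ p)) ?_ ?_
  · refine (Integrable.lintegral_lt_top ?_).ne
    have := h.cf; have := h.cv
    exact (by fun_prop : Continuous fun x => 2 * (c * v x) * v x ^ p).continuousOn.integrableOn_compact
      (isCompact_closedBall _ _)
  calc _ ≤ ∫⁻ o in SS (fun x => v x ^ p) w T (closedBall w (2 * η)),
        ENNReal.ofReal (2 * (c * v o.1)) := by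
        rw [En, ← lintegral_const_mul' _ _ (by simp)]
        refine setLIntegral_mono' hS fun o ho => ?_
        rw [lintegral_const_mul' _ _ (by simp), mul_left_comm]
        calc _ ≤ 1 * (2 * ENNReal.ofReal (c * o.2 ^ p⁻¹)) :=
              mul_le_mul' (ENNReal.ofReal_le_one.mpr (tent_le_one g.hτ _)) (ends_le h g ho)
          _ ≤ _ := by
              rw [one_mul, ENNReal.ofReal_mul (by norm_num : (0 : ℝ) ≤ 2), ENNReal.ofReal_ofNat]
              exact mul_le_mul_right (ENNReal.ofReal_le_ofReal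
                (mul_le_mul_of_nonneg_left (lev_le h ho.1 ho.2.1) h.hc.le)) _
    _ ≤ _ := by
        rw [lint_fst hS (H := fun x => ENNReal.ofReal (2 * (c * v x))) (by fun_prop),
          ← lintegral_indicator measurableSet_closedBall]
        refine lintegral_mono fun x => ?_
        refine (mul_le_mul_right (nn_le h.cf g.hT g.hTη x) _).trans ?_
        by_cases hx : x ∈ closedBall w (3 * η)
        · have := h.hc; have := h.pv x
          rw [indicator_of_mem hx, indicator_of_mem hx, ← ENNReal.ofReal_mul (by positivity)]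
        · simp [hx]

lemma pair_to_pi (h : Pot m c p q u v ρ1 ρ2) (g : Loc p q u v ρ1 ρ2 w η τ l l' T κ e0)
    {H : E × E → ℝ≥0∞} (hH : Measurable H) :
    ENNReal.ofReal κ * (ENNReal.ofReal κ *
      ∫⁻ o in SS (fun x => v x ^ p) w T (closedBall w (2 * η)),
        ∫⁻ o' in SS (fun x => u x ^ q) w T (closedBall w (2 * η)),
          H (o.1, o'.1) * Ke m (o.1 - o'.1)) ≤ ∫⁻ z, H z ∂(piM m ρ1 ρ2) := by
  have hS := measurableSet_SS (w := w) h.cf g.hT.le (measurableSet_closedBall (x := w)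
    (ε := 2 * η))
  have hS' := measurableSet_SS (w := w) h.swap.cf g.hT.le (measurableSet_closedBall (x := w)
    (ε := 2 * η))
  have mK := measurable_Ke (E := E) m
  have mI : Measurable fun x : E => ∫⁻ o' in SS (fun x => u x ^ q) w T (closedBall w (2 * η)),
      H (x, o'.1) * Ke m (x - o'.1) :=
    Measurable.lintegral_prod_right' (f := fun z : E × (E × ℝ) =>
      H (z.1, z.2.1) * Ke m (z.1 - z.2.1)) (by fun_prop)
  rw [lint_fst hS mI, h.lint_pi hH, ← lintegral_const_mul' _ _ (by simp),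
    ← lintegral_const_mul' _ _ (by simp)]
  refine lintegral_mono fun x => ?_
  rw [lint_fst hS' (H := fun y => H (x, y) * Ke m (x - y)) (by fun_prop)]
  have mn := measurable_nn hS'
  rw [← lintegral_mul_const _ (by fun_prop), ← lintegral_const_mul' _ _ (by simp),
    ← lintegral_const_mul' _ _ (by simp)]
  refine lintegral_mono fun y => ?_
  calc _ = H (x, y) * ((ENNReal.ofReal κ * nn (SS (fun x => v x ^ p) w T (closedBall w (2 * η))) x) *
      (ENNReal.ofReal κ * nn (SS (fun x => u x ^ q) w T (closedBall w (2 * η))) y) * Ke m (x - y)) := by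
        ring
    _ ≤ _ := by
        gcongr
        · exact kn_le h g x
        · exact kn_le h.swap g.swap y

lemma h0_bound (hτ : 0 < τ) (hlτ : l ≤ τ) (hl' : 0 ≤ l') {x y a b : E} (ha : ‖x - a‖ ≤ l)
    (hb : ‖y - b‖ ≤ l) :
    min (tent τ (a - w)) (tent τ (b - w)) * cs m w (x - y) + |tent τ (a - w) - tent τ (b - w)| ≤
      (1 - far l' (x, y)) * tent τ (x - w) * cs m w (x - y) +
        (((m + 2) * l + l') / τ + (m + 1) * far l' (x, y)) * (ind w (2 * τ) x + ind w (2 * τ) y) := by
  obtain ⟨a1, a2, -⟩ := tent_near hτ hlτ (w := w) ha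
  obtain ⟨b1, -, -⟩ := tent_near hτ hlτ (w := w) hb
  have ta := tent_nonneg τ (a - w)
  have tb := tent_nonneg τ (b - w)
  have c0 := cs_nonneg m w (x - y)
  have c1 := cs_le m w (x - y)
  have i1 := ind_nonneg w (2 * τ) x
  have i2 := ind_nonneg w (2 * τ) y
  have hl0 : 0 ≤ l := (norm_nonneg _).trans ha
  have hm : min (tent τ (a - w)) (tent τ (b - w)) ≤ tent τ (a - w) := min_le_left _ _
  have hd : |tent τ (a - w) - tent τ (b - w)| ≤ ind w (2 * τ) x + ind w (2 * τ) y :=
    abs_le.mpr ⟨by linarith, by linarith⟩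
  have m0 : (0 : ℝ) ≤ m := Nat.cast_nonneg m
  unfold far
  split_ifs with hz
  · simp only at hz
    have hd2 : |tent τ (a - w) - tent τ (b - w)| ≤
        (2 * l + l') / τ * (ind w (2 * τ) x + ind w (2 * τ) y) := by
      have h1 := tent_lip hτ (a - w) (b - w)
      rw [sub_sub_sub_cancel_right] at h1
      have h2 : ‖a - b‖ ≤ 2 * l + l' := by
        have e1 := norm_sub_le_norm_sub_add_norm_sub a x b
        have e2 := norm_sub_le_norm_sub_add_norm_sub x y b
        rw [norm_sub_rev a x] at e1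
        linarith
      have h3 : ‖a - b‖ / τ ≤ (2 * l + l') / τ := div_le_div_of_nonneg_right h2 hτ.le
      have h4 : 0 ≤ (2 * l + l') / τ := by positivity
      by_cases h5 : 1 ≤ ind w (2 * τ) x + ind w (2 * τ) y
      · nlinarith
      · have : ind w (2 * τ) x + ind w (2 * τ) y = 0 := by
          unfold ind at h5 ⊢
          split_ifs at h5 ⊢ <;> simp_all
        rw [this] at hd ⊢
        simpa using hd
    have h6 : min (tent τ (a - w)) (tent τ (b - w)) * cs m w (x - y) ≤
        (tent τ (x - w) + l / τ * ind w (2 * τ) x) * cs m w (x - y) :=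
      mul_le_mul_of_nonneg_right (hm.trans a2) c0
    have h7 : l / τ * ind w (2 * τ) x * cs m w (x - y) ≤
        l / τ * (ind w (2 * τ) x + ind w (2 * τ) y) * m := by
      have : 0 ≤ l / τ := by positivity
      gcongr; linarith
    have e : ((m + 2) * l + l') / τ = m * (l / τ) + (2 * l + l') / τ := by ring
    rw [e]; nlinarith
  · have h6 : min (tent τ (a - w)) (tent τ (b - w)) * cs m w (x - y) ≤
        (ind w (2 * τ) x + ind w (2 * τ) y) * m := by
      gcongr; linarith
    have : 0 ≤ ((m + 2) * l + l') / τ * (ind w (2 * τ) x + ind w (2 * τ) y) := by positivity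
    nlinarith

/-- The majorant in the local stress inequality. -/
noncomputable def hW (m : ℕ) (w : E) (τ l' e1 : ℝ) (z : E × E) : ℝ :=
  (1 - far l' z) * tent τ (z.1 - w) * cs m w (z.1 - z.2) +
    (e1 + (m + 2) * far l' z) * (ind w (2 * τ) z.1 + ind w (2 * τ) z.2)

lemma far_le_one (l' : ℝ) (z : E × E) : far l' z ≤ 1 := by unfold far; split_ifs <;> norm_num

lemma far_swap (l' : ℝ) (z : E × E) : far l' z.swap = far l' z := by
  unfold far; simp only [Prod.fst_swap, Prod.snd_swap, norm_sub_rev z.2]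

lemma KK_bound (h : Pot m c p q u v ρ1 ρ2) (g : Loc p q u v ρ1 ρ2 w η τ l l' T κ e0) :
    2 * (KK m (fun x => v x ^ p) (fun x => u x ^ q) w η τ T +
      KK m (fun x => u x ^ q) (fun x => v x ^ p) w η τ T) ≤
      En m (fun x => v x ^ p) (fun x => u x ^ q) w η τ T +
      En m (fun x => u x ^ q) (fun x => v x ^ p) w η τ T +
      2 * ∫⁻ o in SS (fun x => v x ^ p) w T (closedBall w (2 * η)),
        ∫⁻ o' in SS (fun x => u x ^ q) w T (closedBall w (2 * η)),
          ENNReal.ofReal ((1 - far l' (o.1, o'.1)) * tent τ (o.1 - w) * cs m w (o.1 - o'.1) +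
            (((m + 2) * l + l') / τ + (m + 1) * far l' (o.1, o'.1)) *
              (ind w (2 * τ) o.1 + ind w (2 * τ) o'.1)) * Ke m (o.1 - o'.1) := by
  set f : E → ℝ := fun x => v x ^ p with hf
  set f' : E → ℝ := fun x => u x ^ q with hf'
  have cf : Continuous f := h.cf
  have cf' : Continuous f' := h.swap.cf
  have l1 := measurable_lo (w := w) cf g.hT.le
  have l2 := measurable_lo (w := w) cf' g.hT.le
  have h1 := measurable_hi (w := w) cf g.hT.le
  have h2 := measurable_hi (w := w) cf' g.hT.le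
  have mt := (continuous_tent (E := E) τ).measurable
  have mK := measurable_Ke (E := E) m
  have mc := measurable_cs m w
  have mi := measurable_ind w (2 * τ)
  have mf := measurable_far (E := E) l'
  have pg := pair_global m g.hw cf cf' g.hT (measurableSet_closedBall (x := w) (ε := 2 * η))
    (Θ := fun z => ENNReal.ofReal (min (tent τ (z.1 - w)) (tent τ (z.2 - w)))) (by fun_prop)
    fun _ => ENNReal.ofReal_ne_top
  have prod : ∀ H : (E × ℝ) × (E × ℝ) → ℝ≥0∞, Measurable H →
      ∫⁻ o in SS f w T (closedBall w (2 * η)), ∫⁻ o' in SS f' w T (closedBall w (2 * η)),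
        H (o, o') = ∫⁻ z, H z ∂((volume.restrict (SS f w T (closedBall w (2 * η)))).prod
          (volume.restrict (SS f' w T (closedBall w (2 * η))))) := fun H hH =>
    (lintegral_prod _ hH.aemeasurable).symm
  have prod' : ∀ H : (E × ℝ) × (E × ℝ) → ℝ≥0∞, Measurable H →
      ∫⁻ o' in SS f' w T (closedBall w (2 * η)), ∫⁻ o in SS f w T (closedBall w (2 * η)),
        H (o, o') = ∫⁻ z, H z ∂((volume.restrict (SS f w T (closedBall w (2 * η)))).prod
          (volume.restrict (SS f' w T (closedBall w (2 * η))))) := fun H hH =>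
    (lintegral_prod_symm _ hH.aemeasurable).symm
  rw [prod (fun z => ENNReal.ofReal (min (tent τ (lo f w T z.1 - w)) (tent τ (lo f' w T z.2 - w))) *
      (4 * Ke m (z.1.1 - z.2.1))) (by fun_prop),
    prod (fun z => ENNReal.ofReal (min (tent τ (lo f w T z.1 - w)) (tent τ (lo f' w T z.2 - w))) *
      (Ke m (lo f w T z.1 - z.2.1) + Ke m (hi f w T z.1 - z.2.1) + Ke m (z.1.1 - lo f' w T z.2) +
          Ke m (z.1.1 - hi f' w T z.2) +
          2 * (Ke m (z.1.1 - z.2.1) * ENNReal.ofReal (cs m w (z.1.1 - z.2.1))))) (by fun_prop)] at pg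
  unfold KK En
  rw [prod (fun z => ENNReal.ofReal (tent τ (lo f w T z.1 - w)) * Ke m (z.1.1 - z.2.1))
      (by fun_prop),
    prod' (fun z => ENNReal.ofReal (tent τ (lo f' w T z.2 - w)) * Ke m (z.2.1 - z.1.1))
      (by fun_prop),
    prod (fun z => ENNReal.ofReal (tent τ (lo f w T z.1 - w)) *
      (Ke m (lo f w T z.1 - z.2.1) + Ke m (hi f w T z.1 - z.2.1))) (by fun_prop),
    prod' (fun z => ENNReal.ofReal (tent τ (lo f' w T z.2 - w)) *
      (Ke m (lo f' w T z.2 - z.1.1) + Ke m (hi f' w T z.2 - z.1.1))) (by fun_prop),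
    prod (fun z => ENNReal.ofReal ((1 - far l' (z.1.1, z.2.1)) * tent τ (z.1.1 - w) *
      cs m w (z.1.1 - z.2.1) + (((m + 2) * l + l') / τ + (m + 1) * far l' (z.1.1, z.2.1)) *
              (ind w (2 * τ) z.1.1 + ind w (2 * τ) z.2.1)) * Ke m (z.1.1 - z.2.1)) (by fun_prop)]
  set μ := (volume.restrict (SS f w T (closedBall w (2 * η)))).prod
          (volume.restrict (SS f' w T (closedBall w (2 * η)))) with hμ
  calc _ ≤ ∫⁻ z, (ENNReal.ofReal (min (tent τ (lo f w T z.1 - w)) (tent τ (lo f' w T z.2 - w))) *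
      (4 * Ke m (z.1.1 - z.2.1)) + 2 * (ENNReal.ofReal
        |tent τ (lo f w T z.1 - w) - tent τ (lo f' w T z.2 - w)| * Ke m (z.1.1 - z.2.1))) ∂μ := by
        rw [← lintegral_add_left (by fun_prop), ← lintegral_const_mul' _ _ (by simp)]
        refine lintegral_mono fun z => ?_
        rw [Ke_sub_comm m z.2.1, ← add_mul,
          ← ENNReal.ofReal_add (tent_nonneg _ _) (tent_nonneg _ _)]
        have e : tent τ (lo f w T z.1 - w) + tent τ (lo f' w T z.2 - w) =
            2 * min (tent τ (lo f w T z.1 - w)) (tent τ (lo f' w T z.2 - w)) +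
            |tent τ (lo f w T z.1 - w) - tent τ (lo f' w T z.2 - w)| := by
          rcases le_total (tent τ (lo f w T z.1 - w)) (tent τ (lo f' w T z.2 - w)) with h | h
          · rw [min_eq_left h, abs_of_nonpos (by linarith)]; ring
          · rw [min_eq_right h, abs_of_nonneg (by linarith)]; ring
        rw [e, ENNReal.ofReal_add (mul_nonneg (by norm_num) (le_min (tent_nonneg _ _)
          (tent_nonneg _ _))) (abs_nonneg _), ENNReal.ofReal_mul (by norm_num),
          ENNReal.ofReal_ofNat]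
        exact le_of_eq (by ring)
    _ ≤ _ := by
        rw [lintegral_add_left (by fun_prop)]
        refine (add_le_add pg le_rfl).trans ?_
        rw [← lintegral_add_left (by fun_prop), ← lintegral_add_left (by fun_prop),
          ← lintegral_const_mul' _ _ (by simp), ← lintegral_add_left (by fun_prop)]
        refine lintegral_mono fun z => ?_
        have hb := h0_bound (m := m) (w := w) g.hτ g.hlτ g.hl'
          ((norm_sub_lo_le (w := w) cf g.hT z.1).trans g.hl)
          ((norm_sub_lo_le (w := w) cf' g.hT z.2).trans g.hl)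
        have hb' := ENNReal.ofReal_le_ofReal hb
        have hmin : 0 ≤ min (tent τ (lo f w T z.1 - w)) (tent τ (lo f' w T z.2 - w)) :=
          le_min (tent_nonneg _ _) (tent_nonneg _ _)
        rw [ENNReal.ofReal_add (mul_nonneg hmin (cs_nonneg _ _ _)) (abs_nonneg _),
          ENNReal.ofReal_mul hmin] at hb'
        rw [Ke_sub_comm m (lo f' w T z.2), Ke_sub_comm m (hi f' w T z.2)]
        have t1 : ENNReal.ofReal (min (tent τ (lo f w T z.1 - w)) (tent τ (lo f' w T z.2 - w))) ≤
          ENNReal.ofReal (tent τ (lo f w T z.1 - w)) := ENNReal.ofReal_le_ofReal (min_le_left _ _)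
        have t2 : ENNReal.ofReal (min (tent τ (lo f w T z.1 - w)) (tent τ (lo f' w T z.2 - w))) ≤
          ENNReal.ofReal (tent τ (lo f' w T z.2 - w)) := ENNReal.ofReal_le_ofReal (min_le_right _ _)
        calc _ = ENNReal.ofReal (min (tent τ (lo f w T z.1 - w)) (tent τ (lo f' w T z.2 - w))) *
            (Ke m (lo f w T z.1 - z.2.1) + Ke m (hi f w T z.1 - z.2.1)) +
            ENNReal.ofReal (min (tent τ (lo f w T z.1 - w)) (tent τ (lo f' w T z.2 - w))) *
            (Ke m (z.1.1 - lo f' w T z.2) + Ke m (z.1.1 - hi f' w T z.2)) +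
            2 * ((ENNReal.ofReal (min (tent τ (lo f w T z.1 - w)) (tent τ (lo f' w T z.2 - w))) *
              ENNReal.ofReal (cs m w (z.1.1 - z.2.1)) + ENNReal.ofReal
              |tent τ (lo f w T z.1 - w) - tent τ (lo f' w T z.2 - w)|) * Ke m (z.1.1 - z.2.1)) := by
              ring
          _ ≤ _ := by gcongr

theorem key_w (h : Pot m c p q u v ρ1 ρ2) (g : Loc p q u v ρ1 ρ2 w η τ l l' T κ e0) :
    ∫⁻ z, ENNReal.ofReal (tent τ (z.1 - w) / (p + 1) + tent τ (z.2 - w) / (q + 1))
        ∂(piM m ρ1 ρ2) ≤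
      (∫⁻ z, ENNReal.ofReal (hW m w τ l' (((m + 3) * l + l') / τ + 4 * e0) z) ∂(piM m ρ1 ρ2)) +
      2 * (Er c v (fun x => v x ^ p) w η T + Er c u (fun x => u x ^ q) w η T) := by
  have mt := (continuous_tent (E := E) τ).measurable
  have mc := measurable_cs m w
  have mi := measurable_ind w (2 * τ)
  have mf := measurable_far (E := E) l'
  have s1 := side h g
  have s2 := side h.swap g.swap
  have e1 := h.lint_swap (H := fun z => ENNReal.ofReal (tent τ (z.2 - w) / (q + 1))) (by fun_prop)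
  have e2 := h.lint_swap (H := fun z =>
    ENNReal.ofReal ((l / τ + 4 * e0 + far l' z) * ind w (2 * τ) z.2)) (by fun_prop)
  simp only [Prod.snd_swap, far_swap] at e1 e2
  rw [e1, e2] at s2
  have s3 := mul_le_mul_right (mul_le_mul_right (KK_bound h g) (ENNReal.ofReal κ))
    (ENNReal.ofReal κ)
  have s4 := pair_to_pi h g (H := fun z => ENNReal.ofReal ((1 - far l' z) * tent τ (z.1 - w) *
      cs m w (z.1 - z.2) + (((m + 2) * l + l') / τ + (m + 1) * far l' z) *
              (ind w (2 * τ) z.1 + ind w (2 * τ) z.2))) (by fun_prop)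
  have hfin : ENNReal.ofReal κ * (ENNReal.ofReal κ *
      En m (fun x => v x ^ p) (fun x => u x ^ q) w η τ T) + ENNReal.ofReal κ * (ENNReal.ofReal κ *
      En m (fun x => u x ^ q) (fun x => v x ^ p) w η τ T) ≠ ⊤ :=
    ENNReal.add_ne_top.mpr ⟨ENNReal.mul_ne_top (by simp) (En_fin h g),
      ENNReal.mul_ne_top (by simp) (En_fin h.swap g.swap)⟩
  have hl0 : 0 ≤ l := le_trans (mul_nonneg g.hT.le (norm_nonneg _)) g.hl
  have e3 : ∫⁻ z, ENNReal.ofReal (tent τ (z.1 - w) / (p + 1) + tent τ (z.2 - w) / (q + 1))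
        ∂(piM m ρ1 ρ2) = (∫⁻ z, ENNReal.ofReal (tent τ (z.1 - w) / (p + 1)) ∂(piM m ρ1 ρ2)) +
        ∫⁻ z, ENNReal.ofReal (tent τ (z.2 - w) / (q + 1)) ∂(piM m ρ1 ρ2) := by
    rw [← lintegral_add_left (by fun_prop)]
    refine lintegral_congr fun z => ?_
    have := h.hp; have := h.hq
    have := tent_nonneg τ (z.1 - w); have := tent_nonneg τ (z.2 - w)
    rw [ENNReal.ofReal_add (by positivity) (by positivity)]
  have e4 : (∫⁻ z, ENNReal.ofReal (hW m w τ l' (((m + 3) * l + l') / τ + 4 * e0) z)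
      ∂(piM m ρ1 ρ2)) = (∫⁻ z, ENNReal.ofReal ((1 - far l' z) * tent τ (z.1 - w) *
      cs m w (z.1 - z.2) + (((m + 2) * l + l') / τ + (m + 1) * far l' z) *
              (ind w (2 * τ) z.1 + ind w (2 * τ) z.2)) ∂(piM m ρ1 ρ2)) +
      ((∫⁻ z, ENNReal.ofReal ((l / τ + 4 * e0 + far l' z) * ind w (2 * τ) z.1) ∂(piM m ρ1 ρ2)) +
      ∫⁻ z, ENNReal.ofReal ((l / τ + 4 * e0 + far l' z) * ind w (2 * τ) z.2) ∂(piM m ρ1 ρ2)) := by
    rw [← lintegral_add_left (by fun_prop), ← lintegral_add_left (by fun_prop)]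
    refine lintegral_congr fun z => ?_
    have := g.he; have := g.hτ; have := g.hl'
    have := tent_nonneg τ (z.1 - w); have := cs_nonneg m w (z.1 - z.2)
    have := far_nonneg l' z; have := sub_nonneg.mpr (far_le_one l' z)
    have := ind_nonneg w (2 * τ) z.1; have := ind_nonneg w (2 * τ) z.2
    rw [← ENNReal.ofReal_add (by positivity) (by positivity),
      ← ENNReal.ofReal_add (by positivity) (by positivity)]
    congr 1; unfold hW; ring
  rw [e3, e4, ← ENNReal.mul_le_mul_iff_right (a := 2) (by simp) (by simp),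
    ← ENNReal.add_le_add_iff_right hfin]
  have s5 := add_le_add s1 s2
  refine le_trans (le_of_eq (by ring)) (s5.trans ?_)
  calc _ = ENNReal.ofReal κ * (ENNReal.ofReal κ * (2 *
        (KK m (fun x => v x ^ p) (fun x => u x ^ q) w η τ T +
        KK m (fun x => u x ^ q) (fun x => v x ^ p) w η τ T))) + 2 *
      (((∫⁻ z, ENNReal.ofReal ((l / τ + 4 * e0 + far l' z) * ind w (2 * τ) z.1) ∂(piM m ρ1 ρ2)) +
      ∫⁻ z, ENNReal.ofReal ((l / τ + 4 * e0 + far l' z) * ind w (2 * τ) z.2) ∂(piM m ρ1 ρ2)) +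
      2 * (Er c v (fun x => v x ^ p) w η T + Er c u (fun x => u x ^ q) w η T)) := by ring
    _ ≤ _ := add_le_add s3 le_rfl
    _ = ENNReal.ofReal κ * (ENNReal.ofReal κ *
      En m (fun x => v x ^ p) (fun x => u x ^ q) w η τ T) + ENNReal.ofReal κ * (ENNReal.ofReal κ *
      En m (fun x => u x ^ q) (fun x => v x ^ p) w η τ T) + 2 * (ENNReal.ofReal κ *
        (ENNReal.ofReal κ * ∫⁻ o in SS (fun x => v x ^ p) w T (closedBall w (2 * η)),
        ∫⁻ o' in SS (fun x => u x ^ q) w T (closedBall w (2 * η)),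
          ENNReal.ofReal ((1 - far l' (o.1, o'.1)) * tent τ (o.1 - w) * cs m w (o.1 - o'.1) +
            (((m + 2) * l + l') / τ + (m + 1) * far l' (o.1, o'.1)) *
              (ind w (2 * τ) o.1 + ind w (2 * τ) o'.1)) * Ke m (o.1 - o'.1))) + 2 *
      (((∫⁻ z, ENNReal.ofReal ((l / τ + 4 * e0 + far l' z) * ind w (2 * τ) z.1) ∂(piM m ρ1 ρ2)) +
      ∫⁻ z, ENNReal.ofReal ((l / τ + 4 * e0 + far l' z) * ind w (2 * τ) z.2) ∂(piM m ρ1 ρ2)) +
      2 * (Er c v (fun x => v x ^ p) w η T + Er c u (fun x => u x ^ q) w η T)) := by ring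
    _ ≤ _ := add_le_add (add_le_add le_rfl (mul_le_mul_right s4 _)) le_rfl
    _ = _ := by ring

end Vale.Agent.P100
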