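import Vale.Agent.P100.PohoC
import Vale.Agent.P100.KeyC

/-! Pointwise inequalities in the boundary layer. -/

set_option linter.unusedSectionVars false

namespace Vale.Agent.P100

open MeasureTheory Set Filter Topology Metric Module
open scoped ENNReal RealInnerProductSpace

variable {E : Type*} [NormedAddCommGroup E] [InnerProductSpace ℝ E]
  [MeasurableSpace E] [BorelSpace E] [FiniteDimensional ℝ E]

/-- Derivative profile for layer width `η`. -/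
noncomputable def bt (η s : ℝ) : ℝ := be ((1 + 4 * η) ^ 2) (2 * η) s

/-- Cut-off profile for layer width `η`. -/
noncomputable def Pt (η : ℝ) : ℝ → ℝ := Ps ((1 + 4 * η) ^ 2) (2 * η)

/-- Radial weight of the boundary term. -/
noncomputable def chi (η : ℝ) (x : E) : ℝ := 2 * ‖x‖ ^ 2 * bt η (‖x‖ ^ 2)

/-- Indicator of the layer. -/
noncomputable def lay (η : ℝ) (x : E) : ℝ := if 1 + 3 * η ≤ ‖x‖ ∧ ‖x‖ ≤ 1 + 6 * η then 1 else 0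

/-- Main part of the radial interaction stress. -/
noncomputable def QQ (η : ℝ) (z : E × E) : ℝ :=
  bt η (‖z.1‖ ^ 2) * (‖z.1‖ ^ 2 - ‖z.2‖ ^ 2) ^ 2 / (2 * ‖z.1 - z.2‖ ^ 2)

variable {η : ℝ}

lemma bt_nonneg (h0 : 0 < η) (s : ℝ) : 0 ≤ bt η s := be_nonneg (by positivity) s

lemma bt_le (h0 : 0 < η) (s : ℝ) : bt η s ≤ 1 / η :=
  (be_le (by positivity) s).trans (le_of_eq (by field_simp))

lemma bt_lip (h0 : 0 < η) (s t : ℝ) : |bt η s - bt η t| ≤ 3 / (2 * η ^ 2) * |s - t| :=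
  (be_lip (by positivity) s t).trans (le_of_eq (by field_simp; ring))

lemma bt_supp (h0 : 0 < η) {r : ℝ} (hr : 0 ≤ r) (h : bt η (r ^ 2) ≠ 0) :
    1 + 4 * η ≤ r ∧ r ≤ 1 + 5 * η := by
  constructor
  · by_contra hc
    exact h (be_left (by positivity) (by nlinarith [not_le.mp hc]))
  · by_contra hc
    exact h (be_right (by positivity) (by nlinarith [not_le.mp hc]))

lemma Pt_left (h0 : 0 < η) {r : ℝ} (hr : 0 ≤ r) (h : r ≤ 1 + 4 * η) : Pt η (r ^ 2) = 1 :=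
  Ps_left (by positivity) (by nlinarith)

lemma Pt_right (h0 : 0 < η) {r : ℝ} (h : 1 + 5 * η ≤ r) : Pt η (r ^ 2) = 0 :=
  Ps_right (by positivity) (by nlinarith)

lemma chi_nonneg (h0 : 0 < η) (x : E) : 0 ≤ chi η x :=
  mul_nonneg (by positivity) (bt_nonneg h0 _)

lemma chi_supp (h0 : 0 < η) {x : E} (h : chi η x ≠ 0) : 1 + 4 * η ≤ ‖x‖ ∧ ‖x‖ ≤ 1 + 5 * η :=
  bt_supp h0 (norm_nonneg _) (right_ne_zero_of_mul h)

lemma chi_le (h0 : 0 < η) (h1 : η ≤ 1 / 10) (x : E) : chi η x ≤ 5 / η := by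
  by_cases h : chi η x = 0
  · rw [h]; positivity
  · have h2 := (chi_supp h0 h).2
    have h3 : 2 * ‖x‖ ^ 2 ≤ 5 := by nlinarith [norm_nonneg x]
    calc _ ≤ 5 * (1 / η) := mul_le_mul h3 (bt_le h0 _) (bt_nonneg h0 _) (by norm_num)
      _ = _ := by ring

lemma continuous_chi : Continuous (chi η : E → ℝ) := by
  have : Continuous (bt η) := continuous_be
  unfold chi; fun_prop

lemma lay_nonneg (x : E) : 0 ≤ lay η x := by unfold lay; split_ifs <;> norm_num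

lemma lay_le_one (x : E) : lay η x ≤ 1 := by unfold lay; split_ifs <;> norm_num

lemma measurable_lay : Measurable (lay η : E → ℝ) := by
  unfold lay
  exact Measurable.ite ((measurableSet_le measurable_const measurable_norm).inter
    (measurableSet_le measurable_norm measurable_const)) measurable_const measurable_const

lemma lay_eq_one (h0 : 0 < η) {w x : E} (hw : chi η w ≠ 0) (hx : ‖x - w‖ ≤ η) : lay η x = 1 := by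
  obtain ⟨a1, a2⟩ := chi_supp h0 hw
  have := abs_le.mp ((abs_norm_sub_norm_le x w).trans hx)
  exact if_pos ⟨by linarith [this.1], by linarith [this.2]⟩

lemma bt_near (h0 : 0 < η) (h1 : η ≤ 1 / 10) {x w : E} (hx : ‖x‖ ≤ 2) (h : ‖x - w‖ ≤ η ^ 2) :
    |‖x‖ ^ 2 - ‖w‖ ^ 2| ≤ 5 * η ^ 2 ∧ |bt η (‖x‖ ^ 2) - bt η (‖w‖ ^ 2)| ≤ 8 := by
  have a1 := abs_le.mp ((abs_norm_sub_norm_le x w).trans h)
  have a2 : ‖x‖ + ‖w‖ ≤ 5 := by nlinarith [a1.1]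
  have a3 : |‖x‖ ^ 2 - ‖w‖ ^ 2| ≤ 5 * η ^ 2 :=
    (abs_sq_sub_le x w).trans (mul_le_mul a2 h (norm_nonneg _) (by norm_num))
  refine ⟨a3, (bt_lip h0 _ _).trans ?_⟩
  calc _ ≤ 3 / (2 * η ^ 2) * (5 * η ^ 2) := by gcongr
    _ = 15 / 2 := by field_simp; ring
    _ ≤ 8 := by norm_num

lemma chi_near (h0 : 0 < η) (h1 : η ≤ 1 / 10) {x w : E} (hx : ‖x‖ ≤ 2) (h : ‖x - w‖ ≤ η ^ 2) :
    chi η x ≤ chi η w + 65 := by
  obtain ⟨a1, a2⟩ := bt_near h0 h1 hx h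
  have a3 := bt_le h0 (‖w‖ ^ 2)
  have a4 := bt_nonneg h0 (‖w‖ ^ 2)
  have a5 : ‖x‖ ^ 2 ≤ 4 := by nlinarith [norm_nonneg x]
  have a6 : (‖x‖ ^ 2 - ‖w‖ ^ 2) * bt η (‖w‖ ^ 2) ≤ 5 * η ^ 2 * (1 / η) :=
    mul_le_mul (le_of_abs_le a1) a3 a4 (by positivity)
  have a7 : 5 * η ^ 2 * (1 / η) = 5 * η := by field_simp
  have a8 : ‖x‖ ^ 2 * (bt η (‖x‖ ^ 2) - bt η (‖w‖ ^ 2)) ≤ 4 * 8 :=
    (mul_le_mul_of_nonneg_left (le_of_abs_le a2) (sq_nonneg _)).trans (by linarith)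
  unfold chi; nlinarith

lemma QQ_nonneg (h0 : 0 < η) (z : E × E) : 0 ≤ QQ η z := by
  have := bt_nonneg h0 (‖z.1‖ ^ 2); unfold QQ; positivity

lemma inner_near {x y w : E} {e : ℝ} (h : ‖x - w‖ ≤ e) (hz : ‖x - y‖ ≤ e) :
    |⟪w, x - y⟫| ≤ |‖x‖ ^ 2 - ‖y‖ ^ 2| / 2 + 2 * e * ‖x - y‖ := by
  have hn := norm_nonneg (x - y)
  have c1 : ⟪w, x - y⟫ = (‖x‖ ^ 2 - ‖y‖ ^ 2) / 2 + ‖x - y‖ ^ 2 / 2 - ⟪x - w, x - y⟫ := by
    rw [sq_sub_eq x y, inner_sub_left x w, real_inner_comm (x - y) x]; ring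
  have c2 : |⟪x - w, x - y⟫| ≤ e * ‖x - y‖ :=
    (abs_real_inner_le_norm _ _).trans (mul_le_mul_of_nonneg_right h hn)
  rw [c1]
  have c4 := abs_le.mp c2
  have c5 : ‖x - y‖ ^ 2 ≤ e * ‖x - y‖ := by rw [sq]; exact mul_le_mul_of_nonneg_right hz hn
  have c6 := le_abs_self (‖x‖ ^ 2 - ‖y‖ ^ 2)
  have c7 := neg_abs_le (‖x‖ ^ 2 - ‖y‖ ^ 2)
  have c8 := sq_nonneg ‖x - y‖
  rw [abs_le]; constructor <;> linarith [c4.1, c4.2]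

lemma first_arith (h0 : 0 < η) (h1 : η ≤ 1 / 10) {bw bx Ω Dq : ℝ} (Ω0 : 0 ≤ Ω) (_D0 : 0 ≤ Dq)
    (Ω2 : Ω ≤ 2) (D1 : Dq ≤ 5 / 2) (Ω1 : Ω ≤ Dq + 2 * η ^ 2) (b3 : 0 ≤ bx) (b4 : bx ≤ 1 / η)
    (a2 : bw - bx ≤ 8) : 2 * bw * Ω ^ 2 ≤ 2 * bx * Dq ^ 2 + 67 := by
  have e2 : η ^ 2 ≤ 1 / 100 := by nlinarith
  have e0 : 0 ≤ η ^ 2 := sq_nonneg _
  have c0 : Ω ^ 2 ≤ (Dq + 2 * η ^ 2) ^ 2 := pow_le_pow_left₀ Ω0 Ω1 2
  have c1 : Ω ^ 2 ≤ Dq ^ 2 + 11 * η ^ 2 := by nlinarith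
  have c2 : bx * (11 * η ^ 2) ≤ 1 / η * (11 * η ^ 2) := by gcongr
  have c3 : 1 / η * (11 * η ^ 2) = 11 * η := by field_simp
  have c4 : (bw - bx) * Ω ^ 2 ≤ 8 * 4 := mul_le_mul a2 (by nlinarith) (sq_nonneg _) (by norm_num)
  have c5 := mul_le_mul_of_nonneg_left c1 b3
  nlinarith

lemma first_term (m : ℕ) (h0 : 0 < η) (h1 : η ≤ 1 / 10) {x y w : E} (hw : chi η w ≠ 0)
    (h : ‖x - w‖ ≤ η ^ 2) (hz : ‖x - y‖ ≤ η ^ 3) :
    chi η w * cs m w (x - y) ≤ m * (QQ η (x, y) + 67) := by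
  have hQ := QQ_nonneg h0 (x, y)
  by_cases hxy : x - y = 0
  · have : cs m w (x - y) = 0 := by simp [cs, hxy]
    rw [this, mul_zero]; positivity
  have hn : 0 < ‖x - y‖ := norm_pos_iff.mpr hxy
  obtain ⟨b1, b2⟩ := chi_supp h0 hw
  have hw0 : 0 < ‖w‖ := by linarith
  have a1 := abs_le.mp ((abs_norm_sub_norm_le x w).trans h)
  have e2 : η ^ 2 ≤ 1 / 100 := by nlinarith
  have e3 : η ^ 3 ≤ η ^ 2 := by nlinarith
  have hx : ‖x‖ ≤ 2 := by linarith [a1.2]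
  have a1' := abs_le.mp ((abs_norm_sub_norm_le x y).trans hz)
  have hy : ‖y‖ ≤ 3 := by linarith [a1'.1]
  obtain ⟨-, a2⟩ := bt_near h0 h1 hx h
  have Ω2 : |⟪w, x - y⟫| / ‖x - y‖ ≤ 2 := by
    rw [div_le_iff₀ hn]
    exact (abs_real_inner_le_norm _ _).trans (mul_le_mul_of_nonneg_right (by linarith) hn.le)
  have D1 : |‖x‖ ^ 2 - ‖y‖ ^ 2| / (2 * ‖x - y‖) ≤ 5 / 2 := by
    rw [div_le_iff₀ (by positivity)]
    refine (abs_sq_sub_le x y).trans ?_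
    have : (‖x‖ + ‖y‖) * ‖x - y‖ ≤ 5 * ‖x - y‖ := mul_le_mul_of_nonneg_right (by linarith) hn.le
    linarith
  have Ω1 : |⟪w, x - y⟫| / ‖x - y‖ ≤ |‖x‖ ^ 2 - ‖y‖ ^ 2| / (2 * ‖x - y‖) + 2 * η ^ 2 := by
    rw [div_le_iff₀ hn, add_mul]
    refine (inner_near h (hz.trans e3)).trans (le_of_eq ?_)
    field_simp
  have e1 : chi η w * cs m w (x - y) =
      m * (2 * bt η (‖w‖ ^ 2) * (|⟪w, x - y⟫| / ‖x - y‖) ^ 2) := by
    rw [div_pow, sq_abs]; unfold chi cs; field_simp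
  have e4 : QQ η (x, y) = 2 * bt η (‖x‖ ^ 2) * (|‖x‖ ^ 2 - ‖y‖ ^ 2| / (2 * ‖x - y‖)) ^ 2 := by
    rw [div_pow, sq_abs]; unfold QQ; field_simp
  rw [e1, e4]
  refine mul_le_mul_of_nonneg_left ?_ (Nat.cast_nonneg m)
  exact first_arith h0 h1 (by positivity) (by positivity) Ω2 D1 Ω1 (bt_nonneg h0 _) (bt_le h0 _)
    (by linarith [(abs_le.mp a2).1])

lemma q_le_one (h0 : 0 < η) (z : E × E) : qn (Pt η) z / ‖z.1 - z.2‖ ^ 2 ≤ 1 := by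
  refine div_le_of_le_mul₀ (sq_nonneg _) zero_le_one ?_
  obtain ⟨ξ, -, h2⟩ := Ps_mvt (a := (1 + 4 * η) ^ 2) (D := 2 * η) (‖z.1‖ ^ 2) (‖z.2‖ ^ 2)
  have a3 : Pt η (‖z.1‖ ^ 2) ≤ 1 := Ps_le_one _
  have a4 : Pt η (‖z.2‖ ^ 2) ≤ 1 := Ps_le_one _
  have a5 : 0 ≤ bt η ξ * (‖z.1‖ ^ 2 - ‖z.2‖ ^ 2) ^ 2 := mul_nonneg (bt_nonneg h0 _) (sq_nonneg _)
  rw [qn_eq]
  unfold Pt bt at *
  rw [h2]
  nlinarith [sq_nonneg ‖z.1 - z.2‖]

lemma q_near (h0 : 0 < η) (h1 : η ≤ 1 / 10) {z : E × E} (hx : ‖z.1‖ ≤ 2)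
    (hz : ‖z.1 - z.2‖ ≤ η ^ 3) (hne : z.1 ≠ z.2) :
    qn (Pt η) z / ‖z.1 - z.2‖ ^ 2 + QQ η z ≤ 11 := by
  have hn : 0 < ‖z.1 - z.2‖ := norm_pos_iff.mpr (sub_ne_zero.mpr hne)
  obtain ⟨ξ, h3, h2⟩ := Ps_mvt (a := (1 + 4 * η) ^ 2) (D := 2 * η) (‖z.1‖ ^ 2) (‖z.2‖ ^ 2)
  have a3 : Pt η (‖z.1‖ ^ 2) ≤ 1 := Ps_le_one _
  have a4 : Pt η (‖z.2‖ ^ 2) ≤ 1 := Ps_le_one _
  have e3 : η ^ 3 ≤ 1 := pow_le_one₀ h0.le (by linarith)
  have a1 := abs_le.mp ((abs_norm_sub_norm_le z.1 z.2).trans hz)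
  have a2 : |‖z.1‖ ^ 2 - ‖z.2‖ ^ 2| ≤ 5 * ‖z.1 - z.2‖ :=
    (abs_sq_sub_le _ _).trans (mul_le_mul_of_nonneg_right (by linarith [a1.1]) hn.le)
  have a5 : bt η (‖z.1‖ ^ 2) - bt η ξ ≤ 3 / 4 := by
    refine (le_abs_self _).trans ((bt_lip h0 _ _).trans ?_)
    rw [abs_sub_comm]
    calc _ ≤ 3 / (2 * η ^ 2) * (5 * η ^ 3) := by
          gcongr; exact h3.trans (a2.trans (by linarith))
      _ = 15 / 2 * η := by field_simp; ring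
      _ ≤ _ := by linarith
  have a6 : (‖z.1‖ ^ 2 - ‖z.2‖ ^ 2) ^ 2 ≤ 25 * ‖z.1 - z.2‖ ^ 2 := by
    rw [← sq_abs]; nlinarith [abs_nonneg (‖z.1‖ ^ 2 - ‖z.2‖ ^ 2)]
  have e : qn (Pt η) z / ‖z.1 - z.2‖ ^ 2 + QQ η z = (Pt η (‖z.1‖ ^ 2) + Pt η (‖z.2‖ ^ 2)) / 2 +
      (bt η (‖z.1‖ ^ 2) - bt η ξ) * ((‖z.1‖ ^ 2 - ‖z.2‖ ^ 2) ^ 2 / ‖z.1 - z.2‖ ^ 2) / 2 := by
    rw [qn_eq]
    unfold QQ Pt bt
    rw [h2]; field_simp; ring
  have a7 : (‖z.1‖ ^ 2 - ‖z.2‖ ^ 2) ^ 2 / ‖z.1 - z.2‖ ^ 2 ≤ 25 := (div_le_iff₀ (by positivity)).mpr a6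
  have a8 : 0 ≤ (‖z.1‖ ^ 2 - ‖z.2‖ ^ 2) ^ 2 / ‖z.1 - z.2‖ ^ 2 := by positivity
  rw [e]; nlinarith

/-- Majorant after averaging over directions. -/
noncomputable def bnd (m : ℕ) (η K : ℝ) (z : E × E) : ℝ :=
  (1 - far (η ^ 3) z) * (m * (QQ η z + 67)) * lay η z.1 +
    (K + K / η * far (η ^ 3) z) * (lay η z.1 + lay η z.2)

lemma W_bound (m : ℕ) {a b K : ℝ} (ha : 0 ≤ a) (hb : 0 ≤ b) (hK : 0 ≤ K) (h0 : 0 < η)
    (h1 : η ≤ 1 / 10) {z : E × E} (hne : z.1 ≠ z.2) :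
    (a + b - m) * {z : E × E | ‖z.1‖ ≤ 1}.indicator 1 z
      - (78 * m + 2 * K) * {z : E × E | 1 < ‖z.1‖ ∧ ‖z.1‖ ≤ 1 + 9 * η}.indicator 1 z
      - (a + b + m + 4 * K) / η *
        {z : E × E | η ^ 3 < ‖z.1 - z.2‖ ∧ (‖z.1‖ ≤ 2 ∨ ‖z.2‖ ≤ 2)}.indicator 1 z ≤
      a * Pt η (‖z.1‖ ^ 2) + b * Pt η (‖z.2‖ ^ 2) - m * (qn (Pt η) z / ‖z.1 - z.2‖ ^ 2) -
        bnd m η K z := by
  have m0 : (0 : ℝ) ≤ m := Nat.cast_nonneg m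
  have hn : 0 < ‖z.1 - z.2‖ := norm_pos_iff.mpr (sub_ne_zero.mpr hne)
  have p1 : 0 ≤ a * Pt η (‖z.1‖ ^ 2) := mul_nonneg ha (Ps_nonneg _)
  have p2 : 0 ≤ b * Pt η (‖z.2‖ ^ 2) := mul_nonneg hb (Ps_nonneg _)
  have q1 := mul_le_mul_of_nonneg_left (q_le_one h0 z) m0
  have l1 := lay_le_one (η := η) z.1
  have l2 := lay_le_one (η := η) z.2
  have l3 := lay_nonneg (η := η) z.1
  have l4 := lay_nonneg (η := η) z.2
  have e3 : η ^ 3 ≤ η := by nlinarith [sq_nonneg η]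
  have zero : 1 + 6 * η < ‖z.1‖ → 1 + 6 * η < ‖z.2‖ → a * Pt η (‖z.1‖ ^ 2) + b * Pt η (‖z.2‖ ^ 2) -
      m * (qn (Pt η) z / ‖z.1 - z.2‖ ^ 2) - bnd m η K z = 0 := fun c1 c2 => by
    have d1 : lay η z.1 = 0 := if_neg fun h => by linarith [h.2]
    have d2 : lay η z.2 = 0 := if_neg fun h => by linarith [h.2]
    simp [bnd, qn, d1, d2, Pt_right h0 (r := ‖z.1‖) (by linarith),
      Pt_right h0 (r := ‖z.2‖) (by linarith)]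
  by_cases hz : ‖z.1 - z.2‖ ≤ η ^ 3
  · have f0 : far (η ^ 3) z = 0 := if_pos hz
    have a1 := abs_le.mp ((abs_norm_sub_norm_le z.1 z.2).trans hz)
    rw [indicator_of_notMem (s := {z : E × E | η ^ 3 < ‖z.1 - z.2‖ ∧ (‖z.1‖ ≤ 2 ∨ ‖z.2‖ ≤ 2)})
      fun h => absurd h.1 (not_lt.mpr hz), mul_zero, sub_zero]
    by_cases c1 : ‖z.1‖ ≤ 1
    · have d1 : lay η z.1 = 0 := if_neg fun h => by linarith [h.1]
      have d2 : lay η z.2 = 0 := if_neg fun h => by linarith [h.1, a1.1]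
      have d3 := Pt_left h0 (norm_nonneg z.1) (by linarith)
      have d4 := Pt_left h0 (norm_nonneg z.2) (by linarith [a1.1])
      rw [indicator_of_mem (s := {z : E × E | ‖z.1‖ ≤ 1}) c1,
        indicator_of_notMem (s := {z : E × E | 1 < ‖z.1‖ ∧ ‖z.1‖ ≤ 1 + 9 * η})
          fun h => absurd h.1 (not_lt.mpr c1)]
      simp only [bnd, d1, d2, d3, d4, Pi.one_apply]
      linarith
    · rw [indicator_of_notMem (s := {z : E × E | ‖z.1‖ ≤ 1}) c1]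
      by_cases c2 : ‖z.1‖ ≤ 1 + 9 * η
      · rw [indicator_of_mem (s := {z : E × E | 1 < ‖z.1‖ ∧ ‖z.1‖ ≤ 1 + 9 * η})
          ⟨not_le.mp c1, c2⟩]
        have q2 := mul_le_mul_of_nonneg_left (q_near h0 h1 (by linarith) hz hne) m0
        have q3 := mul_nonneg m0 (QQ_nonneg h0 z)
        have q4 : m * (QQ η z + 67) * lay η z.1 ≤ m * (QQ η z + 67) :=
          mul_le_of_le_one_right (by nlinarith) l1
        simp only [bnd, f0, Pi.one_apply]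
        nlinarith
      · rw [indicator_of_notMem (s := {z : E × E | 1 < ‖z.1‖ ∧ ‖z.1‖ ≤ 1 + 9 * η}) fun h => c2 h.2,
          zero (by linarith) (by linarith [a1.2])]
        simp
  · have f0 : far (η ^ 3) z = 1 := if_neg hz
    by_cases c1 : ‖z.1‖ ≤ 2 ∨ ‖z.2‖ ≤ 2
    · rw [indicator_of_mem (s := {z : E × E | η ^ 3 < ‖z.1 - z.2‖ ∧ (‖z.1‖ ≤ 2 ∨ ‖z.2‖ ≤ 2)})
        ⟨not_le.mp hz, c1⟩]
      have i1 : {z : E × E | ‖z.1‖ ≤ 1}.indicator (1 : E × E → ℝ) z ≤ 1 :=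
        indicator_apply_le' (fun _ => le_rfl) fun _ => zero_le_one
      have i2 : 0 ≤ {z : E × E | ‖z.1‖ ≤ 1}.indicator (1 : E × E → ℝ) z :=
        indicator_nonneg (fun _ _ => zero_le_one) _
      have i3 : 0 ≤ {z : E × E | 1 < ‖z.1‖ ∧ ‖z.1‖ ≤ 1 + 9 * η}.indicator (1 : E × E → ℝ) z :=
        indicator_nonneg (fun _ _ => zero_le_one) _
      have k1 : ∀ t : ℝ, 0 ≤ t → t ≤ t / η := fun t ht => le_div_self ht h0 (by linarith)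
      have k2 : (a + b + m + 4 * K) / η = (a + b + m) / η + 2 * (K / η) + 2 * (K / η) := by ring
      have k3 := k1 _ (by positivity : 0 ≤ a + b + m)
      have k4 := k1 _ hK
      have k5 : (K + K / η * 1) * (lay η z.1 + lay η z.2) ≤ (K + K / η * 1) * 2 :=
        mul_le_mul_of_nonneg_left (by linarith) (by positivity)
      have k6 : 0 ≤ (78 * m + 2 * K) *
        {z : E × E | 1 < ‖z.1‖ ∧ ‖z.1‖ ≤ 1 + 9 * η}.indicator (1 : E × E → ℝ) z := by positivity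
      simp only [bnd, f0, Pi.one_apply]
      nlinarith
    · rw [not_or, not_le, not_le] at c1
      rw [zero (by linarith [c1.1]) (by linarith [c1.2]),
        indicator_of_notMem (s := {z : E × E | ‖z.1‖ ≤ 1}) fun h => by
          have : ‖z.1‖ ≤ 1 := h
          linarith [c1.1],
        indicator_of_notMem (s := {z : E × E | 1 < ‖z.1‖ ∧ ‖z.1‖ ≤ 1 + 9 * η}) fun h => by
          linarith [c1.1, h.2],
        indicator_of_notMem (s := {z : E × E | η ^ 3 < ‖z.1 - z.2‖ ∧ (‖z.1‖ ≤ 2 ∨ ‖z.2‖ ≤ 2)})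
          fun h => by rcases h.2 with h | h <;> linarith [c1.1, c1.2]]
      simp

end Vale.Agent.P100
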