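import Vale.Agent.P100.MainA

/-! Averaging the local stress inequality over directions. -/

set_option linter.unusedSectionVars false

namespace Vale.Agent.P100

open MeasureTheory Set Filter Topology Metric Module
open scoped ENNReal RealInnerProductSpace

variable {E : Type*} [NormedAddCommGroup E] [InnerProductSpace ℝ E]
  [MeasurableSpace E] [BorelSpace E] [FiniteDimensional ℝ E]

variable (E) in
/-- Volume of the unit ball. -/
noncomputable def om : ℝ := (volume (ball (0 : E) 1)).toReal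

variable (E) in
/-- Integral of the tent function. -/
noncomputable def ZZ (τ : ℝ) : ℝ := (∫⁻ z : E, ENNReal.ofReal (tent τ z)).toReal

lemma om_pos : 0 < om E :=
  ENNReal.toReal_pos (measure_ball_pos _ _ one_pos).ne' measure_ball_lt_top.ne

lemma vol_cb (x : E) {r : ℝ} (hr : 0 ≤ r) :
    volume (closedBall x r) = ENNReal.ofReal (r ^ finrank ℝ E * om E) := by
  rw [Measure.addHaar_closedBall _ _ hr, ENNReal.ofReal_mul (by positivity), om,
    ENNReal.ofReal_toReal measure_ball_lt_top.ne]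

lemma tent_fin {τ : ℝ} (hτ : 0 < τ) : ∫⁻ z : E, ENNReal.ofReal (tent τ z) ≠ ⊤ := by
  refine ne_top_of_le_ne_top (b := ∫⁻ z : E, (closedBall (0 : E) τ).indicator 1 z) ?_
    (lintegral_mono fun z => ?_)
  · rw [lintegral_indicator_one measurableSet_closedBall]; exact measure_closedBall_lt_top.ne
  · by_cases hz : z ∈ closedBall (0 : E) τ
    · rw [indicator_of_mem hz]; exact ENNReal.ofReal_le_one.mpr (tent_le_one hτ z)
    · rw [tent_eq_zero hτ (by simpa using (not_le.mp (by simpa using hz)).le)]; simp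

lemma ZZ_ge {τ : ℝ} (hτ : 0 < τ) : (τ / 2) ^ finrank ℝ E * om E / 2 ≤ ZZ E τ := by
  have := om_pos (E := E)
  refine (ENNReal.ofReal_le_iff_le_toReal (tent_fin hτ)).mp ?_
  calc _ = ∫⁻ z : E, (closedBall (0 : E) (τ / 2)).indicator (fun _ => ENNReal.ofReal (1 / 2)) z := by
        rw [lintegral_indicator_const measurableSet_closedBall, vol_cb _ (by positivity),
          ← ENNReal.ofReal_mul (by norm_num)]
        congr 1; ring
    _ ≤ _ := lintegral_mono fun z => indicator_apply_le' (fun hz => ENNReal.ofReal_le_ofReal ?_)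
        fun _ => zero_le
  have : ‖z‖ / τ ≤ 1 / 2 := by
    rw [div_le_iff₀ hτ]; have : ‖z‖ ≤ τ / 2 := by simpa using hz
    linarith
  exact le_max_of_le_right (by linarith)

lemma ZZ_pos {τ : ℝ} (hτ : 0 < τ) : 0 < ZZ E τ := by
  have := om_pos (E := E)
  exact lt_of_lt_of_le (by positivity) (ZZ_ge hτ)

lemma tent_lint {τ k : ℝ} (hτ : 0 < τ) (hk : 0 ≤ k) (x : E) :
    ∫⁻ w, ENNReal.ofReal (k / ZZ E τ * tent τ (x - w)) = ENNReal.ofReal k := by
  have hZ := ZZ_pos (E := E) hτ
  simp only [ENNReal.ofReal_mul (div_nonneg hk hZ.le)]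
  rw [lintegral_const_mul' _ _ ENNReal.ofReal_ne_top,
    lintegral_sub_left_eq_self (fun z => ENNReal.ofReal (tent τ z)) x,
    ← ENNReal.ofReal_toReal (tent_fin hτ), ← ENNReal.ofReal_mul (div_nonneg hk hZ.le)]
  congr 1
  exact div_mul_cancel₀ _ hZ.ne'

lemma ind_lint {τ k : ℝ} (hτ : 0 < τ) (hk : 0 ≤ k) (x : E) :
    ∫⁻ w, ENNReal.ofReal (k / ZZ E τ * ind w (2 * τ) x) ≤
      ENNReal.ofReal (k * (2 * 4 ^ finrank ℝ E)) := by
  have hZ := ZZ_pos (E := E) hτ
  calc _ = ∫⁻ w, (closedBall x (2 * τ)).indicator (fun _ => ENNReal.ofReal (k / ZZ E τ)) w := by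
        refine lintegral_congr fun w => ?_
        unfold ind
        by_cases hw : ‖x - w‖ ≤ 2 * τ
        · rw [if_pos hw, indicator_of_mem (by rwa [mem_closedBall, dist_eq_norm, norm_sub_rev]),
            mul_one]
        · rw [if_neg hw, indicator_of_notMem (by rwa [mem_closedBall, dist_eq_norm, norm_sub_rev])]
          simp
    _ ≤ _ := by
        rw [lintegral_indicator_const measurableSet_closedBall, vol_cb _ (by positivity),
          ← ENNReal.ofReal_mul (div_nonneg hk hZ.le)]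
        refine ENNReal.ofReal_le_ofReal ?_
        rw [div_mul_eq_mul_div, div_le_iff₀ hZ, mul_assoc]
        refine mul_le_mul_of_nonneg_left ?_ hk
        calc _ = 2 * 4 ^ finrank ℝ E * ((τ / 2) ^ finrank ℝ E * om E / 2) := by
              rw [show 2 * τ = 4 * (τ / 2) by ring, mul_pow]; ring
          _ ≤ _ := mul_le_mul_of_nonneg_left (ZZ_ge hτ) (by positivity)

variable {η : ℝ}

lemma lay_self (h0 : 0 < η) {x : E} (hx : chi η x ≠ 0) : lay η x = 1 :=
  lay_eq_one h0 hx (by simpa using h0.le)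

lemma chi_tent (h0 : 0 < η) (h1 : η ≤ 1 / 10) (x w : E) :
    chi η x * tent (η ^ 2) (x - w) ≤ (chi η w + 65 * lay η x) * tent (η ^ 2) (x - w) := by
  by_cases h : η ^ 2 ≤ ‖x - w‖
  · simp [tent_eq_zero (by positivity) h]
  refine mul_le_mul_of_nonneg_right ?_ (tent_nonneg _ _)
  by_cases hx : chi η x = 0
  · have := chi_nonneg h0 w; have := lay_nonneg (η := η) x
    rw [hx]; positivity
  · rw [lay_self h0 hx, mul_one]
    exact chi_near h0 h1 (by linarith [(chi_supp h0 hx).2]) (not_le.mp h).le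

lemma avg_lower {p q : ℝ} (hp : 0 < p) (hq : 0 < q) (h0 : 0 < η) (h1 : η ≤ 1 / 10) (z : E × E) :
    ENNReal.ofReal (chi η z.1 / (p + 1) + chi η z.2 / (q + 1)) ≤
      (∫⁻ w, ENNReal.ofReal (chi η w / ZZ E (η ^ 2)) *
        ENNReal.ofReal (tent (η ^ 2) (z.1 - w) / (p + 1) + tent (η ^ 2) (z.2 - w) / (q + 1))) +
      ENNReal.ofReal (65 * (lay η z.1 + lay η z.2)) := by
  have hτ : 0 < η ^ 2 := by positivity
  have hZ := ZZ_pos (E := E) hτ
  have c1 := chi_nonneg h0 z.1
  have c2 := chi_nonneg h0 z.2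
  have l1 := lay_nonneg (η := η) z.1
  have l2 := lay_nonneg (η := η) z.2
  have mt := (continuous_tent (E := E) (η ^ 2)).measurable
  rw [ENNReal.ofReal_add (by positivity) (by positivity), mul_add,
    ENNReal.ofReal_add (by positivity) (by positivity),
    ← tent_lint hτ (k := chi η z.1 / (p + 1)) (by positivity) z.1,
    ← tent_lint hτ (k := chi η z.2 / (q + 1)) (by positivity) z.2,
    ← tent_lint hτ (k := 65 * lay η z.1) (by positivity) z.1,
    ← tent_lint hτ (k := 65 * lay η z.2) (by positivity) z.2,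
    ← lintegral_add_left (by fun_prop), ← lintegral_add_left (by fun_prop),
    ← lintegral_add_right _ (by fun_prop)]
  refine lintegral_mono fun w => ?_
  have t1 := tent_nonneg (η ^ 2) (z.1 - w)
  have t2 := tent_nonneg (η ^ 2) (z.2 - w)
  have c3 := chi_nonneg h0 w
  rw [← ENNReal.ofReal_mul (by positivity), ← ENNReal.ofReal_add (by positivity) (by positivity),
    ← ENNReal.ofReal_add (by positivity) (by positivity),
    ← ENNReal.ofReal_add (by positivity) (by positivity)]
  refine ENNReal.ofReal_le_ofReal ?_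
  have one : ∀ (x : E) (r : ℝ), 0 < r → chi η x / (r + 1) / ZZ E (η ^ 2) * tent (η ^ 2) (x - w) ≤
      chi η w / ZZ E (η ^ 2) * (tent (η ^ 2) (x - w) / (r + 1)) +
        65 * lay η x / ZZ E (η ^ 2) * tent (η ^ 2) (x - w) := fun x r hr => by
    have a1 := chi_tent h0 h1 x w
    have a2 : 0 ≤ 65 * lay η x * tent (η ^ 2) (x - w) :=
      mul_nonneg (mul_nonneg (by norm_num) (lay_nonneg x)) (tent_nonneg _ _)
    have a3 : 65 * lay η x * tent (η ^ 2) (x - w) / (r + 1) ≤ 65 * lay η x * tent (η ^ 2) (x - w) :=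
      div_le_self a2 (by linarith)
    calc _ = chi η x * tent (η ^ 2) (x - w) / (r + 1) / ZZ E (η ^ 2) := by ring
      _ ≤ (chi η w + 65 * lay η x) * tent (η ^ 2) (x - w) / (r + 1) / ZZ E (η ^ 2) := by gcongr
      _ = (chi η w * tent (η ^ 2) (x - w) / (r + 1) +
          65 * lay η x * tent (η ^ 2) (x - w) / (r + 1)) / ZZ E (η ^ 2) := by ring
      _ ≤ (chi η w * tent (η ^ 2) (x - w) / (r + 1) +
          65 * lay η x * tent (η ^ 2) (x - w)) / ZZ E (η ^ 2) := by gcongr
      _ = _ := by ring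
  linarith [one z.1 p hp, one z.2 q hq]

lemma chi_ind (h0 : 0 < η) (h1 : η ≤ 1 / 10) (x w : E) :
    chi η w * ind w (2 * η ^ 2) x ≤ 5 / η * lay η x * ind w (2 * η ^ 2) x := by
  have := lay_nonneg (η := η) x
  by_cases hw : chi η w = 0
  · have := ind_nonneg w (2 * η ^ 2) x
    rw [hw, zero_mul]; positivity
  unfold ind
  split_ifs with h
  · rw [lay_eq_one h0 hw (h.trans (by nlinarith)), mul_one, mul_one, mul_one]
    exact chi_le h0 h1 w
  · simp

lemma avg_upper (m : ℕ) {K1 : ℝ} (hK : (m : ℝ) + 2 ≤ K1) (h0 : 0 < η) (h1 : η ≤ 1 / 10) (z : E × E) :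
    (∫⁻ w, ENNReal.ofReal (chi η w / ZZ E (η ^ 2)) *
        ENNReal.ofReal (hW m w (η ^ 2) (η ^ 3) (K1 * η) z)) +
      ENNReal.ofReal (65 * (lay η z.1 + lay η z.2)) ≤
      ENNReal.ofReal (bnd m η (10 * 4 ^ finrank ℝ E * K1 + 65) z) := by
  have hτ : 0 < η ^ 2 := by positivity
  have hZ := ZZ_pos (E := E) hτ
  have l1 := lay_nonneg (η := η) z.1
  have l2 := lay_nonneg (η := η) z.2
  have f0 := far_nonneg (η ^ 3) z
  have f1 := sub_nonneg.mpr (far_le_one (η ^ 3) z)
  have hQ := QQ_nonneg h0 z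
  have K0 : 0 ≤ K1 := le_trans (by positivity) hK
  have mt := (continuous_tent (E := E) (η ^ 2)).measurable
  set k1 := (1 - far (η ^ 3) z) * (m * (QQ η z + 67)) * lay η z.1 with hk1
  set k2 := (K1 * η + (m + 2) * far (η ^ 3) z) * (5 / η) with hk2
  have k10 : 0 ≤ k1 := by positivity
  have k20 : 0 ≤ k2 := by positivity
  have mi : ∀ x : E, Measurable fun w => ind w (2 * η ^ 2) x := fun x => by
    unfold ind
    exact Measurable.ite (measurableSet_le (by fun_prop) measurable_const) measurable_const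
      measurable_const
  have mi1 := mi z.1
  calc _ ≤ (∫⁻ w, (ENNReal.ofReal (k1 / ZZ E (η ^ 2) * tent (η ^ 2) (z.1 - w)) +
        (ENNReal.ofReal (k2 * lay η z.1 / ZZ E (η ^ 2) * ind w (2 * η ^ 2) z.1) +
        ENNReal.ofReal (k2 * lay η z.2 / ZZ E (η ^ 2) * ind w (2 * η ^ 2) z.2)))) +
        ENNReal.ofReal (65 * (lay η z.1 + lay η z.2)) := by
        refine add_le_add (lintegral_mono fun w => ?_) le_rfl
        have t1 := tent_nonneg (η ^ 2) (z.1 - w)
        have i1 := ind_nonneg w (2 * η ^ 2) z.1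
        have i2 := ind_nonneg w (2 * η ^ 2) z.2
        have c3 := chi_nonneg h0 w
        rw [← ENNReal.ofReal_mul (by positivity),
          ← ENNReal.ofReal_add (by positivity) (by positivity),
          ← ENNReal.ofReal_add (by positivity) (by positivity)]
        refine ENNReal.ofReal_le_ofReal ?_
        have a1 : chi η w * ((1 - far (η ^ 3) z) * tent (η ^ 2) (z.1 - w) * cs m w (z.1 - z.2)) ≤
            k1 * tent (η ^ 2) (z.1 - w) := by
          by_cases hw : chi η w = 0
          · rw [hw, zero_mul]; positivity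
          by_cases h : η ^ 2 ≤ ‖z.1 - w‖
          · simp [tent_eq_zero hτ h]
          by_cases hz : ‖z.1 - z.2‖ ≤ η ^ 3
          · have := first_term m h0 h1 hw (not_le.mp h).le hz
            rw [hk1, lay_eq_one h0 hw ((not_le.mp h).le.trans (by nlinarith)), mul_one]
            calc _ = (1 - far (η ^ 3) z) * (chi η w * cs m w (z.1 - z.2)) *
                  tent (η ^ 2) (z.1 - w) := by ring
              _ ≤ _ := by gcongr
          · have : far (η ^ 3) z = 1 := if_neg hz
            simp [hk1, this]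
        have a2 := mul_le_mul_of_nonneg_left (chi_ind h0 h1 z.1 w)
          (by positivity : 0 ≤ K1 * η + (m + 2) * far (η ^ 3) z)
        have a3 := mul_le_mul_of_nonneg_left (chi_ind h0 h1 z.2 w)
          (by positivity : 0 ≤ K1 * η + (m + 2) * far (η ^ 3) z)
        calc _ = (chi η w * hW m w (η ^ 2) (η ^ 3) (K1 * η) z) / ZZ E (η ^ 2) := by ring
          _ ≤ (k1 * tent (η ^ 2) (z.1 - w) + (k2 * lay η z.1 * ind w (2 * η ^ 2) z.1 +
              k2 * lay η z.2 * ind w (2 * η ^ 2) z.2)) / ZZ E (η ^ 2) := by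
              refine div_le_div_of_nonneg_right ?_ hZ.le
              unfold hW; rw [hk2]; linarith
          _ = _ := by ring
    _ ≤ ENNReal.ofReal k1 + (ENNReal.ofReal (k2 * lay η z.1 * (2 * 4 ^ finrank ℝ E)) +
        ENNReal.ofReal (k2 * lay η z.2 * (2 * 4 ^ finrank ℝ E))) +
        ENNReal.ofReal (65 * (lay η z.1 + lay η z.2)) := by
        rw [lintegral_add_left (by fun_prop), lintegral_add_left (by fun_prop),
          tent_lint hτ k10]
        exact add_le_add (add_le_add le_rfl (add_le_add (ind_lint hτ (by positivity) _)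
          (ind_lint hτ (by positivity) _))) le_rfl
    _ ≤ _ := by
        rw [← ENNReal.ofReal_add (by positivity) (by positivity),
          ← ENNReal.ofReal_add (by positivity) (by positivity),
          ← ENNReal.ofReal_add (by positivity) (by positivity)]
        refine ENNReal.ofReal_le_ofReal ?_
        have a1 : k2 * (2 * 4 ^ finrank ℝ E) ≤ 10 * 4 ^ finrank ℝ E * K1 +
            (10 * 4 ^ finrank ℝ E * K1 + 65) / η * far (η ^ 3) z := by
          have e : k2 * (2 * 4 ^ finrank ℝ E) = 10 * 4 ^ finrank ℝ E * K1 +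
              10 * 4 ^ finrank ℝ E * (m + 2) / η * far (η ^ 3) z := by
            rw [hk2]; field_simp; ring
          rw [e]
          gcongr
          have : (10 : ℝ) * 4 ^ finrank ℝ E * (m + 2) ≤ 10 * 4 ^ finrank ℝ E * K1 := by gcongr
          linarith
        have a2 := mul_le_mul_of_nonneg_right a1 (add_nonneg l1 l2)
        unfold bnd; linarith

variable {m : ℕ} {c p q A B L : ℝ} {u v : E → ℝ}

lemma loc_of (h : Sol m c p q A B u v) (hL : 0 ≤ L)
    (hA : ∀ r, 1 ≤ r → r ≤ 2 → |r ^ A - 1| ≤ L * (r - 1))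
    (hB : ∀ r, 1 ≤ r → r ≤ 2 → |r ^ B - 1| ≤ L * (r - 1))
    (h0 : 0 < η) (h1 : η ≤ 1 / 10) (h2 : 16 * L * η ≤ 1) {w : E} (hw : chi η w ≠ 0) :
    Loc p q u v (rho A p v) (rho B q u) w η (η ^ 2) (η ^ 3) (η ^ 3) (η ^ 3 / 2) (1 - 8 * L * η)
      (16 * L * η) := by
  obtain ⟨a1, a2⟩ := chi_supp h0 hw
  have one : ∀ (A p : ℝ) (v : E → ℝ), (∀ x, 0 < v x) →
      (∀ r, 1 ≤ r → r ≤ 2 → |r ^ A - 1| ≤ L * (r - 1)) → ∀ x ∈ closedBall w (3 * η),
      (1 - 8 * L * η) * v x ^ p ≤ rho A p v x ∧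
        rho A p v x ≤ (1 - 8 * L * η + 16 * L * η) * v x ^ p := by
    intro A p v hv hA x hx
    rw [mem_closedBall, dist_eq_norm] at hx
    have b1 := abs_le.mp ((abs_norm_sub_norm_le x w).trans hx)
    have b2 := abs_le.mp (hA ‖x‖ (by linarith [b1.1]) (by linarith [b1.2]))
    have b3 : L * (‖x‖ - 1) ≤ L * (8 * η) := mul_le_mul_of_nonneg_left (by linarith [b1.2]) hL
    have b4 := (Real.rpow_pos_of_pos (hv x) p).le
    exact ⟨mul_le_mul_of_nonneg_right (by linarith [b2.1]) b4,
      mul_le_mul_of_nonneg_right (by linarith [b2.2]) b4⟩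
  have e3 : 0 < η ^ 3 := by positivity
  exact ⟨by rintro rfl; simp at a1; linarith, by positivity, by nlinarith, by positivity,
    by nlinarith, e3.le, by nlinarith, by linarith, by nlinarith, by positivity,
    one A p v h.pot.pv hA, one B q u h.pot.pu hB⟩

lemma key_avg (h : Sol m c p q A B u v) (hL : 0 ≤ L)
    (hA : ∀ r, 1 ≤ r → r ≤ 2 → |r ^ A - 1| ≤ L * (r - 1))
    (hB : ∀ r, 1 ≤ r → r ≤ 2 → |r ^ B - 1| ≤ L * (r - 1))
    (h0 : 0 < η) (h1 : η ≤ 1 / 10) (h2 : 16 * L * η ≤ 1) :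
    ∫⁻ z, ENNReal.ofReal (chi η z.1 / (p + 1) + chi η z.2 / (q + 1))
        ∂(piM m (rho A p v) (rho B q u)) ≤
      (∫⁻ z, ENNReal.ofReal (bnd m η (10 * 4 ^ finrank ℝ E * (m + 4 + 64 * L) + 65) z)
        ∂(piM m (rho A p v) (rho B q u))) +
      ∫⁻ w, ENNReal.ofReal (chi η w / ZZ E (η ^ 2)) *
        (2 * (Er c v (fun x => v x ^ p) w η (η ^ 3 / 2) + Er c u (fun x => u x ^ q) w η (η ^ 3 / 2))) := by
  have : SFinite (piM m (rho A p v) (rho B q u)) := by unfold piM; infer_instance
  have mt := (continuous_tent (E := E) (η ^ 2)).measurable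
  have mc := (continuous_chi (E := E) (η := η)).measurable
  have ml := measurable_lay (E := E) (η := η)
  have mf := measurable_far (E := E) (η ^ 3)
  have mi : Measurable fun y : E × E => ind y.1 (2 * η ^ 2) y.2 := by
    unfold ind
    exact Measurable.ite (measurableSet_le (by fun_prop) measurable_const) measurable_const
      measurable_const
  have m1 : Measurable fun y : E × (E × E) => ENNReal.ofReal (chi η y.1 / ZZ E (η ^ 2)) *
      ENNReal.ofReal (tent (η ^ 2) (y.2.1 - y.1) / (p + 1) + tent (η ^ 2) (y.2.2 - y.1) / (q + 1)) := by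
    fun_prop
  have m2 : Measurable fun y : E × (E × E) => ENNReal.ofReal (chi η y.1 / ZZ E (η ^ 2)) *
      ENNReal.ofReal (hW m y.1 (η ^ 2) (η ^ 3) ((m + 4 + 64 * L) * η) y.2) := by
    have a1 : Measurable fun y : E × (E × E) => ind y.1 (2 * η ^ 2) y.2.1 :=
      mi.comp (by fun_prop : Measurable fun y : E × (E × E) => (y.1, y.2.1))
    have a2 : Measurable fun y : E × (E × E) => ind y.1 (2 * η ^ 2) y.2.2 :=
      mi.comp (by fun_prop : Measurable fun y : E × (E × E) => (y.1, y.2.2))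
    unfold hW cs; fun_prop
  have e1 : ((m + 3) * η ^ 3 + η ^ 3) / η ^ 2 + 4 * (16 * L * η) = (m + 4 + 64 * L) * η := by
    field_simp; ring
  have s1 : ∫⁻ w, ∫⁻ z, ENNReal.ofReal (chi η w / ZZ E (η ^ 2)) *
      ENNReal.ofReal (tent (η ^ 2) (z.1 - w) / (p + 1) + tent (η ^ 2) (z.2 - w) / (q + 1))
        ∂(piM m (rho A p v) (rho B q u)) ≤
      (∫⁻ w, ∫⁻ z, ENNReal.ofReal (chi η w / ZZ E (η ^ 2)) *
        ENNReal.ofReal (hW m w (η ^ 2) (η ^ 3) ((m + 4 + 64 * L) * η) z)
        ∂(piM m (rho A p v) (rho B q u))) +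
      ∫⁻ w, ENNReal.ofReal (chi η w / ZZ E (η ^ 2)) *
        (2 * (Er c v (fun x => v x ^ p) w η (η ^ 3 / 2) + Er c u (fun x => u x ^ q) w η (η ^ 3 / 2))) := by
    rw [← lintegral_add_left m2.lintegral_prod_right']
    refine lintegral_mono fun w => ?_
    by_cases hw : chi η w = 0
    · simp [hw]
    have := key_w h.pot (loc_of h hL hA hB h0 h1 h2 hw)
    rw [e1] at this
    dsimp only
    rw [lintegral_const_mul' _ _ ENNReal.ofReal_ne_top,
      lintegral_const_mul' _ _ ENNReal.ofReal_ne_top, ← mul_add]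
    exact mul_le_mul_right this _
  rw [lintegral_lintegral_swap (f := fun (w : E) (z : E × E) =>
      ENNReal.ofReal (chi η w / ZZ E (η ^ 2)) *
      ENNReal.ofReal (tent (η ^ 2) (z.1 - w) / (p + 1) + tent (η ^ 2) (z.2 - w) / (q + 1)))
      m1.aemeasurable, lintegral_lintegral_swap (f := fun (w : E) (z : E × E) =>
      ENNReal.ofReal (chi η w / ZZ E (η ^ 2)) *
        ENNReal.ofReal (hW m w (η ^ 2) (η ^ 3) ((m + 4 + 64 * L) * η) z)) m2.aemeasurable] at s1
  refine (lintegral_mono (avg_lower h.pot.hp h.pot.hq h0 h1)).trans ?_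
  rw [lintegral_add_right _ (by fun_prop)]
  refine (add_le_add s1 le_rfl).trans ?_
  rw [add_right_comm, ← lintegral_add_right _ (by fun_prop)]
  exact add_le_add (lintegral_mono (avg_upper m (by linarith) h0 h1)) le_rfl

end Vale.Agent.P100
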