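import Vale.Agent.P100.MainB

/-! Long range error terms and the main inequality at unit scale. -/

set_option linter.unusedSectionVars false

namespace Vale.Agent.P100

open MeasureTheory Set Filter Topology Metric Module
open scoped ENNReal RealInnerProductSpace

variable {E : Type*} [NormedAddCommGroup E] [InnerProductSpace ℝ E]
  [MeasurableSpace E] [BorelSpace E] [FiniteDimensional ℝ E]

/-- A priori bounds at unit scale. -/
structure Bd (M : ℝ) (u v : E → ℝ) : Prop where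
  hM : 0 < M
  xu : ∃ x : E, ‖x‖ ≤ 2 ∧ u x ≤ M
  xv : ∃ x : E, ‖x‖ ≤ 2 ∧ v x ≤ M
  iu : ∫⁻ x in closedBall (0 : E) 2, ENNReal.ofReal (u x) ≤ ENNReal.ofReal M
  iv : ∫⁻ x in closedBall (0 : E) 2, ENNReal.ofReal (v x) ≤ ENNReal.ofReal M

variable {m : ℕ} {c p q A B L M η : ℝ} {u v ρ1 ρ2 : E → ℝ}

lemma Bd.swap (h : Bd M u v) : Bd M v u := ⟨h.hM, h.xv, h.xu, h.iv, h.iu⟩

lemma lint_smul {g : E → ℝ≥0∞} (hg : Measurable g) {t : ℝ} (ht : t ≠ 0) :
    ∫⁻ w, g (t • w) = ENNReal.ofReal |(t ^ finrank ℝ E)⁻¹| * ∫⁻ w, g w := by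
  have := lintegral_map (μ := (volume : Measure E)) hg (measurable_const_smul t)
  rw [Measure.map_addHaar_smul _ ht, lintegral_smul_measure] at this
  exact this.symm

lemma lint_affine {g : E → ℝ≥0∞} (hg : Measurable g) {t : ℝ} (ht : t ≠ 0) (x : E) :
    ∫⁻ w, g (x + t • w) = ENNReal.ofReal |(t ^ finrank ℝ E)⁻¹| * ∫⁻ w, g w := by
  rw [lint_smul (g := fun y => g (x + y)) (by fun_prop) ht, lintegral_add_left_eq_self g x]

lemma mass2 (h : Pot m c p q u v ρ1 ρ2) (b : Bd M u v) :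
    ∫⁻ y in closedBall (0 : E) 2, ENNReal.ofReal (ρ1 y) ≤ ENNReal.ofReal (4 ^ m * (c * M)) := by
  obtain ⟨x, hx, hu⟩ := b.xu
  calc _ ≤ ∫⁻ y in closedBall x 4, ENNReal.ofReal (ρ1 y) := by
        refine lintegral_mono_set (closedBall_subset_closedBall' ?_)
        rw [dist_comm, dist_zero_right]; linarith
    _ ≤ _ := by
        refine (h.mass x (by norm_num)).trans ?_
        rw [← ENNReal.ofReal_mul (by positivity)]
        exact ENNReal.ofReal_le_ofReal
          (mul_le_mul_of_nonneg_left (mul_le_mul_of_nonneg_left hu h.hc.le) (by positivity))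

lemma err_one (h : Sol m c p q A B u v) (b : Bd M u v) (hL : 0 ≤ L)
    (hA : ∀ r, 1 ≤ r → r ≤ 2 → |r ^ A - 1| ≤ L * (r - 1))
    (h0 : 0 < η) (h1 : η ≤ 1 / 10) (h2 : 16 * L * η ≤ 1) :
    ∫⁻ w, ENNReal.ofReal (chi η w / ZZ E (η ^ 2)) * Er c v (fun x => v x ^ p) w η (η ^ 3 / 2) ≤
      ENNReal.ofReal (5 / η / ZZ E (η ^ 2) * (c * M) *
        (2 * ((8 / η ^ 3) ^ finrank ℝ E * (2 * (4 ^ m * (c * M)))))) := by
  have hZ := ZZ_pos (E := E) (by positivity : 0 < η ^ 2)
  have hc := h.pot.hc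
  have hM := b.hM
  set g : E → ℝ≥0∞ := (closedBall (0 : E) 2).indicator fun y => 2 * ENNReal.ofReal (rho A p v y)
    with hg
  set V : E → ℝ≥0∞ := (closedBall (0 : E) 2).indicator fun y => ENNReal.ofReal (c * v y) with hV
  have m1 := h.pot.m1
  have mv := h.pot.cv.measurable
  have mg : Measurable g := Measurable.indicator (by fun_prop) measurableSet_closedBall
  have mV : Measurable V := Measurable.indicator (by fun_prop) measurableSet_closedBall
  have ig : ∫⁻ y, g y ≤ ENNReal.ofReal (2 * (4 ^ m * (c * M))) := by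
    rw [hg, lintegral_indicator measurableSet_closedBall, lintegral_const_mul' _ _ (by simp),
      ENNReal.ofReal_mul (by norm_num : (0 : ℝ) ≤ 2), ENNReal.ofReal_ofNat]
    exact mul_le_mul_right (mass2 h.pot b) _
  have iV : ∫⁻ y, V y ≤ ENNReal.ofReal (c * M) := by
    rw [hV, lintegral_indicator measurableSet_closedBall]
    simp only [ENNReal.ofReal_mul hc.le]
    rw [lintegral_const_mul' _ _ (by simp)]
    exact mul_le_mul_right b.iv _
  have e3 : η ^ 3 ≤ η := by nlinarith [sq_nonneg η]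
  have ia : ∀ (x : E) (t : ℝ), |t| = η ^ 3 / 2 / 4 → ∫⁻ w, g (x + t • w) ≤
      ENNReal.ofReal ((8 / η ^ 3) ^ finrank ℝ E * (2 * (4 ^ m * (c * M)))) := fun x t ht => by
    have : t ≠ 0 := by rw [← abs_pos, ht]; positivity
    rw [lint_affine mg this, ENNReal.ofReal_mul (by positivity), abs_inv, abs_pow, ht, ← inv_pow,
      show (η ^ 3 / 2 / 4)⁻¹ = 8 / η ^ 3 by field_simp; norm_num]
    exact mul_le_mul_right ig _
  calc _ ≤ ∫⁻ w, ∫⁻ x, ENNReal.ofReal (5 / η / ZZ E (η ^ 2)) * (V x *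
        (g (x + (η ^ 3 / 2 / 4) • w) + g (x + (-(η ^ 3 / 2 / 4)) • w))) := by
        refine lintegral_mono fun w => ?_
        by_cases hw : chi η w = 0
        · simp [hw]
        rw [Er, ← lintegral_const_mul' _ _ (by simp)]
        refine lintegral_mono fun x => ?_
        refine mul_le_mul' (ENNReal.ofReal_le_ofReal
          (div_le_div_of_nonneg_right (chi_le h0 h1 w) hZ.le)) ?_
        unfold ind
        split_ifs with hx
        · obtain ⟨a1, a2⟩ := chi_supp h0 hw
          have a3 := abs_le.mp ((abs_norm_sub_norm_le x w).trans hx)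
          have a4 : ∀ t : ℝ, |t| = η ^ 3 / 2 / 4 →
              ENNReal.ofReal (v (x + t • w) ^ p) ≤ g (x + t • w) := fun t ht => by
            have b1 : ‖x + t • w - x‖ ≤ η := by
              rw [add_sub_cancel_left, norm_smul, Real.norm_eq_abs, ht]
              have : 0 < η ^ 3 := by positivity
              nlinarith
            have b2 := abs_le.mp ((abs_norm_sub_norm_le _ _).trans b1)
            have b3 := abs_le.mp (hA ‖x + t • w‖ (by linarith [b2.1, a3.1])
              (by linarith [b2.2, a3.2]))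
            have b4 : L * (‖x + t • w‖ - 1) ≤ L * (8 * η) :=
              mul_le_mul_of_nonneg_left (by linarith [b2.2, a3.2]) hL
            have b5 := (Real.rpow_pos_of_pos (h.pot.pv (x + t • w)) p).le
            rw [hg, indicator_of_mem (by simp; linarith [b2.2, a3.2]), ← ENNReal.ofReal_ofNat,
              ← ENNReal.ofReal_mul (by norm_num)]
            refine ENNReal.ofReal_le_ofReal ?_
            unfold rho
            nlinarith [b3.1]
          rw [ENNReal.ofReal_one, one_mul, mul_comm, hV,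
            indicator_of_mem (by simp; linarith [a3.2])]
          have : 0 < η ^ 3 / 2 / 4 := by positivity
          exact mul_le_mul_right (add_le_add (a4 _ (abs_of_pos this))
            (a4 _ (by rw [abs_neg, abs_of_pos this]))) _
        · simp
    _ = ∫⁻ x, ∫⁻ w, ENNReal.ofReal (5 / η / ZZ E (η ^ 2)) * (V x *
        (g (x + (η ^ 3 / 2 / 4) • w) + g (x + (-(η ^ 3 / 2 / 4)) • w))) :=
        lintegral_lintegral_swap (Measurable.aemeasurable (by fun_prop))
    _ ≤ ∫⁻ x, ENNReal.ofReal (5 / η / ZZ E (η ^ 2)) * (V x *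
        ENNReal.ofReal (2 * ((8 / η ^ 3) ^ finrank ℝ E * (2 * (4 ^ m * (c * M)))))) := by
        refine lintegral_mono fun x => ?_
        rw [lintegral_const_mul' _ _ (by simp), lintegral_const_mul _ (by fun_prop),
          lintegral_add_left (by fun_prop), two_mul ((8 / η ^ 3) ^ finrank ℝ E * _),
          ENNReal.ofReal_add (by positivity) (by positivity)]
        have : 0 < η ^ 3 / 2 / 4 := by positivity
        exact mul_le_mul_right (mul_le_mul_right (add_le_add (ia x _ (abs_of_pos this))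
          (ia x _ (by rw [abs_neg, abs_of_pos this]))) _) _
    _ ≤ _ := by
        rw [lintegral_const_mul' _ _ (by simp), lintegral_mul_const _ mV, mul_assoc,
          ENNReal.ofReal_mul (p := 5 / η / ZZ E (η ^ 2)) (by positivity),
          ENNReal.ofReal_mul (p := c * M) (by positivity)]
        exact mul_le_mul_right (mul_le_mul_left iV _) _

lemma Ke_le_mul {k : ℝ} (hk : 0 < k) {z z' : E} (h : ‖z'‖ ≤ k * ‖z‖) :
    Ke m z ≤ ENNReal.ofReal (k ^ m) * Ke m z' := by
  have h1 : ‖z'‖ₑ ^ m ≤ ENNReal.ofReal (k ^ m) * ‖z‖ₑ ^ m := by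
    rw [ENNReal.ofReal_pow hk.le, ← mul_pow, ← ofReal_norm, ← ofReal_norm,
      ← ENNReal.ofReal_mul hk.le]
    exact pow_le_pow_left' (ENNReal.ofReal_le_ofReal h) m
  have h2 : ENNReal.ofReal (k ^ m) ≠ 0 := by simpa using pow_pos hk m
  have h3 := ENNReal.inv_le_inv.mpr h1
  rw [ENNReal.mul_inv (Or.inl h2) (Or.inl ENNReal.ofReal_ne_top)] at h3
  calc Ke m z = ENNReal.ofReal (k ^ m) * ((ENNReal.ofReal (k ^ m))⁻¹ * (‖z‖ₑ ^ m)⁻¹) := by
        rw [← mul_assoc, ENNReal.mul_inv_cancel h2 ENNReal.ofReal_ne_top, one_mul]; rfl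
    _ ≤ _ := mul_le_mul_right h3 _

lemma far_one (h : Pot m c p q u v ρ1 ρ2) (b : Bd M u v) {l : ℝ} (h0 : 0 < l) (h1 : l ≤ 1) :
    piM m ρ1 ρ2 {z | l < ‖z.1 - z.2‖ ∧ ‖z.1‖ ≤ 2} ≤
      ENNReal.ofReal (4 ^ m * (c * M) * ((5 / l) ^ m * (c * M))) := by
  have ms : MeasurableSet {z : E × E | l < ‖z.1 - z.2‖ ∧ ‖z.1‖ ≤ 2} :=
    (measurableSet_lt measurable_const (measurable_fst.sub measurable_snd).norm).inter
      (measurableSet_le measurable_fst.norm measurable_const)
  obtain ⟨y0, hy0, hv⟩ := b.xv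
  have hc := h.hc
  have hM := b.hM
  rw [← lintegral_indicator_one ms, h.lint_pi (measurable_one.indicator ms)]
  calc _ ≤ ∫⁻ x, (closedBall (0 : E) 2).indicator (fun x => ENNReal.ofReal (ρ1 x) *
        ENNReal.ofReal ((5 / l) ^ m * (c * M))) x := by
        refine lintegral_mono fun x => ?_
        by_cases hx : ‖x‖ ≤ 2
        · rw [indicator_of_mem (by simpa using hx)]
          calc _ ≤ ∫⁻ y, ENNReal.ofReal (ρ1 x) * (ENNReal.ofReal ((5 / l) ^ m) *
                (Ke m (y0 - y) * ENNReal.ofReal (ρ2 y))) := by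
                refine lintegral_mono fun y => ?_
                by_cases hy : l < ‖x - y‖
                · rw [indicator_of_mem (s := {z : E × E | l < ‖z.1 - z.2‖ ∧ ‖z.1‖ ≤ 2}) ⟨hy, hx⟩,
                    Pi.one_apply, one_mul, mul_assoc, ← mul_assoc (ENNReal.ofReal ((5 / l) ^ m)),
                    mul_comm (ENNReal.ofReal (ρ2 y))]
                  refine mul_le_mul_right (mul_le_mul_left (Ke_le_mul (by positivity) ?_) _) _
                  have a1 := norm_sub_le_norm_sub_add_norm_sub y0 x y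
                  have a2 := norm_sub_le y0 x
                  rw [div_mul_eq_mul_div, le_div_iff₀ h0]
                  nlinarith [norm_nonneg (y0 - y)]
                · rw [indicator_of_notMem (s := {z : E × E | l < ‖z.1 - z.2‖ ∧ ‖z.1‖ ≤ 2})
                    fun h => hy h.1]
                  simp
            _ ≤ _ := by
                rw [lintegral_const_mul' _ _ (by simp), lintegral_const_mul' _ _ (by simp), ← h.rv,
                  ← ENNReal.ofReal_mul (by positivity)]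
                exact mul_le_mul_right (ENNReal.ofReal_le_ofReal (by gcongr)) _
        · have : ∀ y, {z : E × E | l < ‖z.1 - z.2‖ ∧ ‖z.1‖ ≤ 2}.indicator
              (1 : E × E → ℝ≥0∞) (x, y) = 0 := fun y => indicator_of_notMem (fun h => hx h.2) _
          simp [this]
    _ ≤ _ := by
        rw [lintegral_indicator measurableSet_closedBall, lintegral_mul_const' _ _ (by simp),
          ENNReal.ofReal_mul (p := 4 ^ m * (c * M)) (by positivity)]
        exact mul_le_mul_left (mass2 h b) _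

lemma far_bound (h : Pot m c p q u v ρ1 ρ2) (b : Bd M u v) {l : ℝ} (h0 : 0 < l) (h1 : l ≤ 1) :
    (piM m ρ1 ρ2).real {z | l < ‖z.1 - z.2‖ ∧ (‖z.1‖ ≤ 2 ∨ ‖z.2‖ ≤ 2)} ≤
      2 * (4 ^ m * (c * M) * ((5 / l) ^ m * (c * M))) := by
  have hc := h.hc
  have hM := b.hM
  refine ENNReal.toReal_le_of_le_ofReal (by positivity) ?_
  have ms : MeasurableSet {z : E × E | l < ‖z.1 - z.2‖ ∧ ‖z.2‖ ≤ 2} :=
    (measurableSet_lt measurable_const (measurable_fst.sub measurable_snd).norm).inter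
      (measurableSet_le measurable_snd.norm measurable_const)
  calc _ ≤ piM m ρ1 ρ2 ({z | l < ‖z.1 - z.2‖ ∧ ‖z.1‖ ≤ 2} ∪ {z | l < ‖z.1 - z.2‖ ∧ ‖z.2‖ ≤ 2}) :=
        measure_mono fun z hz => hz.2.elim (fun h => Or.inl ⟨hz.1, h⟩) fun h => Or.inr ⟨hz.1, h⟩
    _ ≤ _ := by
        refine (measure_union_le _ _).trans ?_
        rw [two_mul, ENNReal.ofReal_add (by positivity) (by positivity)]
        refine add_le_add (far_one h b h0 h1) ?_
        rw [← h.pi_swap ms]
        refine le_trans (le_of_eq ?_) (far_one h.swap b.swap h0 h1)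
        congr 1; ext z; simp [norm_sub_rev]

lemma QQ_le (h0 : 0 < η) (h1 : η ≤ 1 / 10) {z : E × E} (hz : ‖z.1 - z.2‖ ≤ η ^ 3) (hx : ‖z.1‖ ≤ 2) :
    QQ η z ≤ 13 / η := by
  have e3 : η ^ 3 ≤ 1 := pow_le_one₀ h0.le (by linarith)
  have a1 := abs_le.mp ((abs_norm_sub_norm_le z.1 z.2).trans hz)
  have a2 : |‖z.1‖ ^ 2 - ‖z.2‖ ^ 2| ≤ 5 * ‖z.1 - z.2‖ :=
    (abs_sq_sub_le _ _).trans (mul_le_mul_of_nonneg_right (by linarith [a1.1]) (norm_nonneg _))
  have a6 : (‖z.1‖ ^ 2 - ‖z.2‖ ^ 2) ^ 2 ≤ 25 * ‖z.1 - z.2‖ ^ 2 := by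
    rw [← sq_abs]; nlinarith [abs_nonneg (‖z.1‖ ^ 2 - ‖z.2‖ ^ 2)]
  refine div_le_of_le_mul₀ (by positivity) (by positivity) ?_
  calc _ ≤ 1 / η * (25 * ‖z.1 - z.2‖ ^ 2) := mul_le_mul (bt_le h0 _) a6 (sq_nonneg _) (by positivity)
    _ ≤ 1 / η * (26 * ‖z.1 - z.2‖ ^ 2) := by gcongr; norm_num
    _ = _ := by ring

lemma bnd_nonneg {K : ℝ} (hK : 0 ≤ K) (h0 : 0 < η) (z : E × E) : 0 ≤ bnd m η K z := by
  have := lay_nonneg (η := η) z.1; have := lay_nonneg (η := η) z.2
  have := far_nonneg (η ^ 3) z; have := sub_nonneg.mpr (far_le_one (η ^ 3) z)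
  have := QQ_nonneg h0 z
  unfold bnd; positivity

lemma bnd_integrable (h : Pot m c p q u v ρ1 ρ2) {K : ℝ} (hK : 0 ≤ K) (h0 : 0 < η)
    (h1 : η ≤ 1 / 10) : Integrable (bnd m η K) (piM m ρ1 ρ2) := by
  have ml := measurable_lay (E := E) (η := η)
  have mf := measurable_far (E := E) (η ^ 3)
  have mb : Measurable (bt η) := continuous_be.measurable
  refine h.integrable (by unfold bnd QQ; fun_prop) (r := 2)
    (C := m * (13 / η + 67) + (K + K / η) * 2) (fun z => ?_) fun z a1 a2 => ?_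
  · rw [abs_of_nonneg (bnd_nonneg hK h0 z)]
    have l1 := lay_le_one (η := η) z.1
    have l2 := lay_le_one (η := η) z.2
    have l3 := lay_nonneg (η := η) z.1
    have l4 := lay_nonneg (η := η) z.2
    have f1 := far_le_one (η ^ 3) z
    have f0 := far_nonneg (η ^ 3) z
    refine add_le_add ?_ (mul_le_mul (add_le_add le_rfl
      (mul_le_of_le_one_right (by positivity) f1)) (by linarith) (by linarith) (by positivity))
    by_cases hz : ‖z.1 - z.2‖ ≤ η ^ 3
    · unfold lay
      split_ifs with hx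
      · have := QQ_le h0 h1 hz (by linarith [hx.2])
        have f2 : far (η ^ 3) z = 0 := if_pos hz
        rw [f2, sub_zero, one_mul, mul_one]; gcongr
      · rw [mul_zero]; positivity
    · have f2 : far (η ^ 3) z = 1 := if_neg hz
      rw [f2, sub_self, zero_mul, zero_mul]; positivity
  · have d1 : lay η z.1 = 0 := if_neg fun h => by linarith [h.2]
    have d2 : lay η z.2 = 0 := if_neg fun h => by linarith [h.2]
    simp [bnd, d1, d2]

lemma main_raw (h : Sol m c p q A B u v) (hL : 0 ≤ L)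
    (hA : ∀ r, 1 ≤ r → r ≤ 2 → |r ^ A - 1| ≤ L * (r - 1))
    (hB : ∀ r, 1 ≤ r → r ≤ 2 → |r ^ B - 1| ≤ L * (r - 1))
    (hA' : 0 ≤ m + 2 + A) (hB' : 0 ≤ m + 2 + B)
    (h0 : 0 < η) (h1 : η ≤ 1 / 10) (h2 : 16 * L * η ≤ 1) {K X : ℝ}
    (hK : K = 10 * 4 ^ finrank ℝ E * (m + 4 + 64 * L) + 65) (hX : 0 ≤ X)
    (hE : ∫⁻ w, ENNReal.ofReal (chi η w / ZZ E (η ^ 2)) *
        (2 * (Er c v (fun x => v x ^ p) w η (η ^ 3 / 2) +
          Er c u (fun x => u x ^ q) w η (η ^ 3 / 2))) ≤ ENNReal.ofReal X) :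
    ((m + 2 + A) / (p + 1) + (m + 2 + B) / (q + 1) - m) *
        (piM m (rho A p v) (rho B q u)).real {z | ‖z.1‖ ≤ 1} ≤
      (78 * m + 2 * K) * ((piM m (rho A p v) (rho B q u)).real {z | ‖z.1‖ ≤ 1 + 9 * η} -
        (piM m (rho A p v) (rho B q u)).real {z | ‖z.1‖ ≤ 1}) +
      ((m + 2 + A) / (p + 1) + (m + 2 + B) / (q + 1) + m + 4 * K) / η *
        (piM m (rho A p v) (rho B q u)).real
          {z | η ^ 3 < ‖z.1 - z.2‖ ∧ (‖z.1‖ ≤ 2 ∨ ‖z.2‖ ≤ 2)} + X := by
  have := h.nontrivial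
  have hp := h.pot.hp
  have hq := h.pot.hq
  have K0 : 0 ≤ K := by rw [hK]; positivity
  set π := piM m (rho A p v) (rho B q u) with hπ
  have mc := (continuous_chi (E := E) (η := η)).measurable
  have d : ∀ (x : E) (r : ℝ), 0 < r → chi η x / (r + 1) ≤ 5 / η := fun x r hr =>
    (div_le_self (chi_nonneg h0 x) (by linarith)).trans (chi_le h0 h1 x)
  have n1 : ∀ z : E × E, 0 ≤ chi η z.1 / (p + 1) + chi η z.2 / (q + 1) := fun z => by
    have := chi_nonneg h0 z.1; have := chi_nonneg h0 z.2; positivity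
  have i1 : Integrable (fun z : E × E => chi η z.1 / (p + 1) + chi η z.2 / (q + 1)) π := by
    refine h.pot.integrable (by fun_prop) (r := 2) (C := 5 / η + 5 / η) (fun z => ?_)
      fun z a1 a2 => ?_
    · rw [abs_of_nonneg (n1 z)]; exact add_le_add (d _ _ hp) (d _ _ hq)
    · have b1 : chi η z.1 = 0 := by by_contra hc; linarith [(chi_supp h0 hc).2]
      have b2 : chi η z.2 = 0 := by by_contra hc; linarith [(chi_supp h0 hc).2]
      simp [b1, b2]
  have i2 := bnd_integrable h.pot K0 h0 h1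
  have i3 := PP_integrable h (a := (1 + 4 * η) ^ 2) (D := 2 * η) (by positivity) (by positivity)
  have s1 := (key_avg h hL hA hB h0 h1 h2).trans (add_le_add le_rfl hE)
  rw [← hK, ← ofReal_integral_eq_lintegral_ofReal i1 (Eventually.of_forall n1),
    ← ofReal_integral_eq_lintegral_ofReal i2 (Eventually.of_forall (bnd_nonneg K0 h0)),
    ← ENNReal.ofReal_add (integral_nonneg (bnd_nonneg K0 h0)) hX,
    ENNReal.ofReal_le_ofReal_iff (add_nonneg (integral_nonneg (bnd_nonneg K0 h0)) hX)] at s1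
  have s2 := poho h (a := (1 + 4 * η) ^ 2) (D := 2 * η) (by nlinarith) (by positivity)
  have ms1 : ∀ r : ℝ, MeasurableSet {z : E × E | ‖z.1‖ ≤ r} := fun r =>
    measurableSet_le measurable_fst.norm measurable_const
  have ms2 : MeasurableSet {z : E × E | 1 < ‖z.1‖ ∧ ‖z.1‖ ≤ 1 + 9 * η} :=
    (measurableSet_lt measurable_const measurable_fst.norm).inter (ms1 _)
  have ms3 : MeasurableSet {z : E × E | η ^ 3 < ‖z.1 - z.2‖ ∧ (‖z.1‖ ≤ 2 ∨ ‖z.2‖ ≤ 2)} :=
    (measurableSet_lt measurable_const (measurable_fst.sub measurable_snd).norm).inter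
      (measurableSet_or 2)
  have ii : ∀ s : Set (E × E), MeasurableSet s → π s < ⊤ →
      Integrable (s.indicator (1 : E × E → ℝ)) π := fun s hs hf =>
    (integrable_indicator_iff hs).mpr (integrableOn_const hf.ne)
  have j1 := ii _ (ms1 1) (h.pot.fin_fst 1)
  have j2 := ii _ ms2 ((measure_mono fun z hz => hz.2).trans_lt (h.pot.fin_fst (1 + 9 * η)))
  have j3 := ii _ ms3 ((measure_mono fun z hz => hz.2).trans_lt (h.pot.fin_or 2))
  have s3 := integral_mono_ae (((j1.const_mul ((m + 2 + A) / (p + 1) + (m + 2 + B) / (q + 1) - m)).sub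
    (j2.const_mul (78 * m + 2 * K))).sub
    (j3.const_mul (((m + 2 + A) / (p + 1) + (m + 2 + B) / (q + 1) + m + 4 * K) / η)))
    ((i3.add i1).sub i2) (by
      filter_upwards [ae_ne_pi] with z hz
      refine (W_bound m (by positivity) (by positivity) K0 h0 h1 hz.1).trans (le_of_eq ?_)
      simp only [Pi.add_apply, Pi.sub_apply, PP, HH, chi, Pt, bt]
      ring)
  simp only [Pi.add_apply, Pi.sub_apply] at s3
  rw [integral_sub ((j1.const_mul _).sub' (j2.const_mul _)) (j3.const_mul _),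
    integral_sub (j1.const_mul _) (j2.const_mul _), integral_const_mul, integral_const_mul,
    integral_const_mul, integral_indicator_one (ms1 1), integral_indicator_one ms2,
    integral_indicator_one ms3, integral_sub (i3.fun_add i1) i2, integral_add i3 i1, s2] at s3
  have s4 : π.real {z | 1 < ‖z.1‖ ∧ ‖z.1‖ ≤ 1 + 9 * η} =
      π.real {z | ‖z.1‖ ≤ 1 + 9 * η} - π.real {z | ‖z.1‖ ≤ 1} := by
    have hs : {z : E × E | ‖z.1‖ ≤ 1} ⊆ {z | ‖z.1‖ ≤ 1 + 9 * η} := fun z hz => by
      have : ‖z.1‖ ≤ 1 := hz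
      show ‖z.1‖ ≤ 1 + 9 * η
      linarith
    rw [← measureReal_sdiff hs (ms1 1) (h.pot.fin_fst _).ne]
    congr 1; ext z; simp [and_comm]
  rw [s4] at s3
  linarith

theorem main_unit (m : ℕ) {c M L a b : ℝ} (hc : 0 < c) (hM : 0 < M) (hL : 0 ≤ L) (ha : 0 ≤ a)
    (hb : 0 ≤ b) : ∃ K C : ℝ, 0 ≤ K ∧ 0 ≤ C ∧ ∀ (p q A B η : ℝ) (u v : E → ℝ),
      Sol m c p q A B u v → Bd M u v → (∀ r, 1 ≤ r → r ≤ 2 → |r ^ A - 1| ≤ L * (r - 1)) →
      (∀ r, 1 ≤ r → r ≤ 2 → |r ^ B - 1| ≤ L * (r - 1)) → (m + 2 + A) / (p + 1) = a →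
      (m + 2 + B) / (q + 1) = b → 0 < η → η ≤ 1 / 10 → 16 * L * η ≤ 1 →
      (a + b - m) * (piM m (rho A p v) (rho B q u)).real {z | ‖z.1‖ ≤ 1} ≤
        K * ((piM m (rho A p v) (rho B q u)).real {z | ‖z.1‖ ≤ 1 + 9 * η} -
          (piM m (rho A p v) (rho B q u)).real {z | ‖z.1‖ ≤ 1}) + C / η ^ (5 * (m + 2) + 1) := by
  set K := 10 * 4 ^ finrank ℝ E * (m + 4 + 64 * L) + 65 with hK
  have K0 : 0 ≤ K := by positivity
  have ho := om_pos (E := E)
  refine ⟨78 * m + 2 * K, (a + b + m + 4 * K) * (2 * (4 ^ m * (c * M) * (5 ^ m * (c * M)))) +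
    4 * (5 * (2 ^ (m + 2) * 2 / om E) * (c * M) * (2 * (8 ^ (m + 2) * (2 * (4 ^ m * (c * M)))))),
    by positivity, by positivity, ?_⟩
  intro p q A B η u v h bd hA hB ea eb h0 h1 h2
  have hp := h.pot.hp
  have hq := h.pot.hq
  have hZ := ZZ_pos (E := E) (by positivity : 0 < η ^ 2)
  have e1 := err_one h bd hL hA h0 h1 h2
  have e2 := err_one h.swap bd.swap hL hB h0 h1 h2
  set X := 5 / η / ZZ E (η ^ 2) * (c * M) *
        (2 * ((8 / η ^ 3) ^ finrank ℝ E * (2 * (4 ^ m * (c * M))))) with hX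
  have X0 : 0 ≤ X := by positivity
  have mE : ∀ (v f : E → ℝ), Continuous v → Continuous f →
      Measurable fun w => ENNReal.ofReal (chi η w / ZZ E (η ^ 2)) * Er c v f w η (η ^ 3 / 2) := by
    intro v f hv hf
    have mc := (continuous_chi (E := E) (η := η)).measurable
    have mi : Measurable fun y : E × E => ind y.1 η y.2 := by
      unfold ind
      exact Measurable.ite (measurableSet_le (by fun_prop) measurable_const) measurable_const
        measurable_const
    refine Measurable.mul (by fun_prop) ?_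
    refine Measurable.lintegral_prod_right' (f := fun y : E × E => ENNReal.ofReal (ind y.1 η y.2) *
      Lg f y.1 (η ^ 3 / 2) y.2 * ENNReal.ofReal (c * v y.2)) ?_
    unfold Lg; fun_prop
  have s1 := main_raw h hL hA hB (by rw [div_eq_iff (by positivity)] at ea; rw [ea]; positivity)
    (by rw [div_eq_iff (by positivity)] at eb; rw [eb]; positivity) h0 h1 h2 hK
    (X := 2 * (X + X)) (by positivity) (by
      simp only [mul_left_comm (ENNReal.ofReal _) 2, mul_add (ENNReal.ofReal _)]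
      rw [lintegral_const_mul' _ _ (by simp), lintegral_add_left (mE _ _ h.pot.cv h.pot.cf),
        ENNReal.ofReal_mul (by norm_num), ENNReal.ofReal_ofNat, ENNReal.ofReal_add X0 X0]
      exact mul_le_mul_right (add_le_add e1 e2) _)
  rw [ea, eb] at s1
  refine s1.trans ?_
  rw [add_assoc]
  refine add_le_add le_rfl ?_
  have η1 : η ≤ 1 := by linarith
  have f1 := far_bound h.pot bd (l := η ^ 3) (by positivity) (pow_le_one₀ h0.le η1)
  rw [add_div ((a + b + m + 4 * K) * _)]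
  refine add_le_add ?_ ?_
  · calc _ ≤ (a + b + m + 4 * K) / η * (2 * (4 ^ m * (c * M) * ((5 / η ^ 3) ^ m * (c * M)))) := by
          gcongr
      _ = (a + b + m + 4 * K) * (2 * (4 ^ m * (c * M) * (5 ^ m * (c * M)))) / η ^ (3 * m + 1) := by
          rw [div_pow, ← pow_mul, pow_succ η]; field_simp
      _ ≤ _ := div_le_div_of_nonneg_left (by positivity) (by positivity)
          (pow_le_pow_of_le_one h0.le η1 (by omega))
  · have z1 : 1 / ZZ E (η ^ 2) ≤ 2 ^ (m + 2) * 2 / om E / (η ^ 2) ^ (m + 2) := by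
      have := ZZ_ge (E := E) (by positivity : 0 < η ^ 2)
      rw [h.dim] at this
      refine (one_div_le_one_div_of_le (by positivity) this).trans (le_of_eq ?_)
      rw [div_pow]; field_simp
    calc _ = 4 * (5 / η * (1 / ZZ E (η ^ 2)) * (c * M) *
          (2 * ((8 / η ^ 3) ^ (m + 2) * (2 * (4 ^ m * (c * M)))))) := by rw [hX, h.dim]; ring
      _ ≤ 4 * (5 / η * (2 ^ (m + 2) * 2 / om E / (η ^ 2) ^ (m + 2)) * (c * M) *
          (2 * ((8 / η ^ 3) ^ (m + 2) * (2 * (4 ^ m * (c * M)))))) := by gcongr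
      _ = _ := by
          rw [div_pow, show η ^ (5 * (m + 2) + 1) = η * ((η ^ 2) ^ (m + 2) * (η ^ 3) ^ (m + 2)) by
            ring]
          field_simp

end Vale.Agent.P100
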