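import Vale.Agent.P100.KeyB

/-! Integration by parts tools and real integrals against the pair measure. -/

set_option linter.unusedSectionVars false

namespace Vale.Agent.P100

open MeasureTheory Set Filter Topology Metric Module
open scoped ENNReal RealInnerProductSpace

variable {E : Type*} [NormedAddCommGroup E] [InnerProductSpace ℝ E]
  [MeasurableSpace E] [BorelSpace E] [FiniteDimensional ℝ E]

lemma int_fderiv_zero {h : E → ℝ} (hh : ContDiff ℝ 1 h) (hs : HasCompactSupport h) (e : E) :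
    ∫ x, fderiv ℝ h x e = 0 := by
  have c1 : Continuous fun x => fderiv ℝ h x e :=
    (hh.continuous_fderiv one_ne_zero).clm_apply continuous_const
  have := integral_mul_fderiv_eq_neg_fderiv_mul_of_integrable (μ := (volume : Measure E))
    (f := fun _ => (1 : ℝ)) (g := h) (v := e) (by simp)
    (by simpa using c1.integrable_of_hasCompactSupport (hs.fderiv_apply ℝ e))
    (by simpa using hh.continuous.integrable_of_hasCompactSupport hs)
    (fun x _ => differentiableAt_const _) fun x _ => hh.differentiable one_ne_zero x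
  simpa using this

lemma contDiff_mul_of_tsupport {k : ℕ} {φ g : E → ℝ} {U : Set E} (hU : IsOpen U)
    (hφ : ContDiff ℝ k φ) (hg : ContDiffOn ℝ k g U) (hs : tsupport φ ⊆ U) :
    ContDiff ℝ k fun x => φ x * g x := by
  refine contDiff_iff_contDiffAt.mpr fun x => ?_
  by_cases hx : x ∈ U
  · exact hφ.contDiffAt.mul (hg.contDiffAt (hU.mem_nhds hx))
  · have : φ =ᶠ[𝓝 x] 0 := notMem_tsupport_iff_eventuallyEq.mp fun h => hx (hs h)
    refine (contDiffAt_const (c := (0 : ℝ))).congr_of_eventuallyEq ?_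
    filter_upwards [this] with y hy
    simp [hy]

lemma euler0 {h : E → ℝ} (hh : ContDiff ℝ 1 h) (hs : HasCompactSupport h) :
    ∫ x, ((finrank ℝ E : ℝ) * h x + fderiv ℝ h x x) = 0 := by
  set b := stdOrthonormalBasis ℝ E
  have hg : ∀ i, ContDiff ℝ 1 fun x => ⟪b i, x⟫ * h x := fun i =>
    (contDiff_const.inner ℝ contDiff_id).mul hh
  have hgs : ∀ i, HasCompactSupport fun x => ⟪b i, x⟫ * h x := fun i => hs.mul_left
  have hd : ∀ i x, fderiv ℝ (fun x => ⟪b i, x⟫ * h x) x (b i) =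
      h x + ⟪b i, x⟫ * fderiv ℝ h x (b i) := fun i x => by
    have a1 : HasFDerivAt (fun x => ⟪b i, x⟫) (innerSL ℝ (b i)) x := (innerSL ℝ (b i)).hasFDerivAt
    rw [(a1.fun_mul (hh.differentiable one_ne_zero x).hasFDerivAt).fderiv]
    simp [b.orthonormal.1 i, add_comm]
  have e : ∀ x, (finrank ℝ E : ℝ) * h x + fderiv ℝ h x x =
      ∑ i, fderiv ℝ (fun x => ⟪b i, x⟫ * h x) x (b i) := fun x => by
    simp only [hd, Finset.sum_add_distrib]
    congr 1
    · simp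
    · have := congrArg (fderiv ℝ h x) (b.sum_repr' x)
      rw [map_sum] at this
      simpa using this.symm
  simp only [e]
  rw [integral_finsetSum _ fun i _ => (((hg i).continuous_fderiv one_ne_zero).clm_apply
    continuous_const).integrable_of_hasCompactSupport ((hgs i).fderiv_apply ℝ _)]
  exact Finset.sum_eq_zero fun i _ => int_fderiv_zero (hg i) (hgs i) _

lemma euler [Nontrivial E] {h e : E → ℝ} (hh : ContDiff ℝ 1 h) (hs : HasCompactSupport h)
    (he : ∀ x, x ≠ 0 → HasDerivAt (fun t : ℝ => h (t • x)) (e x) 1) :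
    ∫ x, ((finrank ℝ E : ℝ) * h x + e x) = 0 := by
  rw [← euler0 hh hs]
  refine integral_congr_ae ?_
  filter_upwards [Measure.ae_ne volume (0 : E)] with x hx
  congr 1
  have a1 : HasDerivAt (fun t : ℝ => t • x) x 1 := by simpa using (hasDerivAt_id (1 : ℝ)).smul_const x
  have a2 : HasFDerivAt h (fderiv ℝ h x) ((1 : ℝ) • x) := by
    rw [one_smul]; exact (hh.differentiable one_ne_zero x).hasFDerivAt
  exact (he x hx).unique (a2.comp_hasDerivAt 1 a1)

variable {m : ℕ} {c p q : ℝ} {u v ρ1 ρ2 : E → ℝ}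

lemma one_le_Ke {r : ℝ} (hr : 0 < r) {z : E} (hz : ‖z‖ ≤ r) :
    1 ≤ ENNReal.ofReal (r ^ m) * Ke m z := by
  have h1 : ‖z‖ₑ ^ m ≤ ENNReal.ofReal (r ^ m) := by
    rw [ENNReal.ofReal_pow hr.le, ← ofReal_norm]
    exact pow_le_pow_left' (ENNReal.ofReal_le_ofReal hz) m
  calc (1 : ℝ≥0∞) = ENNReal.ofReal (r ^ m) * (ENNReal.ofReal (r ^ m))⁻¹ :=
        (ENNReal.mul_inv_cancel (by simpa using pow_pos hr m) ENNReal.ofReal_ne_top).symm
    _ ≤ _ := mul_le_mul_right (ENNReal.inv_le_inv.mpr h1) _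

lemma Pot.mass (h : Pot m c p q u v ρ1 ρ2) (x0 : E) {r : ℝ} (hr : 0 < r) :
    ∫⁻ y in closedBall x0 r, ENNReal.ofReal (ρ1 y) ≤
      ENNReal.ofReal (r ^ m) * ENNReal.ofReal (c * u x0) := by
  rw [h.ru, ← lintegral_const_mul' _ _ ENNReal.ofReal_ne_top]
  refine le_trans (setLIntegral_mono' measurableSet_closedBall fun y hy => ?_)
    (setLIntegral_le_lintegral (closedBall x0 r) _)
  rw [← mul_assoc]
  refine le_mul_of_one_le_left' (one_le_Ke hr ?_)
  rwa [mem_closedBall, dist_eq_norm, norm_sub_rev] at hy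

lemma Pot.pi_fst (h : Pot m c p q u v ρ1 ρ2) {s : Set E} (hs : MeasurableSet s) :
    piM m ρ1 ρ2 {z | z.1 ∈ s} = ∫⁻ x in s, ENNReal.ofReal (ρ1 x) * ENNReal.ofReal (c * v x) := by
  have hs' : MeasurableSet {z : E × E | z.1 ∈ s} := measurable_fst hs
  rw [← lintegral_indicator_one hs', ← lintegral_indicator hs]
  have := h.lint_fst (H := s.indicator 1) (measurable_one.indicator hs)
  refine this.trans (lintegral_congr fun x => ?_)
  by_cases hx : x ∈ s <;> simp [hx]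

lemma Pot.fin_fst (h : Pot m c p q u v ρ1 ρ2) (r : ℝ) : piM m ρ1 ρ2 {z | ‖z.1‖ ≤ r} < ⊤ := by
  have e : {z : E × E | ‖z.1‖ ≤ r} = {z | z.1 ∈ closedBall (0 : E) r} := by ext z; simp
  obtain ⟨C, hC⟩ := (isCompact_closedBall (0 : E) r).exists_bound_of_continuousOn h.cv.continuousOn
  rw [e, h.pi_fst measurableSet_closedBall]
  calc _ ≤ ∫⁻ x in closedBall (0 : E) r, ENNReal.ofReal (ρ1 x) * ENNReal.ofReal (c * C) :=
        setLIntegral_mono' measurableSet_closedBall fun x hx => mul_le_mul_right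
          (ENNReal.ofReal_le_ofReal (mul_le_mul_of_nonneg_left
            ((le_abs_self _).trans (hC x hx)) h.hc.le)) _
    _ ≤ (∫⁻ x in closedBall (0 : E) (|r| + 1), ENNReal.ofReal (ρ1 x)) * ENNReal.ofReal (c * C) := by
        rw [lintegral_mul_const' _ _ ENNReal.ofReal_ne_top]
        exact mul_le_mul_left (lintegral_mono_set
          (closedBall_subset_closedBall (by linarith [le_abs_self r]))) _
    _ < ⊤ := ENNReal.mul_lt_top ((h.mass 0 (by positivity)).trans_lt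
        (ENNReal.mul_lt_top ENNReal.ofReal_lt_top ENNReal.ofReal_lt_top)) ENNReal.ofReal_lt_top

lemma Pot.pi_swap (h : Pot m c p q u v ρ1 ρ2) {s : Set (E × E)} (hs : MeasurableSet s) :
    piM m ρ2 ρ1 (Prod.swap ⁻¹' s) = piM m ρ1 ρ2 s := by
  rw [← lintegral_indicator_one hs, ← lintegral_indicator_one (measurable_swap hs),
    ← h.lint_swap (measurable_one.indicator hs)]
  rfl

lemma Pot.map_swap (h : Pot m c p q u v ρ1 ρ2) : (piM m ρ2 ρ1).map Prod.swap = piM m ρ1 ρ2 := by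
  ext s hs
  rw [Measure.map_apply measurable_swap hs, h.pi_swap hs]

lemma Pot.int_swap (h : Pot m c p q u v ρ1 ρ2) (H : E × E → ℝ) :
    ∫ z, H z.swap ∂(piM m ρ2 ρ1) = ∫ z, H z ∂(piM m ρ1 ρ2) := by
  rw [← h.map_swap]
  exact ((MeasurableEquiv.prodComm (α := E) (β := E)).measurableEmbedding.integral_map H).symm

lemma Pot.fin_or (h : Pot m c p q u v ρ1 ρ2) (r : ℝ) :
    piM m ρ1 ρ2 {z | ‖z.1‖ ≤ r ∨ ‖z.2‖ ≤ r} < ⊤ := by
  refine (measure_union_le {z : E × E | ‖z.1‖ ≤ r} {z | ‖z.2‖ ≤ r}).trans_lt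
    (ENNReal.add_lt_top.mpr ⟨h.fin_fst r, ?_⟩)
  rw [← h.pi_swap (measurableSet_le (by fun_prop) measurable_const)]
  exact h.swap.fin_fst r

lemma measurableSet_or (r : ℝ) : MeasurableSet {z : E × E | ‖z.1‖ ≤ r ∨ ‖z.2‖ ≤ r} :=
  (measurableSet_le (measurable_fst.norm) measurable_const).union
    (measurableSet_le (measurable_snd.norm) measurable_const)

lemma Pot.int_bound (h : Pot m c p q u v ρ1 ρ2) (r C : ℝ) :
    Integrable ({z : E × E | ‖z.1‖ ≤ r ∨ ‖z.2‖ ≤ r}.indicator fun _ => C) (piM m ρ1 ρ2) :=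
  (integrable_indicator_iff (measurableSet_or r)).mpr (integrableOn_const (h.fin_or r).ne)

lemma le_indicator_or {H : E × E → ℝ} {r C : ℝ} (hb : ∀ z, |H z| ≤ C)
    (h0 : ∀ z : E × E, r < ‖z.1‖ → r < ‖z.2‖ → H z = 0) (z : E × E) :
    ‖H z‖ ≤ {z : E × E | ‖z.1‖ ≤ r ∨ ‖z.2‖ ≤ r}.indicator (fun _ => C) z := by
  by_cases hz : z ∈ {z : E × E | ‖z.1‖ ≤ r ∨ ‖z.2‖ ≤ r}
  · rw [indicator_of_mem hz]; exact hb z
  · rw [indicator_of_notMem hz]
    simp only [mem_ofPred_eq, not_or, not_le] at hz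
    simp [h0 z hz.1 hz.2]

lemma Pot.integrable (h : Pot m c p q u v ρ1 ρ2) {H : E × E → ℝ} (hH : Measurable H) {r C : ℝ}
    (hb : ∀ z, |H z| ≤ C) (h0 : ∀ z : E × E, r < ‖z.1‖ → r < ‖z.2‖ → H z = 0) :
    Integrable H (piM m ρ1 ρ2) :=
  (h.int_bound r C).mono' hH.aestronglyMeasurable (Eventually.of_forall (le_indicator_or hb h0))

variable [Nontrivial E]

lemma ae_ne_prod : ∀ᵐ z ∂((volume : Measure E).prod (volume : Measure E)),
    z.1 ≠ z.2 ∧ z.1 ≠ 0 ∧ z.2 ≠ 0 := by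
  have m1 : MeasurableSet {z : E × E | z.1 ≠ z.2 ∧ z.1 ≠ 0 ∧ z.2 ≠ 0} :=
    (measurableSet_eq_fun measurable_fst measurable_snd).compl.inter
      ((measurableSet_eq_fun measurable_fst measurable_const).compl.inter
        (measurableSet_eq_fun measurable_snd measurable_const).compl)
  rw [Measure.ae_prod_iff_ae_ae m1]
  filter_upwards [Measure.ae_ne volume (0 : E)] with x hx
  filter_upwards [Measure.ae_ne volume (0 : E), Measure.ae_ne volume x] with y hy hy'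
  exact ⟨hy'.symm, hx, hy⟩

lemma ae_ne_pi : ∀ᵐ z ∂(piM m ρ1 ρ2), z.1 ≠ z.2 ∧ z.1 ≠ 0 ∧ z.2 ≠ 0 :=
  (withDensity_absolutelyContinuous _ _).ae_le ae_ne_prod

lemma dens_lt_top : ∀ᵐ z ∂((volume : Measure E).prod (volume : Measure E)),
    ENNReal.ofReal (ρ1 z.1) * ENNReal.ofReal (ρ2 z.2) * Ke m (z.1 - z.2) < ∞ := by
  filter_upwards [ae_ne_prod] with z hz
  rw [Ke_of_ne m (sub_ne_zero.mpr hz.1)]
  exact ENNReal.mul_lt_top (ENNReal.mul_lt_top ENNReal.ofReal_lt_top ENNReal.ofReal_lt_top)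
    ENNReal.ofReal_lt_top

omit [Nontrivial E] in
lemma Ke_toReal (z : E) : (Ke m z).toReal = (‖z‖ ^ m)⁻¹ := by
  simp [Ke]

omit [Nontrivial E] in
lemma Pot.dens (h : Pot m c p q u v ρ1 ρ2) (z : E × E) :
    (ENNReal.ofReal (ρ1 z.1) * ENNReal.ofReal (ρ2 z.2) * Ke m (z.1 - z.2)).toReal =
      ρ1 z.1 * ρ2 z.2 * (‖z.1 - z.2‖ ^ m)⁻¹ := by
  rw [ENNReal.toReal_mul, ENNReal.toReal_mul, ENNReal.toReal_ofReal (h.n1 _),
    ENNReal.toReal_ofReal (h.n2 _), Ke_toReal]

lemma Pot.int_prod (h : Pot m c p q u v ρ1 ρ2) {H : E × E → ℝ} (hH : Integrable H (piM m ρ1 ρ2)) :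
    Integrable (fun z : E × E => ρ1 z.1 * ρ2 z.2 * (‖z.1 - z.2‖ ^ m)⁻¹ * H z)
      ((volume : Measure E).prod volume) ∧
    ∫ z, H z ∂(piM m ρ1 ρ2) =
      ∫ z, ρ1 z.1 * ρ2 z.2 * (‖z.1 - z.2‖ ^ m)⁻¹ * H z ∂((volume : Measure E).prod volume) := by
  constructor
  · have := (integrable_withDensity_iff_integrable_smul' h.md dens_lt_top).mp hH
    simpa only [h.dens, smul_eq_mul] using this
  · rw [piM, integral_withDensity_eq_integral_toReal_smul h.md dens_lt_top]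
    simp only [h.dens, smul_eq_mul]

lemma Pot.int_pi (h : Pot m c p q u v ρ1 ρ2) {H : E × E → ℝ} (hH : Integrable H (piM m ρ1 ρ2)) :
    ∫ z, H z ∂(piM m ρ1 ρ2) = ∫ y, ∫ x, ρ1 x * ρ2 y * (‖x - y‖ ^ m)⁻¹ * H (x, y) := by
  rw [(h.int_prod hH).2, integral_prod_symm _ (h.int_prod hH).1]

lemma Pot.rv_real (h : Pot m c p q u v ρ1 ρ2) (x : E) :
    ∫ y, ρ2 y * (‖x - y‖ ^ m)⁻¹ = c * v x := by
  have m2 := h.m2
  rw [integral_eq_lintegral_of_nonneg_ae
    (Eventually.of_forall fun y => mul_nonneg (h.n2 y) (by positivity))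
    (Measurable.aestronglyMeasurable (by fun_prop)),
    ← ENNReal.toReal_ofReal (mul_pos h.hc (h.pv x)).le, h.rv]
  congr 1
  refine lintegral_congr_ae ?_
  filter_upwards [Measure.ae_ne volume x] with y hy
  rw [Ke_of_ne m (sub_ne_zero.mpr hy.symm), ENNReal.ofReal_mul (h.n2 y), mul_comm]

lemma Pot.int_fst (h : Pot m c p q u v ρ1 ρ2) {G : E → ℝ}
    (hG : Integrable (fun z : E × E => G z.1) (piM m ρ1 ρ2)) :
    ∫ z, G z.1 ∂(piM m ρ1 ρ2) = c * ∫ x, G x * ρ1 x * v x := by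
  rw [(h.int_prod hG).2, integral_prod _ (h.int_prod hG).1, ← integral_const_mul]
  refine integral_congr_ae (Eventually.of_forall fun x => ?_)
  have : ∀ y, ρ1 x * ρ2 y * (‖x - y‖ ^ m)⁻¹ * G x = G x * ρ1 x * (ρ2 y * (‖x - y‖ ^ m)⁻¹) :=
    fun y => by ring
  simp only [this]
  rw [integral_const_mul, h.rv_real]; ring

end Vale.Agent.P100
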