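import Vale.Agent.P100.PohoA

/-! The nonlocal Pohozaev identity. -/

set_option linter.unusedSectionVars false

namespace Vale.Agent.P100

open MeasureTheory Set Filter Topology Metric Module
open scoped ENNReal RealInnerProductSpace

variable {E : Type*} [NormedAddCommGroup E] [InnerProductSpace ℝ E]
  [MeasurableSpace E] [BorelSpace E] [FiniteDimensional ℝ E]

/-- The weighted density. -/
noncomputable def rho (A p : ℝ) (v : E → ℝ) : E → ℝ := fun x => ‖x‖ ^ A * v x ^ p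

/-- Solutions in integral form. -/
structure Sol (m : ℕ) (c p q A B : ℝ) (u v : E → ℝ) : Prop where
  pot : Pot m c p q u v (rho A p v) (rho B q u)
  du : ContDiffOn ℝ 1 u {0}ᶜ
  dv : ContDiffOn ℝ 1 v {0}ᶜ
  dim : finrank ℝ E = m + 2

/-- Radial profiles supported away from the origin. -/
structure Prof (Ψ Ψ' : ℝ → ℝ) (s0 s1 : ℝ) : Prop where
  hd : ∀ s, HasDerivAt Ψ (Ψ' s) s
  hc : Continuous Ψ'
  h0 : 0 < s0
  z0 : ∀ s, s ≤ s0 → Ψ s = 0
  z1 : ∀ s, s1 ≤ s → Ψ s = 0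

variable {m : ℕ} {c p q A B : ℝ} {u v : E → ℝ} {Ψ Ψ' : ℝ → ℝ} {s0 s1 : ℝ}

lemma Sol.swap (h : Sol m c p q A B u v) : Sol m c q p B A v u := ⟨h.pot.swap, h.dv, h.du, h.dim⟩

lemma Sol.nontrivial (h : Sol m c p q A B u v) : Nontrivial E :=
  Module.nontrivial_of_finrank_pos (R := ℝ) (by rw [h.dim]; omega)

lemma contDiff_one_of {Ψ Ψ' : ℝ → ℝ} (hd : ∀ s, HasDerivAt Ψ (Ψ' s) s) (hc : Continuous Ψ') :
    ContDiff ℝ 1 Ψ := by
  rw [contDiff_one_iff_deriv]
  refine ⟨fun s => (hd s).differentiableAt, ?_⟩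
  have : deriv Ψ = Ψ' := funext fun s => (hd s).deriv
  rwa [this]

lemma Prof.cont (g : Prof Ψ Ψ' s0 s1) : Continuous Ψ := (contDiff_one_of g.hd g.hc).continuous

lemma Prof.zero (g : Prof Ψ Ψ' s0 s1) {s : ℝ} (hs : s ∉ Icc s0 s1) : Ψ s = 0 ∧ Ψ' s = 0 := by
  have : Ψ =ᶠ[𝓝 s] fun _ => 0 := by
    rcases not_and_or.mp hs with h | h
    · filter_upwards [Iio_mem_nhds (not_le.mp h)] with t ht using g.z0 t (le_of_lt ht)
    · filter_upwards [Ioi_mem_nhds (not_le.mp h)] with t ht using g.z1 t (le_of_lt ht)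
  exact ⟨this.eq_of_nhds, (g.hd s).unique ((hasDerivAt_const s (0 : ℝ)).congr_of_eventuallyEq this)⟩

/-- The compact shell. -/
def shell (s0 s1 : ℝ) : Set E := {x | ‖x‖ ^ 2 ∈ Icc s0 s1}

lemma norm_le_of_shell {x : E} (hx : x ∈ shell s0 s1) : ‖x‖ ≤ |s1| + 1 := by
  have := hx.2
  nlinarith [le_abs_self s1, abs_nonneg s1, norm_nonneg x]

lemma isClosed_shell : IsClosed (shell s0 s1 : Set E) := isClosed_Icc.preimage (by fun_prop)

lemma isCompact_shell : IsCompact (shell s0 s1 : Set E) :=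
  (isCompact_closedBall (0 : E) (|s1| + 1)).of_isClosed_subset isClosed_shell fun x hx => by
    simpa using norm_le_of_shell hx

lemma Prof.cd (g : Prof Ψ Ψ' s0 s1) : ContDiff ℝ 1 fun x : E => Ψ (‖x‖ ^ 2) :=
  (contDiff_one_of g.hd g.hc).comp (contDiff_norm_sq ℝ)

lemma Prof.tsup (g : Prof Ψ Ψ' s0 s1) : tsupport (fun x : E => Ψ (‖x‖ ^ 2)) ⊆ {0}ᶜ := by
  refine (closure_minimal (fun x hx => ?_) (isClosed_shell (s0 := s0) (s1 := s1))).trans ?_
  · by_contra hc; exact hx (g.zero hc).1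
  · rintro x hx rfl
    have := hx.1
    simp at this; linarith [g.h0]

lemma Prof.csup (g : Prof Ψ Ψ' s0 s1) : HasCompactSupport fun x : E => Ψ (‖x‖ ^ 2) :=
  HasCompactSupport.intro isCompact_shell fun _ hx => (g.zero hx).1

lemma rd_norm (x : E) : HasDerivAt (fun t : ℝ => ‖t • x‖ ^ 2) (2 * ‖x‖ ^ 2) 1 := by
  have : (fun t : ℝ => ‖t • x‖ ^ 2) = fun t => t ^ 2 * ‖x‖ ^ 2 := by
    ext t; rw [norm_smul, mul_pow, Real.norm_eq_abs, sq_abs]
  rw [this]
  simpa using (hasDerivAt_pow 2 (1 : ℝ)).mul_const (‖x‖ ^ 2)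

lemma rd_psi (hd : ∀ s, HasDerivAt Ψ (Ψ' s) s) (x : E) :
    HasDerivAt (fun t : ℝ => Ψ (‖t • x‖ ^ 2)) (2 * ‖x‖ ^ 2 * Ψ' (‖x‖ ^ 2)) 1 := by
  have := (hd (‖(1 : ℝ) • x‖ ^ 2)).comp 1 (rd_norm x)
  refine HasDerivAt.congr_deriv this ?_
  simp [mul_comm]

lemma rd_rpow (A : ℝ) {x : E} (hx : x ≠ 0) :
    HasDerivAt (fun t : ℝ => ‖t • x‖ ^ A) (A * ‖x‖ ^ A) 1 := by
  have hn : 0 < ‖x‖ := norm_pos_iff.mpr hx
  have a1 : HasDerivAt (fun t : ℝ => (t * ‖x‖) ^ A) (A * ‖x‖ ^ A) 1 := by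
    have := ((hasDerivAt_id (1 : ℝ)).mul_const ‖x‖).rpow_const (p := A) (Or.inl (by simpa using hx))
    refine HasDerivAt.congr_deriv this ?_
    simp only [id, one_mul]
    rw [Real.rpow_sub_one hn.ne']; field_simp
  refine a1.congr_of_eventuallyEq ?_
  filter_upwards [Ioi_mem_nhds (zero_lt_one' ℝ)] with t ht
  rw [norm_smul, Real.norm_eq_abs, abs_of_pos ht]

lemma rd_fun (hv : ContDiffOn ℝ 1 v {0}ᶜ) {x : E} (hx : x ≠ 0) :
    HasDerivAt (fun t : ℝ => v (t • x)) (fderiv ℝ v x x) 1 := by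
  have a1 : HasDerivAt (fun t : ℝ => t • x) x 1 := by simpa using (hasDerivAt_id (1 : ℝ)).smul_const x
  have a2 : HasFDerivAt v (fderiv ℝ v x) ((1 : ℝ) • x) := by
    rw [one_smul]
    exact ((hv.contDiffAt (isOpen_compl_singleton.mem_nhds hx)).differentiableAt
      one_ne_zero).hasFDerivAt
  exact a2.comp_hasDerivAt 1 a1

lemma rd_rho (h : Sol m c p q A B u v) {x : E} (hx : x ≠ 0) :
    HasDerivAt (fun t : ℝ => rho A p v (t • x))
      (rho A p v x * (A + p * (fderiv ℝ v x x / v x))) 1 := by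
  have hv := h.pot.pv x
  have := (rd_rpow A hx).mul ((rd_fun h.dv hx).rpow_const (p := p) (Or.inl (h.pot.pv _).ne'))
  refine HasDerivAt.congr_deriv this ?_
  simp only [one_smul, rho]
  rw [Real.rpow_sub_one hv.ne']; ring

lemma rd_kr {ε : ℝ} (hε : 0 < ε) (x y : E) : HasDerivAt (fun t : ℝ => kr m ε (t • x - y))
    (-(m * ⟪x - y, x⟫ * (kr m ε (x - y) / (‖x - y‖ ^ 2 + ε)))) 1 := by
  have a1 : HasDerivAt (fun t : ℝ => t • x - y) x 1 := by
    simpa using ((hasDerivAt_id (1 : ℝ)).smul_const x).sub_const y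
  have a2 := (a1.norm_sq.add_const ε).rpow_const (p := -((m : ℝ) / 2)) (Or.inl (by positivity))
  refine HasDerivAt.congr_deriv a2 ?_
  simp only [one_smul, kr]
  rw [Real.rpow_sub_one (by positivity)]; ring

lemma Sol.cd_rho (h : Sol m c p q A B u v) : ContDiffOn ℝ 1 (rho A p v) {0}ᶜ := by
  refine ContDiffOn.mul (fun x hx => ?_) (h.dv.rpow_const_of_ne fun x _ => (h.pot.pv x).ne')
  exact ((contDiffAt_norm ℝ hx).rpow_const_of_ne (norm_ne_zero_iff.mpr hx)).contDiffWithinAt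

lemma contDiff_kr {ε : ℝ} (hε : 0 < ε) (y : E) : ContDiff ℝ 1 fun x : E => kr m ε (x - y) := by
  unfold kr
  refine ContDiff.rpow_const_of_ne ?_ fun x => by positivity
  exact ((contDiff_norm_sq ℝ).comp (contDiff_id.sub contDiff_const)).add contDiff_const

/-- Weighted divergence of the radial field. -/
noncomputable def HH (m : ℕ) (A : ℝ) (Ψ Ψ' : ℝ → ℝ) (x : E) : ℝ :=
  (m + 2 + A) * Ψ (‖x‖ ^ 2) + 2 * ‖x‖ ^ 2 * Ψ' (‖x‖ ^ 2)

/-- Divergence of the density times the field, divided by the density. -/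
noncomputable def GG (m : ℕ) (A p : ℝ) (Ψ Ψ' : ℝ → ℝ) (v : E → ℝ) (x : E) : ℝ :=
  HH m A Ψ Ψ' x + p * (Ψ (‖x‖ ^ 2) * (fderiv ℝ v x x / v x))

lemma cont_HH (g : Prof Ψ Ψ' s0 s1) : Continuous (HH m A Ψ Ψ' : E → ℝ) := by
  have := g.cont; have := g.hc
  unfold HH; fun_prop

lemma cont_GG (h : Sol m c p q A B u v) (g : Prof Ψ Ψ' s0 s1) : Continuous (GG m A p Ψ Ψ' v) := by
  refine (cont_HH g).add (continuous_const.mul ?_)
  rw [← contDiff_zero (𝕜 := ℝ)]
  refine contDiff_mul_of_tsupport (k := 0) isOpen_compl_singleton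
    (contDiff_zero.mpr g.cd.continuous) ?_ g.tsup
  refine contDiffOn_zero.mpr (ContinuousOn.div ?_ h.pot.cv.continuousOn fun x _ => (h.pot.pv x).ne')
  exact (h.dv.continuousOn_fderiv_of_isOpen isOpen_compl_singleton le_rfl).clm_apply
    continuousOn_id

lemma HH_zero (g : Prof Ψ Ψ' s0 s1) {x : E} (hx : x ∉ shell s0 s1) : HH m A Ψ Ψ' x = 0 := by
  simp [HH, (g.zero hx).1, (g.zero hx).2]

lemma GG_zero (g : Prof Ψ Ψ' s0 s1) {x : E} (hx : x ∉ shell s0 s1) : GG m A p Ψ Ψ' v x = 0 := by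
  simp [GG, HH_zero g hx, (g.zero hx).1]

lemma bdd_shell {G : E → ℝ} (hG : Continuous G) (h0 : ∀ x, x ∉ shell s0 s1 → G x = 0) :
    ∃ C, ∀ x, |G x| ≤ C :=
  hG.bounded_above_of_compact_support (HasCompactSupport.intro isCompact_shell h0)

lemma Pot.integrable_shell {ρ1 ρ2 : E → ℝ} (h : Pot m c p q u v ρ1 ρ2) {H : E × E → ℝ}
    (hH : Measurable H) {C : ℝ} (hb : ∀ z, |H z| ≤ C)
    (h0 : ∀ z : E × E, z.1 ∉ shell s0 s1 → z.2 ∉ shell s0 s1 → H z = 0) :
    Integrable H (piM m ρ1 ρ2) :=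
  h.integrable hH (r := |s1| + 1) hb fun z h1 h2 =>
    h0 z (fun h => not_le.mpr h1 (norm_le_of_shell h)) fun h => not_le.mpr h2 (norm_le_of_shell h)

lemma Pot.integrable_fst {ρ1 ρ2 : E → ℝ} (h : Pot m c p q u v ρ1 ρ2) {G : E → ℝ}
    (hG : Continuous G) (h0 : ∀ x, x ∉ shell s0 s1 → G x = 0) :
    Integrable (fun z : E × E => G z.1) (piM m ρ1 ρ2) := by
  obtain ⟨C, hC⟩ := bdd_shell hG h0
  exact h.integrable_shell (hG.measurable.comp measurable_fst) (fun z => hC z.1)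
    fun z h1 _ => h0 _ h1

lemma int_GG (h : Sol m c p q A B u v) (g : Prof Ψ Ψ' s0 s1) :
    ∫ z, GG m A p Ψ Ψ' v z.1 ∂(piM m (rho A p v) (rho B q u)) =
      ∫ z, HH m A Ψ Ψ' z.1 / (p + 1) ∂(piM m (rho A p v) (rho B q u)) := by
  have := h.nontrivial
  have i1 := h.pot.integrable_fst (cont_GG h g) fun x hx => GG_zero g hx
  have i2 := h.pot.integrable_fst (s0 := s0) (s1 := s1) (G := fun x => HH m A Ψ Ψ' x / (p + 1))
    ((cont_HH g).div_const _) fun x hx => by simp [HH_zero g hx]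
  rw [← sub_eq_zero, ← integral_sub i1 i2,
    h.pot.int_fst (G := fun x => GG m A p Ψ Ψ' v x - HH m A Ψ Ψ' x / (p + 1)) (i1.sub i2)]
  have e := euler (h := fun x => Ψ (‖x‖ ^ 2) * (rho A p v x * v x))
    (contDiff_mul_of_tsupport (k := 1) isOpen_compl_singleton g.cd (h.cd_rho.mul h.dv) g.tsup)
    g.csup.mul_right fun x hx => (rd_psi g.hd x).mul ((rd_rho h hx).mul (rd_fun h.dv hx))
  have hp : p + 1 ≠ 0 := by linarith [h.pot.hp]
  have e2 := congrArg (fun t => p / (p + 1) * t) e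
  simp only [mul_zero, ← integral_const_mul] at e2
  rw [mul_eq_zero]; right
  rw [← e2]
  refine integral_congr_ae (Eventually.of_forall fun x => ?_)
  have := (h.pot.pv x).ne'
  simp only [GG, HH, h.dim, one_smul]
  push_cast
  field_simp
  ring

/-- Ratio of the regularised kernel and the kernel. -/
noncomputable def ie (m : ℕ) (ε : ℝ) (z : E) : ℝ := ‖z‖ ^ m * kr m ε z

lemma ie_nonneg {ε : ℝ} (hε : 0 < ε) (z : E) : 0 ≤ ie m ε z :=
  mul_nonneg (by positivity) (kr_nonneg m hε z)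

lemma ie_le_one {ε : ℝ} (hε : 0 < ε) (z : E) : ie m ε z ≤ 1 := by
  unfold ie kr
  rw [Real.rpow_neg (by positivity), ← sq_rpow_half m (norm_nonneg z), ← div_eq_mul_inv,
    div_le_one (by positivity)]
  exact Real.rpow_le_rpow (by positivity) (by linarith) (by positivity)

lemma cont_ie {ε : ℝ} (hε : 0 < ε) : Continuous (ie m ε : E → ℝ) := by
  have := continuous_kr (E := E) m hε
  unfold ie; fun_prop

lemma eps_tendsto (z : E) :
    Tendsto (fun j : ℕ => ‖z‖ ^ 2 + 1 / ((j : ℝ) + 1)) atTop (𝓝 (‖z‖ ^ 2)) := by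
  simpa using (tendsto_one_div_add_atTop_nhds_zero_nat (𝕜 := ℝ)).const_add (‖z‖ ^ 2)

lemma ie_tendsto {z : E} (hz : z ≠ 0) :
    Tendsto (fun j : ℕ => ie m (1 / ((j : ℝ) + 1)) z) atTop (𝓝 1) := by
  have hn : 0 < ‖z‖ := norm_pos_iff.mpr hz
  have := ((eps_tendsto z).rpow_const (p := -((m : ℝ) / 2)) (Or.inl (by positivity))).const_mul
    (‖z‖ ^ m)
  rw [Real.rpow_neg (by positivity), sq_rpow_half m hn.le, mul_inv_cancel₀ (by positivity)] at this
  exact this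

/-- The regularised force term. -/
noncomputable def T1 (m : ℕ) (Ψ : ℝ → ℝ) (ε : ℝ) (z : E × E) : ℝ :=
  Ψ (‖z.1‖ ^ 2) * (m * ⟪z.1 - z.2, z.1⟫ * (ie m ε (z.1 - z.2) / (‖z.1 - z.2‖ ^ 2 + ε)))

lemma T1_integrable (h : Sol m c p q A B u v) (g : Prof Ψ Ψ' s0 s1) {ε : ℝ} (hε : 0 < ε) :
    Integrable (T1 m Ψ ε) (piM m (rho A p v) (rho B q u)) := by
  obtain ⟨C, hC⟩ := bdd_shell (E := E) (s0 := s0) (s1 := s1) (G := fun x => Ψ (‖x‖ ^ 2) * ‖x‖)
    (g.cd.continuous.mul continuous_norm) fun x hx => by simp [(g.zero hx).1]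
  have c1 := cont_ie (E := E) (m := m) hε
  have c2 := g.cont
  have ct : Continuous (T1 m Ψ ε : E × E → ℝ) := by
    unfold T1
    refine Continuous.mul (by fun_prop) (Continuous.mul (by fun_prop) ?_)
    exact Continuous.div (by fun_prop) (by fun_prop) fun z => by positivity
  refine h.pot.integrable_shell (s0 := s0) (s1 := s1) ct.measurable (C := C * (m * (1 + 1 / ε))) (fun z => ?_)
    fun z h1 _ => by simp [T1, (g.zero h1).1]
  have a1 := abs_real_inner_le_norm (z.1 - z.2) z.1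
  have a2 := ie_nonneg (m := m) hε (z.1 - z.2)
  have a3 := ie_le_one (m := m) hε (z.1 - z.2)
  have a4 : ‖z.1 - z.2‖ / (‖z.1 - z.2‖ ^ 2 + ε) ≤ 1 + 1 / ε := by
    rw [div_le_iff₀ (by positivity)]
    have : 1 / ε * ε = 1 := by field_simp
    have : 0 ≤ 1 / ε * ‖z.1 - z.2‖ ^ 2 := by positivity
    nlinarith [sq_nonneg (‖z.1 - z.2‖ - 1), norm_nonneg (z.1 - z.2)]
  have a5 := hC z.1
  rw [abs_mul, abs_norm] at a5
  unfold T1
  rw [abs_mul, abs_mul, abs_mul, Nat.abs_cast, abs_of_nonneg (by positivity :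
    0 ≤ ie m ε (z.1 - z.2) / (‖z.1 - z.2‖ ^ 2 + ε))]
  calc _ ≤ |Ψ (‖z.1‖ ^ 2)| * (m * (‖z.1 - z.2‖ * ‖z.1‖) * (1 / (‖z.1 - z.2‖ ^ 2 + ε))) := by
        gcongr
    _ = |Ψ (‖z.1‖ ^ 2)| * ‖z.1‖ * (m * (‖z.1 - z.2‖ / (‖z.1 - z.2‖ ^ 2 + ε))) := by ring
    _ ≤ _ := by gcongr; exact le_trans (by positivity) a5

lemma T0_eq_T1 (h : Sol m c p q A B u v) (g : Prof Ψ Ψ' s0 s1) {ε : ℝ} (hε : 0 < ε) :
    ∫ z, GG m A p Ψ Ψ' v z.1 * ie m ε (z.1 - z.2) ∂(piM m (rho A p v) (rho B q u)) =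
      ∫ z, T1 m Ψ ε z ∂(piM m (rho A p v) (rho B q u)) := by
  have := h.nontrivial
  obtain ⟨C, hC⟩ := bdd_shell (cont_GG h g) fun x hx => GG_zero g hx
  have c1 := cont_ie (E := E) (m := m) hε
  have c2 := cont_GG h g
  have i1 : Integrable (fun z : E × E => GG m A p Ψ Ψ' v z.1 * ie m ε (z.1 - z.2))
      (piM m (rho A p v) (rho B q u)) := by
    refine h.pot.integrable_shell (s0 := s0) (s1 := s1) (Continuous.measurable (by fun_prop)) (C := C) (fun z => ?_)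
      fun z h1 _ => by simp [GG_zero g h1]
    rw [abs_mul, abs_of_nonneg (ie_nonneg hε _)]
    exact (mul_le_of_le_one_right (abs_nonneg _) (ie_le_one hε _)).trans (hC _)
  have i2 := T1_integrable h g hε
  rw [← sub_eq_zero, ← integral_sub i1 i2, h.pot.int_pi (i1.sub' i2)]
  refine (integral_congr_ae (Eventually.of_forall fun y => ?_)).trans (integral_zero _ _)
  have e := euler (h := fun x => Ψ (‖x‖ ^ 2) * (rho A p v x * kr m ε (x - y)))
    (contDiff_mul_of_tsupport (k := 1) isOpen_compl_singleton g.cd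
      (h.cd_rho.mul (contDiff_kr hε y).contDiffOn) g.tsup)
    g.csup.mul_right fun x hx => (rd_psi g.hd x).mul ((rd_rho h hx).mul (rd_kr hε x y))
  have e2 := congrArg (fun t => rho B q u y * t) e
  simp only [mul_zero, ← integral_const_mul] at e2
  rw [← e2]
  refine integral_congr_ae ?_
  filter_upwards [Measure.ae_ne volume y] with x hx
  have : ‖x - y‖ ≠ 0 := norm_ne_zero_iff.mpr (sub_ne_zero.mpr hx)
  simp only [GG, HH, T1, ie, h.dim, one_smul]
  push_cast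
  field_simp
  ring

lemma T1_tendsto (h : Sol m c p q A B u v) (g : Prof Ψ Ψ' s0 s1) :
    Tendsto (fun j : ℕ => ∫ z, T1 m Ψ (1 / ((j : ℝ) + 1)) z ∂(piM m (rho A p v) (rho B q u)))
      atTop (𝓝 (∫ z, HH m A Ψ Ψ' z.1 / (p + 1) ∂(piM m (rho A p v) (rho B q u)))) := by
  have := h.nontrivial
  have hε : ∀ j : ℕ, 0 < 1 / ((j : ℝ) + 1) := fun j => by positivity
  simp only [← T0_eq_T1 h g (hε _), ← int_GG h g]
  have c2 := cont_GG h g
  refine tendsto_integral_of_dominated_convergence (fun z => ‖GG m A p Ψ Ψ' v z.1‖)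
    (fun j => ?_) (h.pot.integrable_fst c2 fun x hx => GG_zero g hx).norm
    (fun j => Eventually.of_forall fun z => ?_) ?_
  · have c1 := cont_ie (E := E) (m := m) (hε j)
    exact Continuous.aestronglyMeasurable (by fun_prop)
  · rw [norm_mul, Real.norm_eq_abs (ie _ _ _), abs_of_nonneg (ie_nonneg (hε j) _)]
    exact mul_le_of_le_one_right (norm_nonneg _) (ie_le_one (hε j) _)
  · filter_upwards [ae_ne_pi] with z hz
    simpa using (ie_tendsto (m := m) (sub_ne_zero.mpr hz.1)).const_mul (GG m A p Ψ Ψ' v z.1)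

/-- Numerator of the difference quotient of the radial field. -/
noncomputable def qn (Ψ : ℝ → ℝ) (z : E × E) : ℝ :=
  Ψ (‖z.1‖ ^ 2) * ⟪z.1 - z.2, z.1⟫ - Ψ (‖z.2‖ ^ 2) * ⟪z.1 - z.2, z.2⟫

/-- The Pohozaev integrand. -/
noncomputable def PP (m : ℕ) (p q A B : ℝ) (Ψ Ψ' : ℝ → ℝ) (z : E × E) : ℝ :=
  HH m A Ψ Ψ' z.1 / (p + 1) + HH m B Ψ Ψ' z.2 / (q + 1) - m * (qn Ψ z / ‖z.1 - z.2‖ ^ 2)

theorem poho0 (h : Sol m c p q A B u v) (g : Prof Ψ Ψ' s0 s1) {C : ℝ}
    (hC : ∀ z : E × E, |qn Ψ z| ≤ C * ‖z.1 - z.2‖ ^ 2) (hC0 : 0 ≤ C) :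
    ∫ z, PP m p q A B Ψ Ψ' z ∂(piM m (rho A p v) (rho B q u)) = 0 := by
  have := h.nontrivial
  have hε : ∀ j : ℕ, 0 < 1 / ((j : ℝ) + 1) := fun j => by positivity
  have t1 := T1_tendsto h g
  have t2 := T1_tendsto h.swap g
  have sw : ∀ H : E × E → ℝ, ∫ z, H z ∂(piM m (rho B q u) (rho A p v)) =
      ∫ z, H z.swap ∂(piM m (rho A p v) (rho B q u)) := fun H => (h.pot.swap.int_swap H).symm
  have isw : ∀ H : E × E → ℝ, Integrable H (piM m (rho B q u) (rho A p v)) →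
      Integrable (fun z => H z.swap) (piM m (rho A p v) (rho B q u)) := fun H hH => by
    rw [← h.pot.swap.map_swap] at hH
    exact ((MeasurableEquiv.prodComm (α := E) (β := E)).measurableEmbedding.integrable_map_iff).mp hH
  simp only [sw] at t2
  have t3 := t1.add t2
  have c2 := g.cont
  have cq : Continuous (qn Ψ : E × E → ℝ) := by unfold qn; fun_prop
  have q0 : ∀ z : E × E, z.1 ∉ shell s0 s1 → z.2 ∉ shell s0 s1 → qn Ψ z = 0 := fun z h1 h2 => by
    simp [qn, (g.zero h1).1, (g.zero h2).1]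
  have t4 : Tendsto (fun j : ℕ => ∫ z, m * (qn Ψ z * (ie m (1 / ((j : ℝ) + 1)) (z.1 - z.2) /
      (‖z.1 - z.2‖ ^ 2 + 1 / ((j : ℝ) + 1)))) ∂(piM m (rho A p v) (rho B q u))) atTop
      (𝓝 (∫ z, m * (qn Ψ z / ‖z.1 - z.2‖ ^ 2) ∂(piM m (rho A p v) (rho B q u)))) := by
    refine tendsto_integral_of_dominated_convergence _
      (fun j => ?_) (h.pot.int_bound (|s1| + 1) (m * C))
      (fun j => Eventually.of_forall (le_indicator_or (fun z => ?_) fun z h1 h2 => ?_)) ?_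
    · have c1 := cont_ie (E := E) (m := m) (hε j)
      refine Continuous.aestronglyMeasurable (continuous_const.mul (cq.mul ?_))
      exact Continuous.div (by fun_prop) (by fun_prop) fun z => by positivity
    · have a2 := ie_nonneg (m := m) (hε j) (z.1 - z.2)
      have a3 := ie_le_one (m := m) (hε j) (z.1 - z.2)
      have a4 := hε j
      rw [abs_mul, abs_mul, Nat.abs_cast, abs_of_nonneg (by positivity :
        0 ≤ ie m (1 / ((j : ℝ) + 1)) (z.1 - z.2) / (‖z.1 - z.2‖ ^ 2 + 1 / ((j : ℝ) + 1)))]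
      refine mul_le_mul_of_nonneg_left ?_ (Nat.cast_nonneg m)
      calc _ ≤ C * ‖z.1 - z.2‖ ^ 2 * (1 / (‖z.1 - z.2‖ ^ 2 + 1 / ((j : ℝ) + 1))) := by
            gcongr; exact hC z
        _ = C * (‖z.1 - z.2‖ ^ 2 / (‖z.1 - z.2‖ ^ 2 + 1 / ((j : ℝ) + 1))) := by ring
        _ ≤ C := mul_le_of_le_one_right hC0 ((div_le_one (by positivity)).mpr (by linarith))
    · rw [q0 z (fun h => not_le.mpr h1 (norm_le_of_shell h))
        fun h => not_le.mpr h2 (norm_le_of_shell h)]; simp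
    · filter_upwards [ae_ne_pi] with z hz
      have hz' := sub_ne_zero.mpr hz.1
      have := (((ie_tendsto (m := m) hz').div (eps_tendsto (z.1 - z.2))
        (pow_ne_zero 2 (norm_ne_zero_iff.mpr hz'))).const_mul (qn Ψ z)).const_mul (m : ℝ)
      simpa [div_eq_mul_inv] using this
  have e := tendsto_nhds_unique t3 (t4.congr fun j => by
    rw [← integral_add (T1_integrable h g (hε j)) (isw _ (T1_integrable h.swap g (hε j)))]
    refine integral_congr_ae (Eventually.of_forall fun z => ?_)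
    have e1 : ie m (1 / ((j : ℝ) + 1)) (z.2 - z.1) = ie m (1 / ((j : ℝ) + 1)) (z.1 - z.2) := by
      simp only [ie, kr, norm_sub_rev z.2]
    have e2 : ⟪z.2 - z.1, z.2⟫ = -⟪z.1 - z.2, z.2⟫ := by rw [← inner_neg_left, neg_sub]
    simp only [T1, qn, Prod.fst_swap, Prod.snd_swap, e1, e2, norm_sub_rev z.2]
    ring)
  have i1 := h.pot.integrable_fst (s0 := s0) (s1 := s1) (G := fun x => HH m A Ψ Ψ' x / (p + 1))
    ((cont_HH g).div_const _) fun x hx => by simp [HH_zero g hx]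
  have i2 := isw _ (h.pot.swap.integrable_fst (s0 := s0) (s1 := s1) (G := fun x => HH m B Ψ Ψ' x / (q + 1))
    ((cont_HH g).div_const _) fun x hx => by simp [HH_zero g hx])
  have i3 : Integrable (fun z : E × E => m * (qn Ψ z / ‖z.1 - z.2‖ ^ 2))
      (piM m (rho A p v) (rho B q u)) := by
    have := cq.measurable
    refine h.pot.integrable_shell (s0 := s0) (s1 := s1) (by fun_prop) (C := m * C) (fun z => ?_)
      fun z h1 h2 => by simp [q0 z h1 h2]
    rw [abs_mul, Nat.abs_cast, abs_div, abs_of_nonneg (by positivity : 0 ≤ ‖z.1 - z.2‖ ^ 2)]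
    exact mul_le_mul_of_nonneg_left (div_le_of_le_mul₀ (by positivity) hC0 (hC z))
      (Nat.cast_nonneg m)
  simp only [Prod.fst_swap] at e i2
  unfold PP
  rw [integral_sub (i1.fun_add i2) i3, integral_add i1 i2, e, sub_self]

end Vale.Agent.P100
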