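import Vale.Agent.P100.PohoB

/-! The cut-off profile and the Pohozaev identity including the origin. -/

set_option linter.unusedSectionVars false

namespace Vale.Agent.P100

open MeasureTheory Set Filter Topology Metric Module
open scoped ENNReal RealInnerProductSpace

/-- Clamp to the unit interval. -/
noncomputable def cl (t : ℝ) : ℝ := max 0 (min 1 t)

/-- A bump on the unit interval. -/
noncomputable def b0 (t : ℝ) : ℝ := 6 * cl t * (1 - cl t)

/-- A decreasing step. -/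
noncomputable def S0 (t : ℝ) : ℝ := 1 - ∫ s in (0 : ℝ)..t, b0 s

lemma cl_nonneg (t : ℝ) : 0 ≤ cl t := le_max_left _ _

lemma cl_le_one (t : ℝ) : cl t ≤ 1 := max_le zero_le_one (min_le_left _ _)

lemma continuous_b0 : Continuous b0 := by unfold b0 cl; fun_prop

lemma b0_nonneg (t : ℝ) : 0 ≤ b0 t := by
  have := cl_nonneg t; have := sub_nonneg.mpr (cl_le_one t); unfold b0; positivity

lemma b0_le (t : ℝ) : b0 t ≤ 2 := by unfold b0; nlinarith [sq_nonneg (cl t - 1 / 2)]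

lemma b0_lip (s t : ℝ) : |b0 s - b0 t| ≤ 6 * |s - t| := by
  have h1 : |cl s - cl t| ≤ |s - t| := by
    unfold cl
    rw [max_comm 0, max_comm 0]
    refine (abs_max_sub_max_le_abs _ _ _).trans ?_
    simpa using abs_min_sub_min_le_max 1 s 1 t
  have h2 : |1 - cl s - cl t| ≤ 1 :=
    abs_le.mpr ⟨by linarith [cl_le_one s, cl_le_one t], by linarith [cl_nonneg s, cl_nonneg t]⟩
  rw [show b0 s - b0 t = 6 * ((cl s - cl t) * (1 - cl s - cl t)) by unfold b0; ring, abs_mul,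
    abs_mul, abs_of_pos (by norm_num : (0 : ℝ) < 6)]
  nlinarith [abs_nonneg (cl s - cl t), abs_nonneg (1 - cl s - cl t)]

lemma b0_left {t : ℝ} (h : t ≤ 0) : b0 t = 0 := by
  simp [b0, cl, max_eq_left (min_le_of_right_le h)]

lemma b0_right {t : ℝ} (h : 1 ≤ t) : b0 t = 0 := by simp [b0, cl, min_eq_left h]

lemma hasDerivAt_S0 (t : ℝ) : HasDerivAt S0 (-b0 t) t :=
  (continuous_b0.integral_hasStrictDerivAt 0 t).hasDerivAt.const_sub 1

lemma S0_left {t : ℝ} (h : t ≤ 0) : S0 t = 1 := by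
  have : ∫ s in (0 : ℝ)..t, b0 s = ∫ _ in (0 : ℝ)..t, (0 : ℝ) :=
    intervalIntegral.integral_congr fun s hs => b0_left (by rw [uIcc_of_ge h] at hs; exact hs.2)
  simp [S0, this]

lemma S0_right {t : ℝ} (h : 1 ≤ t) : S0 t = 0 := by
  have h1 : ∫ s in (1 : ℝ)..t, b0 s = ∫ _ in (1 : ℝ)..t, (0 : ℝ) :=
    intervalIntegral.integral_congr fun s hs => b0_right (by rw [uIcc_of_le h] at hs; exact hs.1)
  have h2 : ∫ s in (0 : ℝ)..1, b0 s = ∫ s in (0 : ℝ)..1, (6 * s - 6 * s ^ 2) :=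
    intervalIntegral.integral_congr fun s hs => by
      rw [uIcc_of_le zero_le_one] at hs
      simp only [b0, cl, min_eq_right hs.2, max_eq_right hs.1]; ring
  have h3 : ∫ s in (0 : ℝ)..1, (6 * s - 6 * s ^ 2) = 1 := by
    rw [intervalIntegral.integral_sub (Continuous.intervalIntegrable (by fun_prop) _ _)
      (Continuous.intervalIntegrable (by fun_prop) _ _)]
    rw [intervalIntegral.integral_const_mul, intervalIntegral.integral_const_mul, integral_id,
      integral_pow]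
    norm_num
  rw [S0, ← intervalIntegral.integral_add_adjacent_intervals (b := 1)
    (continuous_b0.intervalIntegrable _ _) (continuous_b0.intervalIntegrable _ _), h1, h2, h3]
  simp

lemma S0_anti : Antitone S0 :=
  antitone_of_deriv_nonpos (fun t => (hasDerivAt_S0 t).differentiableAt) fun t => by
    rw [(hasDerivAt_S0 t).deriv]; exact neg_nonpos.mpr (b0_nonneg t)

lemma S0_nonneg (t : ℝ) : 0 ≤ S0 t := by
  rw [← S0_right (le_max_left 1 t)]; exact S0_anti (le_max_right _ _)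

lemma S0_le_one (t : ℝ) : S0 t ≤ 1 := by
  rw [← S0_left (min_le_left 0 t)]; exact S0_anti (min_le_right _ _)

/-- The cut-off profile, equal to one up to `a` and zero from `a + D` on. -/
noncomputable def Ps (a D s : ℝ) : ℝ := S0 ((s - a) / D)

/-- Minus the derivative of the profile. -/
noncomputable def be (a D s : ℝ) : ℝ := b0 ((s - a) / D) / D

section prof
variable {a D : ℝ}

lemma hasDerivAt_Ps (s : ℝ) : HasDerivAt (Ps a D) (-be a D s) s := by
  have := (hasDerivAt_S0 ((s - a) / D)).comp s (((hasDerivAt_id s).sub_const a).div_const D)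
  refine HasDerivAt.congr_deriv this ?_
  unfold be; ring

lemma continuous_be : Continuous (be a D) := by
  have := continuous_b0; unfold be; fun_prop

lemma continuous_Ps : Continuous (Ps a D) :=
  continuous_iff_continuousAt.mpr fun s => (hasDerivAt_Ps s).continuousAt

lemma Ps_nonneg (s : ℝ) : 0 ≤ Ps a D s := S0_nonneg _

lemma Ps_le_one (s : ℝ) : Ps a D s ≤ 1 := S0_le_one _

lemma Ps_left (hD : 0 < D) {s : ℝ} (h : s ≤ a) : Ps a D s = 1 :=
  S0_left (div_nonpos_of_nonpos_of_nonneg (by linarith) hD.le)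

lemma Ps_right (hD : 0 < D) {s : ℝ} (h : a + D ≤ s) : Ps a D s = 0 :=
  S0_right ((one_le_div hD).mpr (by linarith))

lemma be_left (hD : 0 < D) {s : ℝ} (h : s ≤ a) : be a D s = 0 := by
  rw [be, b0_left (div_nonpos_of_nonpos_of_nonneg (by linarith) hD.le), zero_div]

lemma be_right (hD : 0 < D) {s : ℝ} (h : a + D ≤ s) : be a D s = 0 := by
  rw [be, b0_right ((one_le_div hD).mpr (by linarith)), zero_div]

lemma be_nonneg (hD : 0 < D) (s : ℝ) : 0 ≤ be a D s := div_nonneg (b0_nonneg _) hD.le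

lemma be_le (hD : 0 < D) (s : ℝ) : be a D s ≤ 2 / D := div_le_div_of_nonneg_right (b0_le _) hD.le

lemma be_lip (hD : 0 < D) (s t : ℝ) : |be a D s - be a D t| ≤ 6 / D ^ 2 * |s - t| := by
  unfold be
  rw [← sub_div, abs_div, abs_of_pos hD, div_le_iff₀ hD]
  refine (b0_lip _ _).trans (le_of_eq ?_)
  rw [← sub_div, abs_div, abs_of_pos hD, sub_sub_sub_cancel_right]
  field_simp

lemma Ps_mvt (s t : ℝ) : ∃ ξ, |ξ - s| ≤ |s - t| ∧ Ps a D s - Ps a D t = -be a D ξ * (s - t) := by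
  rcases lt_trichotomy s t with h | h | h
  · obtain ⟨ξ, h1, h2⟩ := exists_hasDerivAt_eq_slope (Ps a D) (fun s => -be a D s) h
      continuous_Ps.continuousOn fun x _ => hasDerivAt_Ps x
    refine ⟨ξ, ?_, ?_⟩
    · rw [abs_of_pos (by linarith [h1.1]), abs_of_neg (by linarith)]; linarith [h1.2]
    · rw [h2]; field_simp [(sub_pos.mpr h).ne']; ring
  · exact ⟨s, by simp, by simp [h]⟩
  · obtain ⟨ξ, h1, h2⟩ := exists_hasDerivAt_eq_slope (Ps a D) (fun s => -be a D s) h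
      continuous_Ps.continuousOn fun x _ => hasDerivAt_Ps x
    refine ⟨ξ, ?_, ?_⟩
    · rw [abs_of_neg (by linarith [h1.2]), abs_of_pos (by linarith)]; linarith [h1.1]
    · rw [h2]; field_simp [(sub_pos.mpr h).ne']

lemma s_be_le (ha : 0 ≤ a) (hD : 0 < D) (s : ℝ) : s * be a D s ≤ (a + D) * (2 / D) := by
  by_cases h : a + D ≤ s
  · rw [be_right hD h, mul_zero]; positivity
  · exact mul_le_mul (not_le.mp h).le (be_le hD s) (be_nonneg hD s) (by positivity)

end prof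

variable {E : Type*} [NormedAddCommGroup E] [InnerProductSpace ℝ E]
  [MeasurableSpace E] [BorelSpace E] [FiniteDimensional ℝ E]

lemma sq_sub_eq (x y : E) : ‖x‖ ^ 2 - ‖y‖ ^ 2 = 2 * ⟪x - y, x⟫ - ‖x - y‖ ^ 2 := by
  rw [norm_sub_sq_real, inner_sub_left, real_inner_self_eq_norm_sq, real_inner_comm]; ring

lemma qn_eq (Ψ : ℝ → ℝ) (z : E × E) : qn Ψ z = (Ψ (‖z.1‖ ^ 2) + Ψ (‖z.2‖ ^ 2)) / 2 * ‖z.1 - z.2‖ ^ 2 +
    (Ψ (‖z.1‖ ^ 2) - Ψ (‖z.2‖ ^ 2)) * (‖z.1‖ ^ 2 - ‖z.2‖ ^ 2) / 2 := by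
  unfold qn
  rw [norm_sub_sq_real, inner_sub_left, inner_sub_left, real_inner_self_eq_norm_sq,
    real_inner_self_eq_norm_sq, real_inner_comm]; ring

lemma abs_sq_sub_le (x y : E) : |‖x‖ ^ 2 - ‖y‖ ^ 2| ≤ (‖x‖ + ‖y‖) * ‖x - y‖ := by
  rw [sq_sub_sq, abs_mul, abs_of_nonneg (by positivity)]
  exact mul_le_mul_of_nonneg_left (abs_norm_sub_norm_le x y) (by positivity)

lemma cross_le {a D : ℝ} (ha : 0 ≤ a) (hD : 0 < D) (x y : E) :
    |(Ps a D (‖x‖ ^ 2) - Ps a D (‖y‖ ^ 2)) * (‖x‖ ^ 2 - ‖y‖ ^ 2)| ≤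
      (32 * (a + D) / D + 4) * ‖x - y‖ ^ 2 := by
  wlog hxy : ‖x‖ ≤ ‖y‖ generalizing x y
  · have := this y x (not_le.mp hxy).le
    rwa [norm_sub_rev, ← neg_mul_neg, neg_sub, neg_sub] at this
  have h0 : 0 ≤ 32 * (a + D) / D * ‖x - y‖ ^ 2 := by positivity
  have nx := norm_nonneg x
  by_cases h : ‖y‖ ^ 2 ≤ 4 * (a + D)
  · obtain ⟨ξ, -, h2⟩ := Ps_mvt (a := a) (D := D) (‖x‖ ^ 2) (‖y‖ ^ 2)
    have h3 := abs_sq_sub_le x y
    have h4 : (‖x‖ ^ 2 - ‖y‖ ^ 2) ^ 2 ≤ ((‖x‖ + ‖y‖) * ‖x - y‖) ^ 2 := by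
      rw [← sq_abs]; exact pow_le_pow_left₀ (abs_nonneg _) h3 2
    have h5 : (‖x‖ + ‖y‖) ^ 2 ≤ 16 * (a + D) := by nlinarith
    rw [h2, mul_assoc, ← sq, abs_mul, abs_neg, abs_of_nonneg (be_nonneg hD ξ),
      abs_of_nonneg (sq_nonneg _)]
    calc _ ≤ 2 / D * (16 * (a + D) * ‖x - y‖ ^ 2) := by
          refine mul_le_mul (be_le hD ξ) (h4.trans ?_) (sq_nonneg _) (by positivity)
          rw [mul_pow]; exact mul_le_mul_of_nonneg_right h5 (sq_nonneg _)
      _ = 32 * (a + D) / D * ‖x - y‖ ^ 2 := by ring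
      _ ≤ _ := by nlinarith [sq_nonneg ‖x - y‖]
  · have h := not_le.mp h
    rw [Ps_right hD (s := ‖y‖ ^ 2) (by linarith)]
    by_cases h1 : a + D ≤ ‖x‖ ^ 2
    · rw [Ps_right hD h1]; simp; positivity
    · have h1 := not_le.mp h1
      have h2 : 2 * ‖x‖ ≤ ‖y‖ := by nlinarith
      have h3 : ‖y‖ - ‖x‖ ≤ ‖x - y‖ := by rw [norm_sub_rev]; exact norm_sub_norm_le y x
      have h4 : |Ps a D (‖x‖ ^ 2) - 0| ≤ 1 := by
        rw [sub_zero, abs_of_nonneg (Ps_nonneg _)]; exact Ps_le_one _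
      have h5 : |‖x‖ ^ 2 - ‖y‖ ^ 2| ≤ 4 * ‖x - y‖ ^ 2 := by
        rw [abs_of_nonpos (by nlinarith)]; nlinarith
      rw [abs_mul]
      nlinarith [abs_nonneg (‖x‖ ^ 2 - ‖y‖ ^ 2), abs_nonneg (Ps a D (‖x‖ ^ 2) - 0)]

lemma qn_bound {a D : ℝ} (ha : 0 ≤ a) (hD : 0 < D) (z : E × E) :
    |qn (Ps a D) z| ≤ (16 * (a + D) / D + 3) * ‖z.1 - z.2‖ ^ 2 := by
  have h1 := abs_le.mp (cross_le ha hD z.1 z.2)
  have e : 32 * (a + D) / D = 2 * (16 * (a + D) / D) := by ring
  rw [e] at h1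
  have a1 : 0 ≤ Ps a D (‖z.1‖ ^ 2) := S0_nonneg _
  have a2 : 0 ≤ Ps a D (‖z.2‖ ^ 2) := S0_nonneg _
  have a3 : Ps a D (‖z.1‖ ^ 2) ≤ 1 := S0_le_one _
  have a4 : Ps a D (‖z.2‖ ^ 2) ≤ 1 := S0_le_one _
  rw [qn_eq, abs_le]
  constructor <;> nlinarith [sq_nonneg ‖z.1 - z.2‖, h1.1, h1.2]

variable {m : ℕ} {c p q A B : ℝ} {u v : E → ℝ}

lemma HH_bound {a D : ℝ} (ha : 0 ≤ a) (hD : 0 < D) (x : E) :
    |HH m A (Ps a D) (fun s => -be a D s) x| ≤ |m + 2 + A| + 2 * ((a + D) * (2 / D)) := by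
  unfold HH
  refine (abs_add_le _ _).trans (add_le_add ?_ ?_)
  · rw [abs_mul, abs_of_nonneg (Ps_nonneg _)]
    exact mul_le_of_le_one_right (abs_nonneg _) (S0_le_one _)
  · have := be_nonneg (a := a) hD (‖x‖ ^ 2)
    rw [mul_neg, abs_neg, abs_of_nonneg (by positivity), mul_assoc]
    exact mul_le_mul_of_nonneg_left (s_be_le ha hD _) (by norm_num)

lemma PP_bound (hp : 0 < p) (hq : 0 < q) {a D : ℝ} (ha : 0 ≤ a) (hD : 0 < D) (z : E × E) :
    |PP m p q A B (Ps a D) (fun s => -be a D s) z| ≤ |m + 2 + A| + |m + 2 + B| +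
      4 * ((a + D) * (2 / D)) + m * (16 * (a + D) / D + 3) := by
  have d : ∀ t r : ℝ, 0 < r → |t / (r + 1)| ≤ |t| := fun t r hr => by
    rw [abs_div, abs_of_pos (by linarith : 0 < r + 1)]
    exact div_le_self (abs_nonneg _) (by linarith)
  have h1 := (d _ p hp).trans (HH_bound (m := m) (A := A) ha hD z.1)
  have h2 := (d _ q hq).trans (HH_bound (m := m) (A := B) ha hD z.2)
  have h3 : |m * (qn (Ps a D) z / ‖z.1 - z.2‖ ^ 2)| ≤ m * (16 * (a + D) / D + 3) := by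
    rw [abs_mul, Nat.abs_cast, abs_div, abs_of_nonneg (by positivity : 0 ≤ ‖z.1 - z.2‖ ^ 2)]
    exact mul_le_mul_of_nonneg_left (div_le_of_le_mul₀ (by positivity) (by positivity)
      (qn_bound ha hD z)) (Nat.cast_nonneg m)
  unfold PP
  refine (abs_sub _ _).trans ((add_le_add (abs_add_le _ _) le_rfl).trans ?_)
  linarith

lemma PP_zero {a D : ℝ} (hD : 0 < D) {z : E × E} (h1 : a + D ≤ ‖z.1‖ ^ 2) (h2 : a + D ≤ ‖z.2‖ ^ 2) :
    PP m p q A B (Ps a D) (fun s => -be a D s) z = 0 := by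
  simp [PP, HH, qn, Ps_right hD h1, Ps_right hD h2, be_right hD h1, be_right hD h2]

lemma measurable_PP (a D : ℝ) :
    Measurable (PP m p q A B (Ps a D) (fun s => -be a D s) : E × E → ℝ) := by
  have := (continuous_Ps (a := a) (D := D)).measurable
  have := (continuous_be (a := a) (D := D)).measurable
  unfold PP HH qn; fun_prop

lemma PP_integrable (h : Sol m c p q A B u v) {a D : ℝ} (ha : 0 ≤ a) (hD : 0 < D) :
    Integrable (PP m p q A B (Ps a D) (fun s => -be a D s)) (piM m (rho A p v) (rho B q u)) :=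
  h.pot.integrable (measurable_PP a D) (r := a + D + 1) (PP_bound h.pot.hp h.pot.hq ha hD)
    fun z h1 h2 => PP_zero hD (by nlinarith) (by nlinarith)

theorem poho (h : Sol m c p q A B u v) {a D : ℝ} (ha : 1 ≤ a) (hD : 0 < D) :
    ∫ z, PP m p q A B (Ps a D) (fun s => -be a D s) z ∂(piM m (rho A p v) (rho B q u)) = 0 := by
  have := h.nontrivial
  have hδ : ∀ j : ℕ, 0 < 1 / ((j : ℝ) + 1) := fun j => by positivity
  have hδ1 : ∀ j : ℕ, 1 / ((j : ℝ) + 1) ≤ 1 := fun j => by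
    rw [div_le_one (by positivity)]; linarith [Nat.cast_nonneg (α := ℝ) j]
  have e : ∀ δ : ℝ, 0 < δ → δ ≤ 1 →
      ∫ z, PP m p q A B (Ps δ δ) (fun s => -be δ δ s) z ∂(piM m (rho A p v) (rho B q u)) =
      ∫ z, PP m p q A B (Ps a D) (fun s => -be a D s) z ∂(piM m (rho A p v) (rho B q u)) := by
    intro δ h0 h1
    have g : Prof (fun s => Ps a D s - Ps δ δ s) (fun s => -be a D s - -be δ δ s) δ (a + D + 2) :=
      ⟨fun s => (hasDerivAt_Ps s).sub (hasDerivAt_Ps s), continuous_be.neg.sub continuous_be.neg,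
        h0, fun s hs => by rw [Ps_left hD (by linarith), Ps_left h0 hs, sub_self],
        fun s hs => by rw [Ps_right hD (by linarith), Ps_right h0 (by linarith), sub_self]⟩
    have := poho0 h g (C := (16 * (a + D) / D + 3) + (16 * (δ + δ) / δ + 3)) (fun z => by
      have e1 : qn (fun s => Ps a D s - Ps δ δ s) z = qn (Ps a D) z - qn (Ps δ δ) z := by
        unfold qn; ring
      rw [e1, add_mul]
      exact (abs_sub _ _).trans (add_le_add (qn_bound (by linarith) hD z) (qn_bound h0.le h0 z)))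
      (by positivity)
    rw [eq_comm, ← sub_eq_zero, ← integral_sub (PP_integrable h (by linarith) hD)
      (PP_integrable h h0.le h0), ← this]
    refine integral_congr_ae (Eventually.of_forall fun z => ?_)
    simp only [PP, HH, qn]; ring
  have t : Tendsto (fun j : ℕ => ∫ z, PP m p q A B (Ps (1 / ((j : ℝ) + 1)) (1 / ((j : ℝ) + 1)))
      (fun s => -be (1 / ((j : ℝ) + 1)) (1 / ((j : ℝ) + 1)) s) z ∂(piM m (rho A p v) (rho B q u)))
      atTop (𝓝 (∫ _, (0 : ℝ) ∂(piM m (rho A p v) (rho B q u)))) := by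
    refine tendsto_integral_of_dominated_convergence _
      (fun j => (measurable_PP _ _).aestronglyMeasurable)
      (h.pot.int_bound 2 (|m + 2 + A| + |m + 2 + B| + 16 + m * 35))
      (fun j => Eventually.of_forall (le_indicator_or (fun z => ?_) fun z h1 h2 => ?_)) ?_
    · refine (PP_bound h.pot.hp h.pot.hq (hδ j).le (hδ j) z).trans (le_of_eq ?_)
      have := (hδ j).ne'
      generalize 1 / ((j : ℝ) + 1) = δ at this ⊢
      field_simp; ring
    · exact PP_zero (hδ j) (by nlinarith [hδ1 j]) (by nlinarith [hδ1 j])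
    · filter_upwards [ae_ne_pi] with z hz
      have n1 : 0 < ‖z.1‖ ^ 2 / 2 := by have := norm_pos_iff.mpr hz.2.1; positivity
      have n2 : 0 < ‖z.2‖ ^ 2 / 2 := by have := norm_pos_iff.mpr hz.2.2; positivity
      have t0 := tendsto_one_div_add_atTop_nhds_zero_nat (𝕜 := ℝ)
      refine tendsto_const_nhds.congr' ?_
      filter_upwards [t0.eventually (gt_mem_nhds n1), t0.eventually (gt_mem_nhds n2)] with j a1 a2
      exact (PP_zero (hδ j) (by linarith) (by linarith)).symm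
  simp only [e _ (hδ _) (hδ1 _), integral_zero] at t
  exact tendsto_nhds_unique tendsto_const_nhds t

end Vale.Agent.P100
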