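import Vale.Agent.P100.Green
import Vale.Agent.P100.MainC

/-! Truncated fundamental solutions. -/

set_option linter.unusedSectionVars false

namespace Vale.Agent.P100

open MeasureTheory Set Filter Topology Metric Module
open scoped ENNReal RealInnerProductSpace

/-- Truncated power. -/
noncomputable def Gf (k t σ : ℝ) : ℝ := max σ t ^ (-k) + k * t ^ (-k - 1) * max (t - σ) 0

/-- Minus the derivative of the truncated power. -/
noncomputable def Df (k t σ : ℝ) : ℝ := k * max σ t ^ (-k - 1)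

/-- Approximate point mass. -/
noncomputable def dl (k t s : ℝ) : ℝ := 4 * k * (k + 1) * t ^ (-k - 1) * max (t - s) 0

/-- Truncated fundamental solution. -/
noncomputable def gam (k ε R s : ℝ) : ℝ := ∫ σ in R..s, (Gf k R σ - Gf k ε σ)

variable {k t ε R s σ : ℝ}

lemma cont_max_rpow (ht : 0 < t) (a : ℝ) : Continuous fun σ : ℝ => max σ t ^ a :=
  (continuous_id.max continuous_const).rpow_const fun _ =>
    Or.inl (ht.trans_le (le_max_right _ _)).ne'

lemma Gf_cont (ht : 0 < t) : Continuous (Gf k t) :=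
  (cont_max_rpow ht _).add (by fun_prop)

lemma Df_cont (ht : 0 < t) : Continuous (Df k t) := continuous_const.mul (cont_max_rpow ht _)

lemma dl_cont : Continuous (dl k t) := by unfold dl; fun_prop

lemma Gf_of_le (h : t ≤ σ) : Gf k t σ = σ ^ (-k) := by
  rw [Gf, max_eq_left h, max_eq_right (sub_nonpos.mpr h), mul_zero, add_zero]

lemma Gf_deriv (ht : 0 < t) (σ : ℝ) : HasDerivAt (Gf k t) (-Df k t σ) σ := by
  refine hasDerivAt_of_hasDerivAt_of_ne' (g := fun σ => -Df k t σ) (x := t) (fun y hy => ?_)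
    (Gf_cont ht).continuousAt (Df_cont ht).neg.continuousAt σ
  rcases lt_or_gt_of_ne hy with h | h
  · have e : Gf k t =ᶠ[𝓝 y] fun σ => t ^ (-k) + k * t ^ (-k - 1) * (t - σ) := by
      filter_upwards [Iio_mem_nhds h] with z hz
      rw [Gf, max_eq_right (le_of_lt hz), max_eq_left (sub_nonneg.mpr (le_of_lt hz))]
    refine HasDerivAt.congr_of_eventuallyEq ?_ e
    refine ((((hasDerivAt_id y).const_sub t).const_mul (k * t ^ (-k - 1))).const_add
      (t ^ (-k))).congr_deriv ?_
    rw [Df, max_eq_right h.le]; ring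
  · have e : Gf k t =ᶠ[𝓝 y] fun σ => σ ^ (-k) := by
      filter_upwards [Ioi_mem_nhds h] with z hz using Gf_of_le (le_of_lt hz)
    refine HasDerivAt.congr_of_eventuallyEq ?_ e
    refine (Real.hasDerivAt_rpow_const (x := y) (p := -k) (Or.inl (ht.trans h).ne')).congr_deriv ?_
    rw [Df, max_eq_left h.le]; ring

lemma Gf_nonneg (hk : 0 ≤ k) (ht : 0 < t) : 0 ≤ Gf k t σ := by
  have : 0 < max σ t := ht.trans_le (le_max_right _ _)
  have : 0 ≤ max (t - σ) 0 := le_max_right _ _
  unfold Gf; positivity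

lemma Gf_le (hk : 0 ≤ k) (ht : 0 < t) (hσ : 0 ≤ σ) : Gf k t σ ≤ (1 + k) * t ^ (-k) := by
  have h1 : max σ t ^ (-k) ≤ t ^ (-k) :=
    Real.rpow_le_rpow_of_nonpos ht (le_max_right _ _) (by linarith)
  have h2 : max (t - σ) 0 ≤ t := max_le (by linarith) ht.le
  have h3 : t ^ (-k - 1) * t = t ^ (-k) := by rw [← Real.rpow_add_one ht.ne']; congr 1; ring
  have h4 : k * t ^ (-k - 1) * max (t - σ) 0 ≤ k * t ^ (-k - 1) * t := by gcongr
  unfold Gf; nlinarith

lemma Gf_mono (hk : 0 ≤ k) (hε : 0 < ε) (h : ε ≤ R) (σ : ℝ) : Gf k R σ ≤ Gf k ε σ := by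
  have hR := hε.trans_le h
  have d := fun y => (Gf_deriv (k := k) hε y).fun_sub (Gf_deriv (k := k) hR y)
  have a : Antitone fun y => Gf k ε y - Gf k R y := by
    refine antitone_of_deriv_nonpos (fun y => (d y).differentiableAt) fun y => ?_
    rw [(d y).deriv]
    have : max y R ^ (-k - 1) ≤ max y ε ^ (-k - 1) := Real.rpow_le_rpow_of_nonpos
      (hε.trans_le (le_max_right _ _)) (max_le_max_left _ h) (by linarith)
    have := mul_le_mul_of_nonneg_left this hk
    unfold Df; linarith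
  have := a (le_max_left σ R)
  simp only [Gf_of_le (le_max_right σ R), Gf_of_le (h.trans (le_max_right σ R))] at this
  linarith

lemma Gf_le' (hk : 0 ≤ k) (hσ : 0 < σ) : Gf k t σ ≤ σ ^ (-k) := by
  rcases le_total t σ with h | h
  · exact (Gf_of_le h).le
  · exact (Gf_mono hk hσ h σ).trans (Gf_of_le le_rfl).le

lemma dl_eq (ht : 0 < t) (s : ℝ) : 4 * k * Gf k t s - 4 * s * Df k t s = dl k t s := by
  unfold Gf Df dl
  rcases le_total t s with h | h
  · rw [max_eq_left h, max_eq_right (sub_nonpos.mpr h)]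
    have : s ^ (-k - 1) * s = s ^ (-k) := by
      rw [← Real.rpow_add_one (ht.trans_le h).ne']; congr 1; ring
    rw [← this]; ring
  · rw [max_eq_right h, max_eq_left (sub_nonneg.mpr h)]
    have : t ^ (-k - 1) * t = t ^ (-k) := by rw [← Real.rpow_add_one ht.ne']; congr 1; ring
    rw [← this]; ring

lemma dl_nonneg (hk : 0 ≤ k) (ht : 0 < t) : 0 ≤ dl k t s := by
  have : 0 ≤ max (t - s) 0 := le_max_right _ _
  unfold dl; positivity

lemma dl_zero (h : t ≤ s) : dl k t s = 0 := by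
  rw [dl, max_eq_right (sub_nonpos.mpr h), mul_zero]

lemma gam_deriv (hε : 0 < ε) (hR : 0 < R) (s : ℝ) :
    HasDerivAt (gam k ε R) (Gf k R s - Gf k ε s) s :=
  (((Gf_cont hR).sub (Gf_cont hε)).integral_hasStrictDerivAt R s).hasDerivAt

lemma gam_deriv2 (hε : 0 < ε) (hR : 0 < R) (s : ℝ) :
    HasDerivAt (fun s => Gf k R s - Gf k ε s) (-Df k R s - -Df k ε s) s :=
  (Gf_deriv hR s).fun_sub (Gf_deriv hε s)

lemma gam_contDiff (hε : 0 < ε) (hR : 0 < R) : ContDiff ℝ 2 (gam k ε R) := by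
  rw [show (2 : WithTop ℕ∞) = 1 + 1 from rfl, contDiff_succ_iff_deriv]
  refine ⟨fun s => (gam_deriv hε hR s).differentiableAt, by simp, ?_⟩
  rw [show deriv (gam k ε R) = _ from funext fun s => (gam_deriv hε hR s).deriv]
  exact contDiff_one_of (gam_deriv2 hε hR) ((Df_cont hR).neg.sub (Df_cont hε).neg)

lemma gam_zero (h : ε ≤ R) (hs : R ≤ s) : gam k ε R s = 0 := by
  rw [gam, intervalIntegral.integral_congr (g := fun _ => 0), intervalIntegral.integral_zero]
  intro σ hσ
  rw [uIcc_of_le hs] at hσ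
  simp only [Gf_of_le hσ.1, Gf_of_le (h.trans hσ.1), sub_self]

lemma gam_eq : gam k ε R s = ∫ σ in s..R, (Gf k ε σ - Gf k R σ) := by
  rw [gam, intervalIntegral.integral_symm, ← intervalIntegral.integral_neg]; simp

lemma gam_nonneg (hk : 0 ≤ k) (hε : 0 < ε) (h : ε ≤ R) (s : ℝ) : 0 ≤ gam k ε R s := by
  rcases le_total R s with hs | hs
  · exact (gam_zero h hs).ge
  · rw [gam_eq]
    exact intervalIntegral.integral_nonneg hs fun σ _ => sub_nonneg.mpr (Gf_mono hk hε h σ)

lemma ii_rpow (hs : 0 < s) (h : s ≤ R) (a : ℝ) :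
    IntervalIntegrable (fun σ : ℝ => σ ^ a) volume s R :=
  intervalIntegral.intervalIntegrable_rpow (Or.inr (by
    rw [uIcc_of_le h]; exact fun h' => absurd h'.1 (not_le.mpr hs)))

lemma int_rpow (hk : 1 < k) (hs : 0 < s) (h : s ≤ R) :
    ∫ σ in s..R, σ ^ (-k) = s ^ (1 - k) / (k - 1) - R ^ (1 - k) / (k - 1) := by
  rw [integral_rpow (Or.inr ⟨by linarith, by
    rw [uIcc_of_le h]; exact fun h' => absurd h'.1 (not_le.mpr hs)⟩), show -k + 1 = 1 - k by ring]
  have : k - 1 ≠ 0 := by linarith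
  have : 1 - k ≠ 0 := by linarith
  field_simp; ring

lemma gam_le (hk : 1 < k) (hε : 0 < ε) (h : ε ≤ R) (hs : 0 < s) :
    gam k ε R s ≤ s ^ (1 - k) / (k - 1) := by
  have hR := hε.trans_le h
  have k1 : 0 < k - 1 := by linarith
  rcases le_total R s with h1 | h1
  · rw [gam_zero h h1]; positivity
  · rw [gam_eq]
    refine (intervalIntegral.integral_mono_on h1 (((Gf_cont hε).sub (Gf_cont hR)).intervalIntegrable
      _ _) (ii_rpow hs h1 (-k)) fun σ hσ => ?_).trans ?_
    · have := Gf_le' (t := ε) (by linarith : 0 ≤ k) (hs.trans_le hσ.1)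
      have := Gf_nonneg (σ := σ) (by linarith : 0 ≤ k) hR
      simp only [Pi.sub_apply]; linarith
    · rw [int_rpow hk hs h1]
      exact sub_le_self _ (by positivity)

lemma gam_ge (hk : 0 ≤ k) (hε : 0 < ε) (h : ε ≤ s) (h1 : s ≤ R) :
    (∫ σ in s..R, σ ^ (-k)) - (1 + k) * R ^ (1 - k) ≤ gam k ε R s := by
  have hs := hε.trans_le h
  have hR := hs.trans_le h1
  rw [gam_eq]
  refine le_trans ?_ (intervalIntegral.integral_mono_on (f := fun σ => σ ^ (-k) - (1 + k) * R ^ (-k))
    h1 ((ii_rpow hs h1 (-k)).sub intervalIntegrable_const)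
    (((Gf_cont hε).sub (Gf_cont hR)).intervalIntegrable _ _) fun σ hσ => ?_)
  · rw [intervalIntegral.integral_sub (ii_rpow hs h1 (-k)) intervalIntegrable_const,
      intervalIntegral.integral_const, smul_eq_mul]
    have : R ^ (1 - k) = R ^ (-k) * R := by rw [← Real.rpow_add_one hR.ne']; congr 1; ring
    rw [this]
    have : 0 ≤ s * ((1 + k) * R ^ (-k)) := by positivity
    linarith
  · have := Gf_le hk hR (hs.le.trans hσ.1)
    rw [Gf_of_le (h.trans hσ.1)]; linarith

lemma ev_between (hs : 0 < s) : ∀ᶠ j : ℕ in atTop, ((j : ℝ) + 1)⁻¹ ≤ s ∧ s ≤ (j : ℝ) + 1 := by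
  have T : Tendsto (fun j : ℕ => (j : ℝ) + 1) atTop atTop :=
    tendsto_atTop_add_const_right _ _ tendsto_natCast_atTop_atTop
  exact (T.inv_tendsto_atTop.eventually (ge_mem_nhds hs)).and (T.eventually_ge_atTop s)

lemma inv_le_self' (j : ℕ) : ((j : ℝ) + 1)⁻¹ ≤ (j : ℝ) + 1 := by
  have : (1 : ℝ) ≤ j + 1 := by simp
  exact (inv_le_one_of_one_le₀ this).trans this

lemma gam_tendsto (hk : 1 < k) (hs : 0 < s) :
    Tendsto (fun j : ℕ => gam k ((j : ℝ) + 1)⁻¹ (j + 1) s) atTop (𝓝 (s ^ (1 - k) / (k - 1))) := by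
  have T : Tendsto (fun j : ℕ => ((j : ℝ) + 1) ^ (1 - k)) atTop (𝓝 0) := by
    have := (tendsto_rpow_neg_atTop (by linarith : 0 < k - 1)).comp
      (tendsto_atTop_add_const_right _ 1 tendsto_natCast_atTop_atTop)
    simpa [Function.comp_def] using this
  have T2 := ((T.div_const (k - 1)).const_sub (s ^ (1 - k) / (k - 1))).sub (T.const_mul (1 + k))
  simp only [zero_div, sub_zero, mul_zero] at T2
  refine tendsto_of_tendsto_of_tendsto_of_le_of_le' T2 tendsto_const_nhds ?_
    (Eventually.of_forall fun j => gam_le hk (by positivity) (inv_le_self' j) hs)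
  filter_upwards [ev_between hs] with j hj
  rw [← int_rpow hk hs hj.2]
  exact gam_ge (by linarith) (by positivity) hj.1 hj.2

lemma gam_tendsto_one (hs : 0 < s) :
    Tendsto (fun j : ℕ => gam 1 ((j : ℝ) + 1)⁻¹ (j + 1) s) atTop atTop := by
  have T := tendsto_atTop_add_const_right _ (-Real.log s - 2) (Real.tendsto_log_atTop.comp
    (tendsto_atTop_add_const_right _ 1 tendsto_natCast_atTop_atTop))
  refine tendsto_atTop_mono' _ ?_ T
  filter_upwards [ev_between hs] with j hj
  refine le_trans (le_of_eq ?_) (gam_ge zero_le_one (by positivity) hj.1 hj.2)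
  simp only [Real.rpow_neg_one, sub_self, Real.rpow_zero, Function.comp]
  rw [integral_inv_of_pos hs (by positivity), Real.log_div (by positivity) hs.ne']
  ring

end Vale.Agent.P100
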