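import Vale.Agent.P100.Radial

/-! Integral representation of positive superharmonic functions. -/

set_option linter.unusedSectionVars false

namespace Vale.Agent.P100

open MeasureTheory Set Filter Topology Metric Module
open scoped ENNReal RealInnerProductSpace

variable {E : Type*} [NormedAddCommGroup E] [InnerProductSpace ℝ E]
  [MeasurableSpace E] [BorelSpace E] [FiniteDimensional ℝ E]

variable (E) in
/-- Half the dimension. -/
noncomputable def kk : ℝ := (finrank ℝ E : ℝ) / 2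

variable (E) in
/-- Mass of the approximate point mass. -/
noncomputable def c0 : ℝ := ∫ y : E, dl (kk E) 1 (‖y‖ ^ 2)

/-- Weighted averages. -/
noncomputable def AA (u : E → ℝ) (x : E) (t : ℝ) : ℝ := ∫ y, u y * dl (kk E) t (‖y - x‖ ^ 2)

/-- Positive solutions of the Poisson equation off the origin. -/
structure Sup (u ρ : E → ℝ) : Prop where
  hn : 2 ≤ finrank ℝ E
  cu : Continuous u
  pu : ∀ x, 0 < u x
  du : ContDiffOn ℝ 2 u {0}ᶜ
  cr : ContinuousOn ρ {0}ᶜ
  mr : Measurable ρ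
  nr : ∀ x, 0 ≤ ρ x
  he : ∀ x, x ≠ 0 → lap u x = -ρ x

variable {u ρ : E → ℝ} {ε R t : ℝ} {m : ℕ}

lemma kk_nonneg : 0 ≤ kk E := by unfold kk; positivity

lemma cs_radial {g : ℝ → ℝ} (hg : ∀ s, t ≤ s → g s = 0) (x : E) :
    HasCompactSupport fun y => g (‖y - x‖ ^ 2) :=
  HasCompactSupport.intro (isCompact_closedBall x (|t| + 1)) fun y hy => hg _ (by
    rw [mem_closedBall, dist_eq_norm, not_le] at hy
    have := le_abs_self t; have := abs_nonneg t
    nlinarith)

lemma cd_sq (x : E) : ContDiff ℝ 2 fun y : E => ‖y - x‖ ^ 2 :=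
  (contDiff_id.sub contDiff_const).norm_sq ℝ

lemma lap_gam (hε : 0 < ε) (hR : 0 < R) (x y : E) :
    -lap (fun y => gam (kk E) ε R (‖y - x‖ ^ 2)) y =
      dl (kk E) ε (‖y - x‖ ^ 2) - dl (kk E) R (‖y - x‖ ^ 2) := by
  rw [lap_radial (gam_deriv hε hR) (gam_deriv2 hε hR), ← dl_eq hε, ← dl_eq hR,
    show (finrank ℝ E : ℝ) = 2 * kk E by unfold kk; ring]
  ring

lemma int_AA (hu : Continuous u) (x : E) (t : ℝ) :
    Integrable fun y => u y * dl (kk E) t (‖y - x‖ ^ 2) :=
  (hu.mul (dl_cont.comp (cd_sq x).continuous)).integrable_of_hasCompactSupport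
    (cs_radial (fun _ => dl_zero) x).mul_left

lemma Sup.key (h : Sup u ρ) (x : E) (hε : 0 < ε) (hR : ε ≤ R) :
    AA u x R ≤ AA u x ε ∧ ∫⁻ y, ENNReal.ofReal (gam (kk E) ε R (‖y - x‖ ^ 2) * ρ y) =
      ENNReal.ofReal (AA u x ε - AA u x R) := by
  have := green1 h.hn ((gam_contDiff hε (hε.trans_le hR)).comp (cd_sq x))
    (cs_radial (fun _ => gam_zero (k := kk E) hR) x) (fun y => gam_nonneg kk_nonneg hε hR _)
    h.cu h.du h.cr h.mr h.nr h.he
  simp only [Function.comp_def, lap_gam hε (hε.trans_le hR), mul_sub] at this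
  rw [integral_sub (int_AA h.cu x ε) (int_AA h.cu x R)] at this
  exact ⟨sub_nonneg.mp this.1, this.2⟩

lemma int_dl (ht : 0 < t) (x : E) : ∫ y, dl (kk E) t (‖y - x‖ ^ 2) = c0 E := by
  have e : ∀ {a b : ℝ}, 0 < a → a ≤ b →
      ∫ y, dl (kk E) a (‖y - x‖ ^ 2) = ∫ y, dl (kk E) b (‖y - x‖ ^ 2) := by
    intro a b ha hb
    have := int_lap_zero ((gam_contDiff (k := kk E) ha (ha.trans_le hb)).comp (cd_sq x))
      (cs_radial (fun _ => gam_zero (k := kk E) hb) x)
    rw [← neg_eq_zero, ← integral_neg] at this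
    simp only [Function.comp_def, lap_gam ha (ha.trans_le hb)] at this
    rwa [integral_sub (by simpa using int_AA (u := fun _ => 1) continuous_const x a)
      (by simpa using int_AA (u := fun _ => 1) continuous_const x b), sub_eq_zero] at this
  rw [c0, ← integral_sub_right_eq_self (fun y : E => dl (kk E) 1 (‖y‖ ^ 2)) x]
  rcases le_total t 1 with h | h
  exacts [e ht h, (e one_pos h).symm]

lemma c0_pos (hn : 2 ≤ finrank ℝ E) : 0 < c0 E := by
  have hk : 0 < kk E := by
    have : (2 : ℝ) ≤ finrank ℝ E := by exact_mod_cast hn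
    unfold kk; linarith
  have hc : Continuous fun y : E => dl (kk E) 1 (‖y‖ ^ 2) := dl_cont.comp (by fun_prop)
  refine hc.integral_pos_of_hasCompactSupport_nonneg_nonzero (x := 0)
    (by simpa using cs_radial (g := dl (kk E) 1) (fun _ => dl_zero) (0 : E))
    (fun y => dl_nonneg hk.le one_pos) (ne_of_gt ?_)
  simp only [dl, norm_zero]; norm_num; positivity

lemma c0_nonneg : 0 ≤ c0 E := integral_nonneg fun _ => dl_nonneg kk_nonneg one_pos

lemma AA_tendsto (hu : Continuous u) (x : E) :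
    Tendsto (fun j : ℕ => AA u x ((j : ℝ) + 1)⁻¹) atTop (𝓝 (c0 E * u x)) := by
  rw [Metric.tendsto_atTop]
  intro ε hε
  have c := c0_nonneg (E := E)
  obtain ⟨δ, hδ, hδ'⟩ := Metric.continuous_iff.mp hu x (ε / (c0 E + 1)) (by positivity)
  obtain ⟨N, hN⟩ := eventually_atTop.mp (ev_between (s := δ ^ 2) (by positivity))
  refine ⟨N, fun j hj => ?_⟩
  have ht : 0 < ((j : ℝ) + 1)⁻¹ := by positivity
  have i1 := int_AA (u := fun _ => 1) continuous_const x ((j : ℝ) + 1)⁻¹
  simp only [one_mul] at i1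
  rw [dist_eq_norm, AA, ← int_dl ht x, ← integral_mul_const, ← integral_sub (int_AA hu x _)
    (i1.mul_const _)]
  refine (norm_integral_le_of_norm_le (i1.const_mul (ε / (c0 E + 1)))
    (Eventually.of_forall fun y => ?_)).trans_lt ?_
  · rw [mul_comm _ (u x), ← sub_mul, norm_mul, Real.norm_of_nonneg (dl_nonneg kk_nonneg ht)]
    rcases le_or_gt ((j : ℝ) + 1)⁻¹ (‖y - x‖ ^ 2) with h | h
    · simp [dl_zero h]
    · refine mul_le_mul_of_nonneg_right ?_ (dl_nonneg kk_nonneg ht)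
      rw [← dist_eq_norm]
      refine (hδ' y ?_).le
      rw [dist_eq_norm]
      exact lt_of_pow_lt_pow_left₀ 2 hδ.le (h.trans_le (hN j hj).1)
  · rw [integral_const_mul, int_dl ht, div_mul_eq_mul_div, div_lt_iff₀ (by positivity)]
    nlinarith

lemma Sup.AA_le (h : Sup u ρ) (x : E) (hR : 0 < R) : AA u x R ≤ c0 E * u x :=
  ge_of_tendsto (AA_tendsto h.cu x) ((ev_between hR).mono fun _ hj =>
    (h.key x (by positivity) hj.1).1)

lemma Sup.AA_nonneg (h : Sup u ρ) (x : E) (hR : 0 < R) : 0 ≤ AA u x R :=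
  integral_nonneg fun y => mul_nonneg (h.pu y).le (dl_nonneg kk_nonneg hR)

lemma Sup.AA_lint (h : Sup u ρ) (x : E) (hR : 0 < R) : ENNReal.ofReal (AA u x R) =
    ∫⁻ y, ENNReal.ofReal (u y * dl (kk E) R (‖y - x‖ ^ 2)) :=
  ofReal_integral_eq_lintegral_ofReal (int_AA h.cu x R) (Eventually.of_forall fun y =>
    mul_nonneg (h.pu y).le (dl_nonneg kk_nonneg hR))

lemma sq_kk (hR : 0 < R) : (R ^ 2) ^ (-kk E - 1) * R ^ 2 = (R ^ finrank ℝ E)⁻¹ := by
  rw [← Real.rpow_add_one (by positivity), sub_add_cancel, Real.rpow_neg (by positivity), kk,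
    sq_rpow_half _ hR.le]

variable (E) in
/-- Constant in the weak Harnack inequality. -/
noncomputable def CH : ℝ := c0 E * 2 ^ finrank ℝ E / (3 * kk E * (kk E + 1))

lemma CH_nonneg : 0 ≤ CH E := by
  have := c0_nonneg (E := E); have := kk_nonneg (E := E)
  unfold CH; positivity

lemma Sup.kk_pos (h : Sup u ρ) : 0 < kk E := by
  have : (2 : ℝ) ≤ finrank ℝ E := by exact_mod_cast h.hn
  unfold kk; linarith

theorem Sup.harn (h : Sup u ρ) (x : E) (hR : 0 < R) :
    ∫⁻ y in closedBall x R, ENNReal.ofReal (u y) ≤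
      ENNReal.ofReal (CH E * R ^ finrank ℝ E * u x) := by
  have hk := h.kk_pos
  have c := c0_nonneg (E := E)
  set D := (2 * R) ^ finrank ℝ E / (3 * kk E * (kk E + 1)) with hD
  have D0 : 0 ≤ D := by positivity
  have h1 : 0 < (2 * R) ^ 2 := by positivity
  calc _ ≤ ∫⁻ y in closedBall x R, ENNReal.ofReal D *
        ENNReal.ofReal (u y * dl (kk E) ((2 * R) ^ 2) (‖y - x‖ ^ 2)) := by
        refine setLIntegral_mono' measurableSet_closedBall fun y hy => ?_
        rw [← ENNReal.ofReal_mul D0, mul_left_comm]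
        refine ENNReal.ofReal_le_ofReal (le_mul_of_one_le_right (h.pu y).le ?_)
        rw [mem_closedBall, dist_eq_norm] at hy
        have h2 : ‖y - x‖ ^ 2 ≤ R ^ 2 := by gcongr
        have h3 : 3 / 4 * (2 * R) ^ 2 ≤ max ((2 * R) ^ 2 - ‖y - x‖ ^ 2) 0 :=
          le_max_of_le_left (by nlinarith)
        calc (1 : ℝ) = D * (4 * kk E * (kk E + 1) * ((2 * R) ^ 2) ^ (-kk E - 1) *
              (3 / 4 * (2 * R) ^ 2)) := by
              rw [mul_assoc _ (_ ^ (-kk E - 1)), mul_left_comm (_ ^ (-kk E - 1)),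
                sq_kk (by positivity), hD]
              field_simp
          _ ≤ _ := by unfold dl; gcongr
    _ ≤ ENNReal.ofReal D * ENNReal.ofReal (AA u x ((2 * R) ^ 2)) := by
        rw [h.AA_lint x h1, ← lintegral_const_mul' _ _ ENNReal.ofReal_ne_top]
        exact setLIntegral_le_lintegral _ _
    _ ≤ _ := by
        rw [← ENNReal.ofReal_mul D0]
        refine ENNReal.ofReal_le_ofReal ((mul_le_mul_of_nonneg_left (h.AA_le x h1) D0).trans
          (le_of_eq ?_))
        rw [hD, CH, mul_pow]; ring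

lemma Sup.AA_le' (h : Sup u ρ) {x z : E} (hR : 0 < R) (hx : ‖x‖ ≤ R) (hz : ‖z‖ ≤ R) :
    AA u x (R ^ 2) ≤ 4 * kk E * (kk E + 1) * (CH E * 3 ^ finrank ℝ E) * u z := by
  have hk := h.kk_pos
  have c := CH_nonneg (E := E)
  have := h.pu z
  set D := 4 * kk E * (kk E + 1) * (R ^ finrank ℝ E)⁻¹ with hD
  have D0 : 0 ≤ D := by positivity
  rw [← ENNReal.ofReal_le_ofReal_iff (by positivity), h.AA_lint x (by positivity)]
  calc _ ≤ ∫⁻ y, (closedBall z (3 * R)).indicator
        (fun y => ENNReal.ofReal D * ENNReal.ofReal (u y)) y := by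
        refine lintegral_mono fun y => ?_
        rcases le_total (R ^ 2) (‖y - x‖ ^ 2) with h1 | h1
        · simp [dl_zero h1]
        · have h2 : ‖y - x‖ ≤ R := le_of_sq_le_sq h1 hR.le
          have h3 : y ∈ closedBall z (3 * R) := by
            rw [mem_closedBall, dist_eq_norm, show y - z = y - x + x - z by abel]
            have := norm_sub_le (y - x + x) z; have := norm_add_le (y - x) x
            linarith
          rw [indicator_of_mem h3, ← ENNReal.ofReal_mul D0, mul_comm]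
          refine ENNReal.ofReal_le_ofReal (mul_le_mul_of_nonneg_right ?_ (h.pu y).le)
          rw [hD, ← sq_kk hR, ← mul_assoc, dl]
          gcongr
          exact max_le (sub_le_self _ (by positivity)) (by positivity)
    _ ≤ ENNReal.ofReal D * ENNReal.ofReal (CH E * (3 * R) ^ finrank ℝ E * u z) := by
        rw [lintegral_indicator measurableSet_closedBall,
          lintegral_const_mul' _ _ ENNReal.ofReal_ne_top]
        exact mul_le_mul_right (h.harn z (by positivity)) _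
    _ = _ := by
        rw [← ENNReal.ofReal_mul D0, hD, mul_pow]; congr 1; field_simp

variable (E) in
/-- Normalising constant of the Newtonian potential. -/
noncomputable def cc : ℝ := c0 E * (kk E - 1)

lemma kk_eq (hm : finrank ℝ E = m + 2) : kk E - 1 = m / 2 := by
  rw [kk, hm]; push_cast; ring

lemma kk_gt (hm : finrank ℝ E = m + 2) (h0 : 0 < m) : 0 < kk E - 1 := by
  rw [kk_eq hm]; positivity

lemma cc_pos (hm : finrank ℝ E = m + 2) (h0 : 0 < m) : 0 < cc E :=
  mul_pos (c0_pos (by omega)) (kk_gt hm h0)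

lemma lim_eq (hm : finrank ℝ E = m + 2) (h0 : 0 < m) {x y : E} (hy : y ≠ x) (a : ℝ) :
    ENNReal.ofReal ((‖y - x‖ ^ 2) ^ (1 - kk E) / (kk E - 1) * a) =
      ENNReal.ofReal (kk E - 1)⁻¹ * (Ke m (x - y) * ENNReal.ofReal a) := by
  have hk := kk_gt hm h0
  rw [Ke_sub_comm, Ke_of_ne m (sub_ne_zero.mpr hy), ← ENNReal.ofReal_mul (by positivity),
    ← ENNReal.ofReal_mul (by positivity), ← neg_sub (kk E) 1, Real.rpow_neg (by positivity)]
  congr 1
  nth_rewrite 1 [kk_eq hm]
  rw [sq_rpow_half _ (norm_nonneg _)]; ring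

lemma Sup.mg (h : Sup u ρ) (x : E) (j : ℕ) : Measurable fun y =>
    ENNReal.ofReal (gam (kk E) ((j : ℝ) + 1)⁻¹ (j + 1) (‖y - x‖ ^ 2) * ρ y) :=
  (((gam_contDiff (by positivity) (by positivity)).comp (cd_sq x)).continuous.measurable.mul
    h.mr).ennreal_ofReal

lemma Sup.fatou (h : Sup u ρ) (x : E) {g : E → ℝ≥0∞} (hg : ∀ᵐ y, Tendsto (fun j : ℕ =>
    ENNReal.ofReal (gam (kk E) ((j : ℝ) + 1)⁻¹ (j + 1) (‖y - x‖ ^ 2) * ρ y)) atTop (𝓝 (g y))) :
    ∫⁻ y, g y ≤ ENNReal.ofReal (c0 E * u x) := by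
  rw [← lintegral_congr_ae (hg.mono fun y hy => hy.liminf_eq)]
  refine (lintegral_liminf_le (h.mg x)).trans (liminf_le_of_frequently_le'
    (Frequently.of_forall fun j => ?_))
  rw [(h.key x (by positivity) (inv_le_self' j)).2]
  exact ENNReal.ofReal_le_ofReal ((sub_le_self _ (h.AA_nonneg x (by positivity))).trans
    (h.AA_le x (by positivity)))

lemma gam_lim (ρ : E → ℝ) (hm : finrank ℝ E = m + 2) (h0 : 0 < m) (x : E) :
    ∀ᵐ y, Tendsto (fun j : ℕ =>
      ENNReal.ofReal (gam (kk E) ((j : ℝ) + 1)⁻¹ (j + 1) (‖y - x‖ ^ 2) * ρ y)) atTop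
      (𝓝 (ENNReal.ofReal (kk E - 1)⁻¹ * (Ke m (x - y) * ENNReal.ofReal (ρ y)))) := by
  have : Nontrivial E := Module.nontrivial_of_finrank_pos (R := ℝ) (by omega)
  filter_upwards [Measure.ae_ne volume x] with y hy
  rw [← lim_eq hm h0 hy]
  have := norm_pos_iff.mpr (sub_ne_zero.mpr hy)
  exact ENNReal.tendsto_ofReal ((gam_tendsto (by linarith [kk_gt hm h0]) (by positivity)).mul_const _)

lemma cancel_k (hk : 0 < t) (a : ℝ≥0∞) : ENNReal.ofReal t * (ENNReal.ofReal t⁻¹ * a) = a := by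
  rw [← mul_assoc, ← ENNReal.ofReal_mul hk.le, mul_inv_cancel₀ hk.ne']; simp

theorem Sup.le (h : Sup u ρ) (hm : finrank ℝ E = m + 2) (h0 : 0 < m) (x : E) :
    ∫⁻ y, Ke m (x - y) * ENNReal.ofReal (ρ y) ≤ ENNReal.ofReal (cc E * u x) := by
  have hk := kk_gt hm h0
  have := h.fatou x (gam_lim ρ hm h0 x)
  rw [lintegral_const_mul' _ _ ENNReal.ofReal_ne_top] at this
  rw [← cancel_k hk (∫⁻ y, _), cc, mul_comm (c0 E), mul_assoc, ENNReal.ofReal_mul hk.le]
  exact mul_le_mul_right this _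

theorem Sup.eq (h : Sup u ρ) (hm : finrank ℝ E = m + 2) (h0 : 0 < m)
    (hz : ∀ δ, 0 < δ → ∃ z, u z ≤ δ) (x : E) :
    ENNReal.ofReal (cc E * u x) = ∫⁻ y, Ke m (x - y) * ENNReal.ofReal (ρ y) := by
  have : Nontrivial E := Module.nontrivial_of_finrank_pos (R := ℝ) (by omega)
  have hk := kk_gt hm h0
  have T1 := tendsto_lintegral_of_dominated_convergence
    (fun y => ENNReal.ofReal (kk E - 1)⁻¹ * (Ke m (x - y) * ENNReal.ofReal (ρ y))) (h.mg x)
    (fun j => by
      filter_upwards [Measure.ae_ne volume x] with y hy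
      rw [← lim_eq hm h0 hy]
      have := norm_pos_iff.mpr (sub_ne_zero.mpr hy)
      exact ENNReal.ofReal_le_ofReal (mul_le_mul_of_nonneg_right (gam_le (by linarith)
        (by positivity) (inv_le_self' j) (by positivity)) (h.nr y)))
    (by
      rw [lintegral_const_mul' _ _ ENNReal.ofReal_ne_top]
      exact ENNReal.mul_ne_top ENNReal.ofReal_ne_top
        ((h.le hm h0 x).trans_lt ENNReal.ofReal_lt_top).ne) (gam_lim ρ hm h0 x)
  have T2 : Tendsto (fun j : ℕ => AA u x ((j : ℝ) + 1)) atTop (𝓝 0) := by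
    rw [Metric.tendsto_atTop]
    intro ε hε
    have := h.kk_pos; have := CH_nonneg (E := E)
    set D := 4 * kk E * (kk E + 1) * (CH E * 3 ^ finrank ℝ E) with hD
    have D0 : 0 ≤ D := by positivity
    obtain ⟨z, hz⟩ := hz (ε / (D + 1)) (by positivity)
    obtain ⟨N, hN⟩ := exists_nat_gt ((‖x‖ + ‖z‖ + 1) ^ 2)
    refine ⟨N, fun j hj => ?_⟩
    have hj' : (N : ℝ) ≤ j := Nat.cast_le.mpr hj
    rw [dist_zero_right, Real.norm_of_nonneg (h.AA_nonneg x (by positivity))]
    refine (h.key x (by positivity) (by linarith : (‖x‖ + ‖z‖ + 1) ^ 2 ≤ j + 1)).1.trans_lt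
      ((h.AA_le' (z := z) (by positivity) (by linarith [norm_nonneg z])
        (by linarith [norm_nonneg x])).trans_lt ((mul_le_mul_of_nonneg_left hz D0).trans_lt ?_))
    rw [← mul_div_assoc, div_lt_iff₀ (by positivity)]; nlinarith
  have T3 := ENNReal.tendsto_ofReal ((AA_tendsto h.cu x).sub T2)
  rw [sub_zero] at T3
  have := tendsto_nhds_unique (T3.congr fun j => (h.key x (by positivity) (inv_le_self' j)).2.symm) T1
  rw [lintegral_const_mul' _ _ ENNReal.ofReal_ne_top] at this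
  rw [← cancel_k hk (∫⁻ y, _), cc, mul_comm (c0 E), mul_assoc, ENNReal.ofReal_mul hk.le, this]

theorem Sup.two (h : Sup u ρ) (hm : finrank ℝ E = 2) (hρ : ∀ y, y ≠ 0 → 0 < ρ y) : False := by
  have : Nontrivial E := Module.nontrivial_of_finrank_pos (R := ℝ) (by omega)
  have hk : kk E = 1 := by rw [kk, hm]; norm_num
  have := h.fatou 0 (g := fun _ => ⊤) (by
    filter_upwards [Measure.ae_ne volume (0 : E)] with y hy
    have := norm_pos_iff.mpr (sub_ne_zero.mpr hy)
    rw [hk]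
    exact ENNReal.tendsto_ofReal_atTop.comp ((gam_tendsto_one (by positivity)).atTop_mul_const
      (hρ y hy)))
  simp at this

end Vale.Agent.P100
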